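import Crest.Agent.R155.Defs

open Finset Matrix
open scoped BigOperators

namespace Crest.Agent.R155

section LmAPI

variable {α X : Type} [Fintype X] [DecidableEq X]

theorem Lm_apply (act : Equiv.Perm α →* Equiv.Perm X) (σ : Equiv.Perm α) (x y : X) :
    Lm act σ x y = if act σ⁻¹ x = y then 1 else 0 := by
  simp [Lm, Equiv.Perm.permMatrix, PEquiv.toMatrix_apply, Equiv.toPEquiv_apply]

theorem Lm_mulVec (act : Equiv.Perm α →* Equiv.Perm X) (σ : Equiv.Perm α) (f : X → ℝ) (x : X) :
    (Lm act σ *ᵥ f) x = f (act σ⁻¹ x) := by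
  simp [mulVec, dotProduct, Lm_apply]

theorem Lm_transpose (act : Equiv.Perm α →* Equiv.Perm X) (σ : Equiv.Perm α) :
    (Lm act σ)ᵀ = Lm act σ⁻¹ := by
  simp [Lm]

theorem Lm_comp {β : Type} (act : Equiv.Perm α →* Equiv.Perm X)
    (φ : Equiv.Perm β →* Equiv.Perm α) (σ : Equiv.Perm β) :
    Lm (act.comp φ) σ = Lm act (φ σ) := rfl

theorem Lm_nsq (act : Equiv.Perm α →* Equiv.Perm X) (σ : Equiv.Perm α) (f : X → ℝ) :
    (Lm act σ *ᵥ f) ⬝ᵥ (Lm act σ *ᵥ f) = f ⬝ᵥ f := by
  simp only [dotProduct, Lm_mulVec]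
  exact Equiv.sum_comp (act σ⁻¹) (fun x => f x * f x)

end LmAPI

section AvgAPI

variable {ι X : Type} [Fintype ι]

theorem avgM_apply (f : ι → Matrix X X ℝ) (x y : X) : avgM f x y = 𝔼 i, f i x y := by
  simp [avgM, Matrix.sum_apply, Finset.expect_eq_sum_div_card, div_eq_inv_mul]

theorem avgM_transpose (f : ι → Matrix X X ℝ) : (avgM f)ᵀ = avgM (fun i => (f i)ᵀ) := by
  ext x y; simp [avgM_apply]

variable [Fintype X]

theorem avgM_mulVec (f : ι → Matrix X X ℝ) (v : X → ℝ) (x : X) :
    (avgM f *ᵥ v) x = 𝔼 i, (f i *ᵥ v) x := by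
  simp only [mulVec, dotProduct, avgM_apply, Finset.expect_mul]
  rw [Finset.expect_sum_comm]

theorem avgM_mul (f : ι → Matrix X X ℝ) (M : Matrix X X ℝ) :
    avgM f * M = avgM (fun i => f i * M) := by
  simp [avgM, Finset.sum_mul]

theorem mul_avgM (f : ι → Matrix X X ℝ) (M : Matrix X X ℝ) :
    M * avgM f = avgM (fun i => M * f i) := by
  simp [avgM, Finset.mul_sum]

theorem commute_avgM (f : ι → Matrix X X ℝ) (M : Matrix X X ℝ) (h : ∀ i, Commute M (f i)) :
    Commute M (avgM f) := by
  unfold Commute SemiconjBy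
  rw [avgM_mul, mul_avgM]
  congr 1
  funext i
  exact h i

omit [Fintype X] in
theorem avgM_equiv {κ : Type} [Fintype κ] (e : ι ≃ κ) (f : κ → Matrix X X ℝ) :
    avgM (fun i => f (e i)) = avgM f := by
  ext x y
  simp only [avgM_apply]
  exact Fintype.expect_equiv e _ _ (fun _ => rfl)

omit [Fintype X] in
theorem avgM_const [Nonempty ι] (M : Matrix X X ℝ) : avgM (fun _ : ι => M) = M := by
  ext x y
  simp [avgM_apply]

end AvgAPI

section SwAPI

/-- Decomposition of the switch settings. -/
def swEquiv (h : ℕ) : Sw (h + 1) ≃ (Cube h → Bool) × Sw h × Sw h where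
  toFun ω := (hd ω, tl ω false, tl ω true)
  invFun t := fun i => match i with
    | Sum.inl p => t.1 p
    | Sum.inr (false, i) => t.2.1 i
    | Sum.inr (true, i) => t.2.2 i
  left_inv ω := by
    funext i
    rcases i with p | ⟨b, i⟩
    · rfl
    · cases b <;> rfl
  right_inv t := rfl

theorem expect_sw_succ {h : ℕ} (F : (Cube h → Bool) → Sw h → Sw h → ℝ) :
    𝔼 ω : Sw (h + 1), F (hd ω) (tl ω false) (tl ω true) = 𝔼 s, 𝔼 a, 𝔼 b, F s a b := by
  rw [Fintype.expect_equiv (swEquiv h) (fun ω => F (hd ω) (tl ω false) (tl ω true))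
    (fun t => F t.1 t.2.1 t.2.2) (fun _ => rfl)]
  rw [← Finset.univ_product_univ, Finset.expect_product]
  refine Finset.expect_congr rfl (fun s _ => ?_)
  rw [← Finset.univ_product_univ, Finset.expect_product]

end SwAPI

section StepAPI

variable {P : Type}

@[simp] theorem sw_apply (s : P → Bool) (x : Bool × P) : sw s x = (xor x.1 (s x.2), x.2) := rfl

@[simp] theorem both_apply (g : Bool → Equiv.Perm P) (x : Bool × P) :
    both g x = (x.1, g x.1 x.2) := rfl

@[simp] theorem inc_apply (b : Bool) (σ : Equiv.Perm P) (x : Bool × P) :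
    inc b σ x = (x.1, if x.1 = b then σ x.2 else x.2) := by
  by_cases h : x.1 = b <;> simp [inc, h]

theorem sw_inv (s : P → Bool) : (sw s)⁻¹ = sw s := rfl

theorem sw_mul_self (s : P → Bool) : sw s * sw s = 1 := by
  ext x <;> simp

theorem sw_mul_sw (s t : P → Bool) : sw s * sw t = sw (fun p => xor (s p) (t p)) := by
  ext ⟨b, p⟩
  · simp only [Equiv.Perm.coe_mul, Function.comp_apply, sw_apply]
    cases b <;> cases s p <;> cases t p <;> rfl
  · simp

theorem both_eq (g : Bool → Equiv.Perm P) : both g = inc false (g false) * inc true (g true) := by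
  ext ⟨b, p⟩ <;> cases b <;> simp

theorem both_mul (g g' : Bool → Equiv.Perm P) : both g * both g' = both (fun b => g b * g' b) := by
  ext ⟨b, p⟩ <;> simp

theorem both_inv (g : Bool → Equiv.Perm P) : (both g)⁻¹ = both (fun b => (g b)⁻¹) := by
  rw [inv_eq_iff_mul_eq_one, both_mul]
  ext ⟨b, p⟩ <;> simp

theorem commute_inc (σ τ : Equiv.Perm P) : Commute (inc false σ) (inc true τ) := by
  ext ⟨b, p⟩ <;> cases b <;> simp

theorem inc_swap [DecidableEq P] (b : Bool) (p q : P) :
    inc b (Equiv.swap p q) = Equiv.swap (b, p) (b, q) := by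
  ext1 ⟨c, r⟩
  simp only [inc_apply, Equiv.swap_apply_def, Prod.mk.injEq]
  by_cases hc : c = b
  · subst hc
    by_cases h1 : r = p
    · simp [h1]
    · by_cases h2 : r = q
      · subst h2; simp [h1]
      · simp [h1, h2]
  · simp [hc]

variable [Fintype P] [DecidableEq P]

@[simp] theorem mem_half (b : Bool) (S : Finset (Bool × P)) (p : P) :
    p ∈ half b S ↔ (b, p) ∈ S := by simp [half]

theorem card_half_add (S : Finset (Bool × P)) :
    (half false S).card + (half true S).card = S.card := by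
  have h1 : ∀ b, (half b S).card = (S.filter (fun x => x.1 = b)).card := by
    intro b
    refine Finset.card_bij (fun p _ => (b, p)) ?_ ?_ ?_
    · intro p hp; simpa using hp
    · intro p _ q _ h; simpa using h
    · rintro ⟨c, p⟩ hx
      simp only [Finset.mem_filter] at hx
      obtain ⟨hx, rfl⟩ := hx
      exact ⟨p, by simpa using hx, rfl⟩
  rw [h1, h1, ← Finset.card_filter_add_card_filter_not (s := S) (fun x => x.1 = false)]
  congr 2
  ext x; simp

theorem half_map_both (b : Bool) (S : Finset (Bool × P)) (g : Bool → Equiv.Perm P) :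
    half b (S.map (both g).toEmbedding) = (half b S).map (g b).toEmbedding := by
  ext p
  simp only [mem_half, Finset.mem_map_equiv]
  have : (both g).symm (b, p) = (b, (g b).symm p) := by
    rw [Equiv.symm_apply_eq]; simp
  rw [this]

theorem half_map_inc (b : Bool) (S : Finset (Bool × P)) (σ : Equiv.Perm P) :
    half b (S.map (inc b σ).toEmbedding) = (half b S).map σ.toEmbedding := by
  have := half_map_both b S (fun c => if c = b then σ else 1)
  simp only [if_true] at this
  exact this

theorem half_map_inc_ne (b c : Bool) (hbc : b ≠ c) (S : Finset (Bool × P)) (σ : Equiv.Perm P) :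
    half b (S.map (inc c σ).toEmbedding) = half b S := by
  have := half_map_both b S (fun c' => if c' = c then σ else 1)
  simp only [if_neg hbc] at this
  refine this.trans ?_
  exact Finset.map_refl

/-- The configuration space seen from one half. -/
def Cfg.sub {X : Type} (C : Cfg (Bool × P) X) (b : Bool) : Cfg P X where
  act := C.act.comp (inc b)
  occ x := half b (C.occ x)
  occ_act σ x := by
    simp only [MonoidHom.comp_apply, C.occ_act, half_map_inc]
  fix u v x hu hv := by
    simp only [MonoidHom.comp_apply, inc_swap]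
    exact C.fix _ _ _ (by simpa using hu) (by simpa using hv)

end StepAPI

theorem card_cube (h : ℕ) : Fintype.card (Cube h) = 2 ^ h := by
  induction h with
  | zero => rfl
  | succ h ih =>
    have : Fintype.card (Cube (h + 1)) = Fintype.card (Bool × Cube h) := rfl
    rw [this, Fintype.card_prod, ih, Fintype.card_bool, pow_succ]; ring

/-- The transition matrix of one round. -/
noncomputable def Pm {P X : Type} [Fintype P] [DecidableEq P] [Fintype X] [DecidableEq X]
    (act : Equiv.Perm (Bool × P) →* Equiv.Perm X) : Matrix X X ℝ :=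
  avgM (fun s : P → Bool => Lm act (sw s))

section TmAPI

variable {X : Type} [Fintype X] [DecidableEq X]

theorem Tm_zero (act : Equiv.Perm (Cube 0) →* Equiv.Perm X) : Tm 0 act = 1 := by
  unfold Tm
  have : (fun ω : Sw 0 => Lm act (net 0 ω)) = fun _ => 1 := by
    funext ω; exact map_one _
  rw [this, avgM_const]

theorem Tm_succ (h : ℕ) (act : Equiv.Perm (Bool × Cube h) →* Equiv.Perm X) :
    Tm (h + 1) act
      = Tm h (act.comp (inc false)) * Tm h (act.comp (inc true)) * Pm act := by
  ext x y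
  have h1 : Tm (h + 1) act x y = 𝔼 s : Cube h → Bool, 𝔼 a : Sw h, 𝔼 b : Sw h,
      (Lm act (inc false (net h a)) * Lm act (inc true (net h b)) * Lm act (sw s)) x y := by
    rw [← expect_sw_succ (fun s a b =>
      (Lm act (inc false (net h a)) * Lm act (inc true (net h b)) * Lm act (sw s)) x y)]
    unfold Tm
    rw [avgM_apply]
    refine Finset.expect_congr rfl (fun ω _ => ?_)
    rw [← map_mul, ← map_mul, ← both_eq (fun b => net h (tl ω b))]
    rfl
  rw [h1]
  unfold Tm Pm
  simp only [mul_avgM, avgM_mul, avgM_apply, Lm_comp]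
  refine Finset.expect_congr rfl (fun s _ => ?_)
  rw [Finset.expect_comm]

theorem commute_Tm (h : ℕ) (act : Equiv.Perm (Cube h) →* Equiv.Perm X) (M : Matrix X X ℝ)
    (hM : ∀ σ, Commute M (Lm act σ)) : Commute M (Tm h act) :=
  commute_avgM _ _ (fun _ => hM _)

theorem commute_kap {α : Type} [Fintype α] [DecidableEq α] (act : Equiv.Perm α →* Equiv.Perm X)
    (M : Matrix X X ℝ) (hM : ∀ σ, Commute M (Lm act σ)) : Commute M (kap act) := by
  unfold kap
  refine Commute.smul_right ?_ _
  refine Commute.sum_right _ _ _ (fun u _ => Commute.sum_right _ _ _ (fun v _ => ?_))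
  exact (Commute.one_right M).sub_right (hM _)

theorem kap_transpose {α : Type} [Fintype α] [DecidableEq α]
    (act : Equiv.Perm α →* Equiv.Perm X) : (kap act)ᵀ = kap act := by
  simp [kap, transpose_sum, Lm_transpose]

/-- The Laplacian of the complete graph is central. -/
theorem commute_Lm_kap {α : Type} [Fintype α] [DecidableEq α]
    (act : Equiv.Perm α →* Equiv.Perm X) (σ : Equiv.Perm α) : Commute (Lm act σ) (kap act) := by
  unfold kap
  refine Commute.smul_right ?_ _
  unfold Commute SemiconjBy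
  simp only [Finset.mul_sum, Finset.sum_mul, mul_sub, sub_mul, mul_one, one_mul, ← map_mul]
  symm
  rw [← Equiv.sum_comp σ]
  refine Finset.sum_congr rfl (fun u _ => ?_)
  rw [← Equiv.sum_comp σ]
  refine Finset.sum_congr rfl (fun v _ => ?_)
  rw [Equiv.mul_swap_eq_swap_mul]

/-- Jensen's inequality for one pass, with a weight on the final configuration. -/
theorem weighted_Tm_le (h : ℕ) (act : Equiv.Perm (Cube h) →* Equiv.Perm X) (w : X → ℝ)
    (hw : ∀ x, 0 ≤ w x) (c : ℝ) (hc : ∀ x, 𝔼 ω : Sw h, w (act (net h ω) x) ≤ c) (f : X → ℝ) :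
    ∑ y, w y * (Tm h act *ᵥ f) y ^ 2 ≤ c * (f ⬝ᵥ f) := by
  have h1 : ∀ y, (Tm h act *ᵥ f) y ^ 2 ≤ 𝔼 ω : Sw h, f (act (net h ω)⁻¹ y) ^ 2 := by
    intro y
    unfold Tm
    rw [avgM_mulVec]
    simp only [Lm_mulVec]
    have := Finset.expect_mul_sq_le_sq_mul_sq (univ : Finset (Sw h))
      (fun ω => f (act (net h ω)⁻¹ y)) (fun _ => (1 : ℝ))
    simpa using this
  calc ∑ y, w y * (Tm h act *ᵥ f) y ^ 2
      ≤ ∑ y, w y * 𝔼 ω : Sw h, f (act (net h ω)⁻¹ y) ^ 2 :=
        Finset.sum_le_sum (fun y _ => mul_le_mul_of_nonneg_left (h1 y) (hw y))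
    _ = 𝔼 ω : Sw h, ∑ y, w y * f (act (net h ω)⁻¹ y) ^ 2 := by
        rw [Finset.expect_sum_comm]
        simp only [Finset.mul_expect]
    _ = 𝔼 ω : Sw h, ∑ x, w (act (net h ω) x) * f x ^ 2 := by
        refine Finset.expect_congr rfl (fun ω _ => ?_)
        rw [← Equiv.sum_comp (act (net h ω))]
        simp
    _ = ∑ x, (𝔼 ω : Sw h, w (act (net h ω) x)) * f x ^ 2 := by
        rw [Finset.expect_sum_comm]
        simp only [Finset.expect_mul]
    _ ≤ ∑ x, c * f x ^ 2 :=
        Finset.sum_le_sum (fun x _ => mul_le_mul_of_nonneg_right (hc x) (sq_nonneg _))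
    _ = c * (f ⬝ᵥ f) := by
        simp only [dotProduct, Finset.mul_sum, sq]

end TmAPI

end Crest.Agent.R155
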