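import Crest.Agent.R155.BenesB

open Finset Matrix
open scoped BigOperators

namespace Crest.Agent.R155

theorem holder_tilt {Ω : Type} [Fintype Ω] (M : Ω → Prop) [DecidablePred M] (Φ : Ω → ℝ)
    (hΦ : ∀ ω, 0 < Φ ω) (h : 𝔼 ω, (if M ω then (Φ ω)⁻¹ else 0) ≤ 1) :
    (𝔼 ω, if M ω then (1 : ℝ) else 0) ^ ((32 : ℝ) / 31)
      ≤ 𝔼 ω, if M ω then Φ ω ^ ((1 : ℝ) / 31) else 0 := by
  set t : ℝ := 𝔼 ω, if M ω then (1 : ℝ) else 0 with ht
  set A : ℝ := 𝔼 ω, if M ω then Φ ω ^ ((1 : ℝ) / 31) else 0 with hA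
  have hA0 : 0 ≤ A := Finset.expect_nonneg fun ω _ => by
    have := hΦ ω; split_ifs <;> positivity
  have ht0 : 0 ≤ t := Finset.expect_nonneg fun ω _ => by split_ifs <;> norm_num
  rcases ht0.eq_or_lt with h0 | h0
  · rw [← h0, Real.zero_rpow (by norm_num)]; exact hA0
  have h1 : ∀ ω, (if M ω then (1 : ℝ) else 0) ≤
      31 / 32 * (t ^ ((1 : ℝ) / 31))⁻¹ * (if M ω then Φ ω ^ ((1 : ℝ) / 31) else 0)
        + 1 / 32 * t * (if M ω then (Φ ω)⁻¹ else 0) := by
    intro ω
    have hp := hΦ ω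
    split_ifs
    · have := Real.geom_mean_le_arith_mean2_weighted (w₁ := 31 / 32) (w₂ := 1 / 32)
        (p₁ := (Φ ω / t) ^ ((1 : ℝ) / 31)) (p₂ := t / Φ ω) (by norm_num) (by norm_num)
        (by positivity) (by positivity) (by norm_num)
      rw [← Real.rpow_mul (by positivity), show (1 : ℝ) / 31 * (31 / 32) = 1 / 32 by norm_num,
        ← Real.mul_rpow (by positivity) (by positivity), Real.div_rpow hp.le h0.le,
        show Φ ω / t * (t / Φ ω) = 1 by field_simp, Real.one_rpow] at this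
      refine this.trans (le_of_eq ?_)
      ring
    · simp
  have h2 : t ≤ 31 / 32 * (t ^ ((1 : ℝ) / 31))⁻¹ * A + 1 / 32 * t * 1 := by
    refine (Finset.expect_le_expect fun ω _ => h1 ω).trans ?_
    rw [Finset.expect_add_distrib, ← Finset.mul_expect, ← Finset.mul_expect]
    gcongr
  have h3 : 0 < t ^ ((1 : ℝ) / 31) := by positivity
  have h4 : t ≤ (t ^ ((1 : ℝ) / 31))⁻¹ * A := by linarith
  rw [le_inv_mul_iff₀ h3] at h4
  rw [show (32 : ℝ) / 31 = 1 / 31 + 1 by norm_num, Real.rpow_add h0, Real.rpow_one]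
  exact h4

/-- Schatten norm of one pass acting on injective tuples. -/
theorem trace_benes_le (D : ℕ) (I : Type) [Fintype I] [DecidableEq I] :
    ((((Tm D (tupAct I (Cube D)))ᵀ) * Tm D (tupAct I (Cube D))) ^ 32).trace
      ≤ Real.exp (24 * (Fintype.card I : ℝ)) := by
  set act := tupAct I (Cube D) with hact
  set ν := (Tm D act)ᵀ * Tm D act with hν
  set k := Fintype.card I with hk
  have hsymm : ∀ x y, ν x y = ν y x := fun x y => by
    have : νᵀ = ν := by rw [hν, transpose_mul, transpose_transpose]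
    conv_lhs => rw [← this]
    rfl
  have hν2 : ∀ x y, ν y x = 𝔼 t : Sw D × Sw D, if act (ben D t.1 t.2) x = y then (1 : ℝ) else 0 := by
    intro x y
    rw [← Finset.univ_product_univ, Finset.expect_product]
    simp only [hν, Tm, avgM_transpose, avgM_mul, mul_avgM, avgM_apply, Lm_transpose, ← map_mul,
      Lm_apply]
    refine Finset.expect_congr rfl fun ω _ => Finset.expect_congr rfl fun ω' _ => ?_
    refine if_congr ?_ rfl rfl
    rw [map_inv, Equiv.Perm.inv_eq_iff_eq, eq_comm]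
    rfl
  have h0 : ∀ x y, 0 ≤ ν x y := fun x y => by
    rw [hν2]; exact Finset.expect_nonneg fun _ _ => by split_ifs <;> norm_num
  have hb : ∀ x, ∑ y, ν x y ^ (((32 : ℕ) : ℝ) / (((32 : ℕ) : ℝ) - 1))
      ≤ (2 : ℝ) ^ (-((D * k : ℕ) : ℝ) / 31) * Real.exp (24 / 31 * k) := by
    intro x
    set S : Finset (Cube D) := univ.map x with hS
    have hSk : S.card = k := by simp [hS, hk]
    set Φ : Sw D × Sw D → ℝ := fun t =>
      (2 : ℝ) ^ (∑ j ∈ Icc 1 D, lev j D S t.1 t.2) / 2 ^ (D * k) with hΦ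
    have hΦ0 : ∀ t, 0 < Φ t := fun t => by positivity
    have h1 : ∀ y, ν x y ^ (((32 : ℕ) : ℝ) / (((32 : ℕ) : ℝ) - 1))
        ≤ 𝔼 t : Sw D × Sw D, if act (ben D t.1 t.2) x = y then Φ t ^ ((1 : ℝ) / 31) else 0 := by
      intro y
      rw [hsymm, hν2, show ((32 : ℕ) : ℝ) / (((32 : ℕ) : ℝ) - 1) = 32 / 31 by norm_num]
      refine holder_tilt _ Φ hΦ0 ?_
      refine le_trans ?_ (benes_weight (Icc 1 D) D (fun j h1 h2 => Finset.mem_Icc.2 ⟨h1, h2⟩) S
        (Function.extend x y id))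
      rw [← Finset.univ_product_univ, Finset.expect_product]
      refine Finset.expect_le_expect fun ω _ => Finset.expect_le_expect fun ω' _ => ?_
      by_cases hm : act (ben D ω ω') x = y
      · rw [if_pos hm, if_pos, hΦ, hSk, inv_div]
        intro z hz
        obtain ⟨i, -, rfl⟩ := Finset.mem_map.1 hz
        rw [x.injective.extend_apply, ← hm]
        rfl
      · rw [if_neg hm]; split_ifs <;> positivity
    refine (Finset.sum_le_sum fun y _ => h1 y).trans ?_
    rw [← Finset.expect_sum_comm]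
    simp only [Finset.sum_ite_eq, Finset.mem_univ, if_true]
    rw [← Finset.univ_product_univ, Finset.expect_product]
    refine Finset.expect_le univ_nonempty fun ω _ => ?_
    rw [← hSk]
    refine le_trans (le_of_eq ?_) (mul_le_mul_of_nonneg_left (lev_moment D S ω) (by positivity))
    rw [Finset.mul_expect]
    refine Finset.expect_congr rfl fun ω' _ => ?_
    simp only [hΦ]
    rw [← Real.rpow_natCast, ← Real.rpow_natCast, ← Real.rpow_sub (by norm_num),
      ← Real.rpow_mul (by norm_num), ← Real.rpow_add (by norm_num), hSk]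
    congr 1; ring
  refine (trace_pow_le_young ν h0 hsymm 32 (by norm_num) _ hb).trans ?_
  have hc : (Fintype.card (I ↪ Cube D) : ℝ) ≤ 2 ^ (D * k) := by
    rw [Fintype.card_embedding_eq, card_cube, pow_mul]
    exact_mod_cast Nat.descFactorial_le_pow _ _
  rw [mul_pow, ← Real.rpow_natCast, ← Real.rpow_mul (by norm_num), ← Real.exp_nat_mul,
    show (-((D * k : ℕ) : ℝ) / 31 * ((32 - 1 : ℕ) : ℝ)) = -((D * k : ℕ) : ℝ) by norm_num,
    Real.rpow_neg (by norm_num), Real.rpow_natCast, ← mul_assoc]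
  calc _ ≤ 1 * Real.exp (((32 - 1 : ℕ) : ℝ) * (24 / 31 * k)) := by
        refine mul_le_mul_of_nonneg_right ?_ (Real.exp_pos _).le
        rw [← div_eq_mul_inv, div_le_one (by positivity)]; exact hc
    _ = _ := by rw [one_mul]; congr 1; norm_num; ring

end Crest.Agent.R155
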