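import Crest.Agent.R155.CycleAux

open Finset Matrix
open scoped BigOperators

namespace Crest.Agent.R155

theorem cyc_inv {P : Type} (E : Finset P) (g : Equiv.Perm P) : cyc E g⁻¹ = cyc E g := by
  simp only [cyc, Equiv.Perm.sameCycle_inv]

namespace Cyc

section Orb

variable {P : Type} [Fintype P] [DecidableEq P]

/-- The orbit of `x` as a finset. -/
def orb (g : Equiv.Perm P) (x : P) : Finset P := univ.filter (fun y => g.SameCycle x y)

theorem mem_orb {g : Equiv.Perm P} {x y : P} : y ∈ orb g x ↔ g.SameCycle x y := by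
  simp [orb]

theorem orb_eq {g : Equiv.Perm P} {x y : P} (h : g.SameCycle x y) : orb g x = orb g y := by
  ext z
  rw [mem_orb, mem_orb]
  exact ⟨fun h' => h.symm.trans h', fun h' => h.trans h'⟩

/-- The orbits inside `E`. -/
def orbs (E : Finset P) (g : Equiv.Perm P) : Finset (Finset P) :=
  (E.image (orb g)).filter (fun O => O ⊆ E)

theorem mem_orbs {E : Finset P} {g : Equiv.Perm P} {O : Finset P} :
    O ∈ orbs E g ↔ (∃ x ∈ E, orb g x = O) ∧ O ⊆ E := by
  simp [orbs]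

theorem cyc_eq (E : Finset P) (g : Equiv.Perm P) : cyc E g = (orbs E g).card := by
  unfold cyc
  have : {O : Set P | ∃ x ∈ E, O = {y | g.SameCycle x y} ∧ O ⊆ (E : Set P)}
      = (fun O : Finset P => (O : Set P)) '' (orbs E g : Set (Finset P)) := by
    ext O
    simp only [Set.mem_ofPred_eq, Set.mem_image, Finset.mem_coe, mem_orbs]
    constructor
    · rintro ⟨x, hx, rfl, h2⟩
      refine ⟨orb g x, ⟨⟨x, hx, rfl⟩, fun y hy => h2 (mem_orb.1 hy)⟩, ?_⟩
      ext y; simp [mem_orb]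
    · rintro ⟨O, ⟨⟨x, hx, rfl⟩, h2⟩, rfl⟩
      refine ⟨x, hx, ?_, h2⟩
      ext y; simp [mem_orb]
  rw [this, Set.ncard_image_of_injective _ Finset.coe_injective, Set.ncard_coe_finset]

theorem orbs_disj {E : Finset P} {g : Equiv.Perm P} {O O' : Finset P} (h : O ∈ orbs E g)
    (h' : O' ∈ orbs E g) (hne : O ≠ O') : Disjoint O O' := by
  obtain ⟨⟨x, _, rfl⟩, _⟩ := mem_orbs.1 h
  obtain ⟨⟨y, _, rfl⟩, _⟩ := mem_orbs.1 h'
  rw [Finset.disjoint_left]
  intro z h1 h2
  exact hne (orb_eq ((mem_orb.1 h1).trans (mem_orb.1 h2).symm))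

theorem card_long (E : Finset P) (g : Equiv.Perm P) (L : ℕ) :
    ((orbs E g).filter (fun O => ¬ O.card ≤ L)).card * L ≤ E.card := by
  set F := (orbs E g).filter (fun O => ¬ O.card ≤ L)
  have h1 : (F.biUnion id).card = ∑ O ∈ F, O.card :=
    Finset.card_biUnion (fun O hO O' hO' hne =>
      orbs_disj (Finset.mem_filter.1 hO).1 (Finset.mem_filter.1 hO').1 hne)
  have h2 : F.biUnion id ⊆ E := by
    intro x hx
    obtain ⟨O, hO, hxO⟩ := Finset.mem_biUnion.1 hx
    exact (mem_orbs.1 (Finset.mem_filter.1 hO).1).2 hxO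
  have h3 : F.card * L ≤ ∑ O ∈ F, O.card := by
    rw [← smul_eq_mul]
    exact Finset.card_nsmul_le_sum F _ L (fun O hO => (not_le.1 (Finset.mem_filter.1 hO).2).le)
  exact h3.trans (h1 ▸ Finset.card_le_card h2)

theorem exists_period (g : Equiv.Perm P) (x : P) :
    ∃ m, m < (orb g x).card ∧ (g ^ (m + 1)) x = x ∧ ∀ j < m, (g ^ j) x ≠ (g ^ m) x := by
  classical
  have hex : ∃ m, (g ^ (m + 1)) x = x := by
    refine ⟨orderOf g - 1, ?_⟩
    rw [Nat.sub_add_cancel (orderOf_pos g), pow_orderOf_eq_one]; rfl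
  have hinj : ∀ i j, i < j → j ≤ Nat.find hex → (g ^ i) x ≠ (g ^ j) x := by
    intro i j hij hj hh
    have h1 : (g ^ (j - i - 1 + 1)) x = x := by
      apply (g ^ i).injective
      rw [← Equiv.Perm.mul_apply, ← pow_add, hh]
      congr 2; omega
    exact Nat.find_min hex (show j - i - 1 < Nat.find hex by omega) h1
  refine ⟨Nat.find hex, ?_, Nat.find_spec hex, fun j hj => hinj j _ hj le_rfl⟩
  have : (range (Nat.find hex + 1)).card ≤ (orb g x).card := by
    refine Finset.card_le_card_of_injOn (fun j => (g ^ j) x) (fun j _ => ?_) ?_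
    · exact mem_orb.2 ⟨j, by simp⟩
    · intro i hi j hj hij
      simp only [Finset.coe_range, Set.mem_Iio] at hi hj
      rcases lt_trichotomy i j with h | h | h
      · exact absurd hij (hinj i j h (by omega))
      · exact h
      · exact absurd hij.symm (hinj j i h (by omega))
  simpa using this

end Orb

section Main

variable {r h : ℕ} (y₁ y₂ : Equiv.Perm (Cube h))

variable (r) in
/-- The random permutation. -/
def gp (a : Sw h) : Equiv.Perm (Cube h) := y₂ * top r h a * y₁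

variable (r) in
/-- The switches met by the first `m` strands of the cycle of `x`. -/
def ex (x : Cube h) (m : ℕ) (a : Sw h) : Finset (SwIdx h) :=
  (range m).biUnion (fun j => path r h a (y₁ ((gp r y₁ y₂ a ^ j) x)))

theorem ex_succ (x : Cube h) (m : ℕ) (a : Sw h) :
    ex r y₁ y₂ x (m + 1) a = ex r y₁ y₂ x m a ∪ path r h a (y₁ ((gp r y₁ y₂ a ^ m) x)) := by
  unfold ex
  rw [Finset.range_add_one, Finset.biUnion_insert, Finset.union_comm]

theorem gp_pow_succ (x : Cube h) (m : ℕ) (a : Sw h) :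
    (gp r y₁ y₂ a ^ (m + 1)) x = y₂ (top r h a (y₁ ((gp r y₁ y₂ a ^ m) x))) := by
  rw [pow_succ']; rfl

theorem ex_congr (x : Cube h) (a b : Sw h) (m : ℕ) (H : ∀ i ∈ ex r y₁ y₂ x m a, b i = a i) :
    (gp r y₁ y₂ b ^ m) x = (gp r y₁ y₂ a ^ m) x ∧ ex r y₁ y₂ x m b = ex r y₁ y₂ x m a := by
  induction m with
  | zero => simp [ex]
  | succ m ih =>
    rw [ex_succ] at H
    obtain ⟨h1, h2⟩ := ih (fun i hi => H i (Finset.mem_union_left _ hi))
    obtain ⟨h3, h4⟩ := path_congr r h a b _ (fun i hi => H i (Finset.mem_union_right _ hi))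
    constructor
    · rw [gp_pow_succ, gp_pow_succ, h1, h4]
    · rw [ex_succ, ex_succ, h1, h2, h3]

variable (r) in
/-- The closing strand. -/
def cl (t : Cube h × ℕ) (a : Sw h) : Finset (SwIdx h) :=
  path r h a (y₁ ((gp r y₁ y₂ a ^ t.2) t.1))

variable (r) in
/-- A family of closed, distinct cycles with good closing strands. -/
def Good (lam : ℕ) (S : Finset (Cube h × ℕ)) (a : Sw h) : Prop :=
  (∀ t ∈ S, (gp r y₁ y₂ a ^ (t.2 + 1)) t.1 = t.1 ∧
    (cl r y₁ y₂ t a ∩ ex r y₁ y₂ t.1 t.2 a).card ≤ lam) ∧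
  ∀ s ∈ S, ∀ t ∈ S, s ≠ t → ¬ (gp r y₁ y₂ a).SameCycle s.1 t.1

theorem Good.mono {lam : ℕ} {S S' : Finset (Cube h × ℕ)} {a : Sw h}
    (H : Good r y₁ y₂ lam S a) (hS : S' ⊆ S) : Good r y₁ y₂ lam S' a :=
  ⟨fun t ht => H.1 t (hS ht), fun s hs t ht => H.2 s (hS hs) t (hS ht)⟩

theorem explore_cyc (rk : Cube h × ℕ → ℤ) (hrk : Function.Injective rk)
    (S : Finset (Cube h × ℕ)) :
    ∑ a : Sw h, (if ∀ t ∈ S, (gp r y₁ y₂ a ^ (t.2 + 1)) t.1 = t.1 then
      2 ^ (∑ t ∈ S, (cl r y₁ y₂ t a \ (ex r y₁ y₂ t.1 t.2 a ∪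
        (S.filter (fun s => rk s < rk t)).biUnion
          (fun s => ex r y₁ y₂ s.1 s.2 a ∪ cl r y₁ y₂ s a))).card) else 0)
      ≤ ∑ _a : Sw h, 1 := by
  refine explore rk hrk (fun t a => ex r y₁ y₂ t.1 t.2 a) (fun t a => cl r y₁ y₂ t a)
    (fun t a => (gp r y₁ y₂ a ^ (t.2 + 1)) t.1 = t.1) ?_ ?_ ?_ ?_ S
  · intro t a b H
    exact (ex_congr y₁ y₂ t.1 a b t.2 H).2
  · intro t a b H
    have h1 := (ex_congr y₁ y₂ t.1 a b t.2 (fun i hi => H i (Finset.mem_union_left _ hi))).1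
    have h2 := path_congr r h a b _ (fun i hi => H i (Finset.mem_union_right _ hi))
    show cl r y₁ y₂ t b = cl r y₁ y₂ t a
    unfold cl
    rw [h1, h2.1]
  · intro t a b H
    have h1 := (ex_congr (r := r) y₁ y₂ t.1 a b (t.2 + 1) (by rw [ex_succ]; exact H)).1
    show ((gp r y₁ y₂ b ^ (t.2 + 1)) t.1 = t.1) = ((gp r y₁ y₂ a ^ (t.2 + 1)) t.1 = t.1)
    rw [h1]
  · intro t a b ha hb H
    have h1 := (ex_congr y₁ y₂ t.1 a b t.2 H).1
    rw [gp_pow_succ] at ha hb
    rw [h1] at hb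
    have h2 := y₂.injective (hb.trans ha.symm)
    have h3 := agree_of_top_eq r h a b _ h2
    refine ⟨?_, h3⟩
    unfold cl
    rw [h1]
    exact (path_congr r h a b _ h3).1

theorem mem_full {s : Cube h × ℕ} {a : Sw h} {i : SwIdx h}
    (hi : i ∈ ex r y₁ y₂ s.1 s.2 a ∪ cl r y₁ y₂ s a) :
    ∃ v, (gp r y₁ y₂ a).SameCycle s.1 v ∧ i ∈ path r h a (y₁ v) := by
  rcases Finset.mem_union.1 hi with hi | hi
  · obtain ⟨j, _, hj⟩ := Finset.mem_biUnion.1 hi
    exact ⟨_, ⟨j, by simp⟩, hj⟩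
  · exact ⟨_, ⟨s.2, by simp⟩, hi⟩

theorem fresh_ge (hr : r ≤ h) (rk : Cube h × ℕ → ℤ) {lam : ℕ} {S : Finset (Cube h × ℕ)}
    {a : Sw h} (H : Good r y₁ y₂ lam S a) {t : Cube h × ℕ} (ht : t ∈ S) :
    r ≤ lam + ((cl r y₁ y₂ t a \ (ex r y₁ y₂ t.1 t.2 a ∪
        (S.filter (fun s => rk s < rk t)).biUnion
          (fun s => ex r y₁ y₂ s.1 s.2 a ∪ cl r y₁ y₂ s a))).card +
      (cl r y₁ y₂ t a \ (ex r y₁ y₂ t.1 t.2 a ∪
        (S.filter (fun s => -rk s < -rk t)).biUnion
          (fun s => ex r y₁ y₂ s.1 s.2 a ∪ cl r y₁ y₂ s a))).card) := by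
  have h0 : (cl r y₁ y₂ t a).card = r := card_path r h a _ hr
  refine le_trans (le_of_eq h0.symm) (le_trans ?_ (add_le_add (H.1 t ht).2
    (Finset.card_union_le _ _)))
  refine le_trans (Finset.card_le_card ?_) (Finset.card_union_le _ _)
  intro i hi
  by_cases h1 : i ∈ ex r y₁ y₂ t.1 t.2 a
  · exact Finset.mem_union_left _ (Finset.mem_inter.2 ⟨hi, h1⟩)
  refine Finset.mem_union_right _ ?_
  by_contra hcon
  rw [Finset.mem_union, not_or, Finset.mem_sdiff, Finset.mem_sdiff, not_and, not_and, not_not,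
    not_not, Finset.mem_union, Finset.mem_union] at hcon
  obtain ⟨s, hs, his⟩ := Finset.mem_biUnion.1 ((hcon.1 hi).resolve_left h1)
  obtain ⟨s', hs', his'⟩ := Finset.mem_biUnion.1 ((hcon.2 hi).resolve_left h1)
  rw [Finset.mem_filter] at hs hs'
  obtain ⟨v, hv, hiv⟩ := mem_full y₁ y₂ his
  obtain ⟨w, hw, hiw⟩ := mem_full y₁ y₂ his'
  obtain ⟨z, hz, hiz⟩ := mem_full y₁ y₂ (Finset.mem_union_right _ hi)
  have n1 : s ≠ t := fun hh => by rw [hh] at hs; exact lt_irrefl _ hs.2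
  have n2 : s' ≠ t := fun hh => by rw [hh] at hs'; exact lt_irrefl _ hs'.2
  have n3 : s ≠ s' := fun hh => by rw [hh] at hs; have := hs.2; have := hs'.2; omega
  rcases two_strands r h a _ _ _ i hiv hiw hiz with e | e | e
  · have e' := y₁.injective e
    subst e'
    exact H.2 s hs.1 s' hs'.1 n3 (hv.trans hw.symm)
  · have e' := y₁.injective e
    subst e'
    exact H.2 s hs.1 t ht n1 (hv.trans hz.symm)
  · have e' := y₁.injective e
    subst e'
    exact H.2 s' hs'.1 t ht n2 (hw.trans hz.symm)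

theorem two_rpow_avg (m n : ℕ) (x : ℝ) (hx : 2 * x ≤ m + n) :
    2 * (2 : ℝ) ^ x ≤ 2 ^ m + 2 ^ n := by
  have h1 : (2 : ℝ) ^ x ≤ (2 : ℝ) ^ ((m : ℝ) / 2) * (2 : ℝ) ^ ((n : ℝ) / 2) := by
    rw [← Real.rpow_add two_pos]
    exact Real.rpow_le_rpow_of_exponent_le one_le_two (by linarith)
  have h2 : ∀ k : ℕ, ((2 : ℝ) ^ ((k : ℝ) / 2)) ^ 2 = 2 ^ k := by
    intro k
    rw [← Real.rpow_natCast, ← Real.rpow_mul zero_le_two, ← Real.rpow_natCast]
    congr 1; push_cast; ring
  rw [← h2 m, ← h2 n]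
  nlinarith [sq_nonneg ((2 : ℝ) ^ ((m : ℝ) / 2) - (2 : ℝ) ^ ((n : ℝ) / 2))]

open Classical in
theorem prob_good (hr : r ≤ h) (lam : ℕ) (S : Finset (Cube h × ℕ)) :
    ∑ a : Sw h, (if Good r y₁ y₂ lam S a then (1 : ℝ) else 0)
      ≤ Fintype.card (Sw h) * ((2 : ℝ) ^ (((lam : ℝ) - r) / 2)) ^ S.card := by
  obtain ⟨rk0, hrk0⟩ := exists_injective_nat (Cube h × ℕ)
  let rk : Cube h × ℕ → ℤ := fun t => rk0 t
  have hrk : Function.Injective rk := fun s t hst => hrk0 (by simpa [rk] using hst)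
  have hrk' : Function.Injective (fun t => -rk t) := fun s t hst => hrk (neg_injective hst)
  have e1 := explore_cyc (r := r) y₁ y₂ rk hrk S
  have e2 := explore_cyc (r := r) y₁ y₂ (fun t => -rk t) hrk' S
  have e3 := add_le_add e1 e2
  rw [← Finset.sum_add_distrib] at e3
  simp only [Finset.sum_const, Finset.card_univ, smul_eq_mul, mul_one] at e3
  have e4 : ∑ a : Sw h, (if Good r y₁ y₂ lam S a then (1 : ℝ) else 0)
      * (2 * (2 : ℝ) ^ ((S.card : ℝ) * (((r : ℝ) - lam) / 2)))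
      ≤ Fintype.card (Sw h) + Fintype.card (Sw h) := by
    have e3' := (Nat.cast_le (α := ℝ)).2 e3
    rw [Nat.cast_sum, Nat.cast_add] at e3'
    refine le_trans (Finset.sum_le_sum (fun a _ => ?_)) e3'
    by_cases hG : Good r y₁ y₂ lam S a
    · rw [if_pos hG, if_pos (fun t ht => (hG.1 t ht).1), if_pos (fun t ht => (hG.1 t ht).1),
        one_mul]
      push_cast
      refine two_rpow_avg _ _ _ ?_
      have := Finset.sum_le_sum (fun t ht => fresh_ge y₁ y₂ hr rk hG ht)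
      rw [Finset.sum_add_distrib, Finset.sum_add_distrib] at this
      simp only [Finset.sum_const, smul_eq_mul] at this
      have h2 := (Nat.cast_le (α := ℝ)).2 this
      rw [Nat.cast_add, Nat.cast_add, Nat.cast_mul, Nat.cast_mul] at h2
      linarith
    · rw [if_neg hG, zero_mul]
      positivity
  rw [← Finset.sum_mul] at e4
  have e5 : ((2 : ℝ) ^ (((lam : ℝ) - r) / 2)) ^ S.card
      * (2 : ℝ) ^ ((S.card : ℝ) * (((r : ℝ) - lam) / 2)) = 1 := by
    rw [← Real.rpow_natCast, ← Real.rpow_mul zero_le_two, ← Real.rpow_add two_pos]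
    rw [show ((lam : ℝ) - r) / 2 * S.card + S.card * (((r : ℝ) - lam) / 2) = 0 by ring,
      Real.rpow_zero]
  have hpos : (0 : ℝ) < 2 * (2 : ℝ) ^ ((S.card : ℝ) * (((r : ℝ) - lam) / 2)) := by positivity
  refine le_of_mul_le_mul_right (e4.trans (le_of_eq ?_)) hpos
  rw [mul_assoc, mul_left_comm _ (2 : ℝ), e5]
  ring

theorem exists_rep (lam : ℕ) (a : Sw h) (x : Cube h)
    (hx : (orb (gp r y₁ y₂ a) x).card ≤ 2 ^ lam) :
    ∃ t : Cube h × ℕ, (gp r y₁ y₂ a).SameCycle x t.1 ∧ t.2 < 2 ^ lam ∧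
      (gp r y₁ y₂ a ^ (t.2 + 1)) t.1 = t.1 ∧
      (cl r y₁ y₂ t a ∩ ex r y₁ y₂ t.1 t.2 a).card ≤ lam := by
  set g := gp r y₁ y₂ a with hg
  let C : Finset (Cube h) := (orb g x).image y₁
  have hC : C.card ≤ 2 ^ lam := Finset.card_image_le.trans hx
  have hne : C.Nonempty := ⟨y₁ x, Finset.mem_image_of_mem _ (mem_orb.2 (.refl _ _))⟩
  have : ∃ u ∈ C, (shared r h a C u).card ≤ lam := by
    by_contra hcon
    push Not at hcon
    have := two_pow_le_card r h a C (lam + 1) hne (fun u hu => hcon u hu)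
    have h2 : 2 ^ lam < 2 ^ (lam + 1) := Nat.pow_lt_pow_right one_lt_two (Nat.lt_succ_self _)
    omega
  obtain ⟨u, hu, hsh⟩ := this
  obtain ⟨w, hw, rfl⟩ := Finset.mem_image.1 hu
  have hxw : g.SameCycle x (g w) := (mem_orb.1 hw).trans ⟨1, by simp⟩
  obtain ⟨m, hm, hm1, hm2⟩ := exists_period g (g w)
  have hmw : (g ^ m) (g w) = w := by
    apply g.injective
    rw [← Equiv.Perm.mul_apply, ← pow_succ', hm1]
  refine ⟨(g w, m), hxw, ?_, hm1, le_trans (Finset.card_le_card ?_) hsh⟩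
  · rw [← orb_eq hxw] at hm
    exact lt_of_lt_of_le hm hx
  · intro i hi
    obtain ⟨h1, h2⟩ := Finset.mem_inter.1 hi
    simp only [cl, ← hg, hmw] at h1
    obtain ⟨j, hj, hij⟩ := Finset.mem_biUnion.1 h2
    simp only [← hg] at hij
    refine Finset.mem_filter.2 ⟨h1, y₁ ((g ^ j) (g w)), ?_, ?_, hij⟩
    · exact Finset.mem_image_of_mem _ (mem_orb.2 (hxw.trans ⟨j, by simp⟩))
    · intro hh
      exact hm2 j (Finset.mem_range.1 hj) ((y₁.injective hh).trans hmw.symm)

theorem exists_good (lam : ℕ) (E : Finset (Cube h)) (a : Sw h) :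
    ∃ R ⊆ E ×ˢ range (2 ^ lam), Good r y₁ y₂ lam R a ∧
      R.card = ((orbs E (gp r y₁ y₂ a)).filter (fun O => O.card ≤ 2 ^ lam)).card := by
  classical
  set g := gp r y₁ y₂ a with hg
  set F := (orbs E g).filter (fun O => O.card ≤ 2 ^ lam) with hF
  have : ∀ O : F, ∃ t : Cube h × ℕ, orb g t.1 = O ∧ t.2 < 2 ^ lam ∧
      (gp r y₁ y₂ a ^ (t.2 + 1)) t.1 = t.1 ∧
      (cl r y₁ y₂ t a ∩ ex r y₁ y₂ t.1 t.2 a).card ≤ lam := by
    rintro ⟨O, hO⟩
    obtain ⟨h1, h2⟩ := Finset.mem_filter.1 hO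
    obtain ⟨⟨x, _, rfl⟩, _⟩ := mem_orbs.1 h1
    obtain ⟨t, ht1, ht2⟩ := exists_rep y₁ y₂ lam a x h2
    exact ⟨t, (orb_eq ht1).symm, ht2⟩
  choose f hf1 hf2 hf3 hf4 using this
  have hinj : Function.Injective f := by
    intro O O' hh
    apply Subtype.ext
    rw [← hf1 O, ← hf1 O', hh]
  refine ⟨univ.image f, ?_, ⟨?_, ?_⟩, ?_⟩
  · intro t ht
    obtain ⟨O, _, rfl⟩ := Finset.mem_image.1 ht
    refine Finset.mem_product.2 ⟨?_, Finset.mem_range.2 (hf2 O)⟩
    apply (mem_orbs.1 (Finset.mem_filter.1 O.2).1).2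
    rw [← hf1 O]
    exact mem_orb.2 (.refl _ _)
  · intro t ht
    obtain ⟨O, _, rfl⟩ := Finset.mem_image.1 ht
    exact ⟨hf3 O, hf4 O⟩
  · intro s hs t ht hne hst
    obtain ⟨O, _, rfl⟩ := Finset.mem_image.1 hs
    obtain ⟨O', _, rfl⟩ := Finset.mem_image.1 ht
    apply hne
    congr 1
    apply Subtype.ext
    rw [← hf1 O, ← hf1 O']
    exact orb_eq hst
  · rw [Finset.card_image_of_injective _ hinj]
    simp

open Classical in
theorem pow_cyc_le (lam : ℕ) (E : Finset (Cube h)) (a : Sw h) (q : ℝ) (hq : 1 ≤ q) :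
    q ^ cyc E (gp r y₁ y₂ a) ≤ Real.exp (E.card * (Real.log q / 2 ^ lam)) *
      ∑ S ∈ (E ×ˢ range (2 ^ lam)).powerset,
        (q - 1) ^ S.card * (if Good r y₁ y₂ lam S a then (1 : ℝ) else 0) := by
  obtain ⟨R, hR, hG, hc⟩ := exists_good (r := r) y₁ y₂ lam E a
  rw [cyc_eq, ← Finset.card_filter_add_card_filter_not (fun O => O.card ≤ 2 ^ lam), ← hc,
    pow_add, mul_comm]
  have hq0 : 0 < q := by linarith
  refine mul_le_mul ?_ ?_ (by positivity) (by positivity)
  · have h1 := card_long E (gp r y₁ y₂ a) (2 ^ lam)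
    have h2 := (Nat.cast_le (α := ℝ)).2 h1
    push_cast at h2
    rw [← Real.exp_log (pow_pos hq0 _), Real.log_pow]
    refine Real.exp_le_exp.2 ?_
    have h3 : 0 ≤ Real.log q := Real.log_nonneg hq
    rw [← mul_div_assoc, le_div_iff₀ (by positivity)]
    nlinarith
  · have h1 : q ^ R.card = ∑ S ∈ R.powerset, (q - 1) ^ S.card := by
      have h2 := Finset.prod_add_one (s := R) (f := fun _ => q - 1)
      simp only [sub_add_cancel, Finset.prod_const] at h2
      exact h2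
    rw [h1]
    refine le_trans (le_of_eq (Finset.sum_congr rfl (fun S hS => ?_)))
      (Finset.sum_le_sum_of_subset_of_nonneg (Finset.powerset_mono.2 hR) (fun S _ _ => ?_))
    · rw [if_pos (hG.mono y₁ y₂ (Finset.mem_powerset.1 hS)), mul_one]
    · have : 0 ≤ q - 1 := by linarith
      split_ifs <;> positivity

end Main

end Cyc

/-- Number of two-colourings constant along the arrows `p ↦ g p`, `p ∈ E`. -/
theorem card_fixed_le {P : Type} [Fintype P] [DecidableEq P] (E : Finset P) (g : Equiv.Perm P) :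
    (univ.filter (fun u : P → Bool => ∀ p ∈ E, u (g p) = u p)).card * 2 ^ E.card
      ≤ 2 ^ (Fintype.card P + cyc E g) := by
  classical
  have : ∀ O : Cyc.orbs E g, ∃ x, Cyc.orb g x = O := fun O => by
    obtain ⟨⟨x, _, hx⟩, _⟩ := Cyc.mem_orbs.1 O.2
    exact ⟨x, hx⟩
  choose f hf using this
  let D : Finset P := (univ \ E.image g) ∪ univ.image f
  have hD : D.card + E.card ≤ Fintype.card P + cyc E g := by
    have h1 : D.card ≤ (univ \ E.image g).card + (univ.image f).card := Finset.card_union_le _ _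
    have h2 : (univ.image f).card ≤ cyc E g := by
      rw [Cyc.cyc_eq]
      exact Finset.card_image_le.trans (by simp)
    have h3 : (univ \ E.image g).card + (E.image g).card = Fintype.card P := by
      rw [Finset.card_sdiff_add_card_eq_card (Finset.subset_univ _), Finset.card_univ]
    rw [Finset.card_image_of_injective _ g.injective] at h3
    omega
  have hreach : ∀ y, ∃ n : ℕ, (g⁻¹ ^ n) y ∈ D := by
    intro y
    have key : ∀ x, g.SameCycle y x → ∃ n : ℕ, (g⁻¹ ^ n) y = x := by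
      intro x hx
      obtain ⟨n, _, hn⟩ := (Equiv.Perm.sameCycle_inv.2 hx).exists_pow_eq'
      exact ⟨n, hn⟩
    by_cases hy : Cyc.orb g y ⊆ E
    · have hO : Cyc.orb g y ∈ Cyc.orbs E g :=
        Cyc.mem_orbs.2 ⟨⟨y, hy (Cyc.mem_orb.2 (.refl _ _)), rfl⟩, hy⟩
      have h1 : f ⟨_, hO⟩ ∈ Cyc.orb g y := by
        have h0 : f ⟨_, hO⟩ ∈ Cyc.orb g (f ⟨_, hO⟩) := Cyc.mem_orb.2 (.refl _ _)
        rw [hf ⟨_, hO⟩] at h0
        exact h0
      obtain ⟨n, hn⟩ := key _ (Cyc.mem_orb.1 h1)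
      exact ⟨n, hn ▸ Finset.mem_union_right _ (Finset.mem_image_of_mem _ (Finset.mem_univ _))⟩
    · obtain ⟨w, hw, hwE⟩ := Finset.not_subset.1 hy
      obtain ⟨n, hn⟩ := key (g w) ((Cyc.mem_orb.1 hw).trans ⟨1, by simp⟩)
      refine ⟨n, hn ▸ Finset.mem_union_left _ ?_⟩
      simp only [Finset.mem_sdiff, Finset.mem_univ, true_and, Finset.mem_image, not_exists,
        not_and]
      intro x hx hxw
      exact hwE (g.injective hxw ▸ hx)
  have hcard : (univ.filter (fun u : P → Bool => ∀ p ∈ E, u (g p) = u p)).card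
      ≤ D.powerset.card := by
    refine Finset.card_le_card_of_injOn (fun u => D.filter (fun x => u x = true))
      (fun u _ => Finset.mem_coe.2 (Finset.mem_powerset.2 (Finset.filter_subset _ _))) ?_
    intro u hu v hv huv
    simp only [Finset.coe_filter, Finset.mem_univ, true_and, Set.mem_ofPred_eq] at hu hv
    have hDuv : ∀ x ∈ D, u x = v x := by
      intro x hx
      have := congrArg (fun T : Finset P => x ∈ T) huv
      simp only [Finset.mem_filter, hx, true_and, eq_iff_iff] at this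
      exact Bool.eq_iff_iff.2 this
    have : ∀ n : ℕ, ∀ y, (g⁻¹ ^ n) y ∈ D → u y = v y := by
      intro n
      induction n with
      | zero => intro y hy; exact hDuv y hy
      | succ n ih =>
        intro y hy
        by_cases hyD : y ∈ D
        · exact hDuv y hyD
        · have : y ∈ E.image g := by
            by_contra hcon
            exact hyD (Finset.mem_union_left _ (Finset.mem_sdiff.2 ⟨Finset.mem_univ _, hcon⟩))
          obtain ⟨p, hp, rfl⟩ := Finset.mem_image.1 this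
          rw [hu p hp, hv p hp]
          apply ih
          rw [pow_succ, Equiv.Perm.mul_apply] at hy
          simpa using hy
    funext y
    obtain ⟨n, hn⟩ := hreach y
    exact this n y hn
  rw [Finset.card_powerset] at hcard
  calc _ ≤ 2 ^ D.card * 2 ^ E.card := Nat.mul_le_mul_right _ hcard
    _ = 2 ^ (D.card + E.card) := (pow_add _ _ _).symm
    _ ≤ _ := Nat.pow_le_pow_right two_pos hD

/-- Exponential moment of the number of cycles after `r` rounds of random switches. -/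
theorem cyc_exp_moment (r h lam : ℕ) (hr : r ≤ h) (E : Finset (Cube h))
    (y₁ y₂ : Equiv.Perm (Cube h)) (q : ℝ) (hq : 1 ≤ q) :
    𝔼 a : Sw h, q ^ cyc E (y₂ * top r h a * y₁)
      ≤ Real.exp (E.card * (Real.log q / 2 ^ lam
          + (q - 1) * (2 : ℝ) ^ ((3 * (lam : ℝ) - r) / 2))) := by
  classical
  have hq1 : 0 ≤ q - 1 := by linarith
  have hN : (0 : ℝ) < Fintype.card (Sw h) := by exact_mod_cast Fintype.card_pos
  rw [Finset.expect_eq_sum_div_card, Finset.card_univ, div_le_iff₀ hN]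
  refine le_trans (Finset.sum_le_sum (fun a _ => Cyc.pow_cyc_le (r := r) y₁ y₂ lam E a q hq)) ?_
  rw [← Finset.mul_sum, Finset.sum_comm, mul_add, Real.exp_add, mul_assoc]
  refine mul_le_mul_of_nonneg_left ?_ (Real.exp_pos _).le
  set z : ℝ := (q - 1) * (2 : ℝ) ^ (((lam : ℝ) - r) / 2) with hz
  have hz0 : 0 ≤ z := by positivity
  calc _ ≤ ∑ S ∈ (E ×ˢ range (2 ^ lam)).powerset, z ^ S.card * Fintype.card (Sw h) := by
        refine Finset.sum_le_sum (fun S _ => ?_)
        rw [← Finset.mul_sum, hz, mul_pow, mul_assoc]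
        refine mul_le_mul_of_nonneg_left ?_ (by positivity)
        rw [mul_comm]
        exact Cyc.prob_good y₁ y₂ hr lam S
    _ = (z + 1) ^ (E.card * 2 ^ lam) * Fintype.card (Sw h) := by
        rw [← Finset.sum_mul]
        congr 1
        have h2 := Finset.prod_add_one (s := E ×ˢ range (2 ^ lam)) (f := fun _ => z)
        simp only [Finset.prod_const, Finset.card_product, Finset.card_range] at h2
        exact h2.symm
    _ ≤ _ := by
        refine mul_le_mul_of_nonneg_right ?_ hN.le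
        refine le_trans (pow_le_pow_left₀ (by positivity) (Real.add_one_le_exp z) _) (le_of_eq ?_)
        rw [← Real.exp_nat_mul]
        congr 1
        rw [hz]
        push_cast
        rw [show (3 * (lam : ℝ) - r) / 2 = (lam : ℝ) + ((lam : ℝ) - r) / 2 by ring,
          Real.rpow_add two_pos, Real.rpow_natCast]
        ring

end Crest.Agent.R155
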