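import Crest.Agent.R155.Basic
import Crest.Agent.R155.Cycle

open Finset Matrix
open scoped BigOperators

set_option linter.unusedSectionVars false

namespace Crest.Agent.R155

section Step

variable {P : Type} [Fintype P] [DecidableEq P]

/-- The tagged set in the half `b` after the switches `s`. -/
def hs (S : Finset (Bool × P)) (s : P → Bool) (b : Bool) : Finset P :=
  half b (S.map (sw s).toEmbedding)

theorem mem_hs (S : Finset (Bool × P)) (s : P → Bool) (b : Bool) (p : P) :
    p ∈ hs S s b ↔ (xor b (s p), p) ∈ S := by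
  rw [hs, mem_half, Finset.mem_map_equiv]
  rfl

theorem card_hs (S : Finset (Bool × P)) (s : P → Bool) :
    (hs S s false).card + (hs S s true).card = S.card := by
  rw [hs, hs, card_half_add, Finset.card_map]

/-- The outer switches are compatible with the partial map `y`. -/
def Valid (S : Finset (Bool × P)) (y : Bool × P → Bool × P) (s s' : P → Bool) : Prop :=
  ∀ x ∈ S, xor (y x).1 (s' (y x).2) = xor x.1 (s x.2)

instance (S : Finset (Bool × P)) (y : Bool × P → Bool × P) (s s' : P → Bool) :
    Decidable (Valid S y s s') := by unfold Valid; infer_instance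

theorem match_iff (S : Finset (Bool × P)) (y : Bool × P → Bool × P) (s s' : P → Bool)
    (g : Bool → Equiv.Perm P) :
    (∀ x ∈ S, (sw s' * both g * sw s) x = y x) ↔
      Valid S y s s' ∧ ∀ b, ∀ p ∈ hs S s b, g b p = (y (xor b (s p), p)).2 := by
  constructor
  · intro h
    refine ⟨fun x hx => ?_, fun b p hp => ?_⟩
    · rw [← h x hx]; simp
    · rw [← h _ ((mem_hs _ _ _ _).1 hp)]; simp
  · rintro ⟨h1, h2⟩ ⟨b, p⟩ hx
    have h3 := h2 (xor b (s p)) p (by rw [mem_hs]; simpa using hx)
    have h4 := h1 _ hx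
    simp only [Bool.xor_assoc, Bool.xor_self, Bool.xor_false] at h3
    simp only [Equiv.Perm.coe_mul, Function.comp_apply, sw_apply, both_apply, h3]
    refine Prod.ext ?_ rfl
    simp only at h4 ⊢
    rw [← h4]; simp

theorem prob_agree (A : Finset P) (φ : P → Bool) :
    𝔼 t : P → Bool, (if ∀ p ∈ A, t p = φ p then (1 : ℝ) else 0) = (2 ^ A.card)⁻¹ := by
  have h1 : (univ.filter (fun t : P → Bool => ∀ p ∈ A, t p = φ p))
      = Fintype.piFinset (fun p => if p ∈ A then {φ p} else univ) := by
    ext t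
    simp only [Finset.mem_filter, Finset.mem_univ, true_and, Fintype.mem_piFinset]
    refine forall_congr' fun p => ?_
    by_cases hp : p ∈ A <;> simp [hp]
  have h2 : (univ.filter (fun t : P → Bool => ∀ p ∈ A, t p = φ p)).card * 2 ^ A.card
      = 2 ^ Fintype.card P := by
    rw [h1, Fintype.card_piFinset]
    have : ∀ p, (if p ∈ A then ({φ p} : Finset Bool) else univ).card = if p ∈ Aᶜ then 2 else 1 := by
      intro p; by_cases hp : p ∈ A <;> simp [hp]
    simp only [this, Finset.prod_ite_mem, Finset.univ_inter, Finset.prod_const]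
    rw [← pow_add, Finset.card_compl_add_card]
  rw [Finset.expect_eq_sum_div_card, Finset.sum_boole, Finset.card_univ, Fintype.card_fun,
    Fintype.card_bool, ← h2]
  have : (0 : ℝ) < (univ.filter (fun t : P → Bool => ∀ p ∈ A, t p = φ p)).card := by
    exact_mod_cast Finset.card_pos.2 ⟨φ, by simp⟩
  push_cast
  field_simp

theorem prob_valid_le (S : Finset (Bool × P)) (y : Bool × P → Bool × P) (s₀ s₀' : P → Bool)
    (g : Bool → Equiv.Perm P) (hm : ∀ x ∈ S, (sw s₀' * both g * sw s₀) x = y x) :
    (𝔼 s, 𝔼 s', if Valid S y s s' then (1 : ℝ) else 0) * 2 ^ S.card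
      ≤ 2 ^ cyc (hs S s₀ false ∩ hs S s₀ true) ((g true)⁻¹ * g false) := by
  obtain ⟨hv, hg⟩ := (match_iff S y s₀ s₀' g).1 hm
  set E := hs S s₀ false ∩ hs S s₀ true with hE
  set A := hs S s₀ false ∪ hs S s₀ true with hA
  set γ := (g true)⁻¹ * g false with hγ
  -- change of variables
  let e : (P → Bool) ≃ (P → Bool) :=
    { toFun := fun u p => xor (u ((g true)⁻¹ p)) (s₀' p)
      invFun := fun s' p => xor (s' (g true p)) (s₀' (g true p))
      left_inv := fun u => by funext p; simp
      right_inv := fun s' => by funext p; simp }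
  have key : ∀ u s, Valid S y s (e u) → (∀ p ∈ E, u (γ p) = u p) ∧
      ∀ p ∈ A, s p = xor (if p ∈ hs S s₀ true then u p else u (γ p)) (s₀ p) := by
    intro u s hval
    have h1 : ∀ b, ∀ p ∈ hs S s₀ b, u ((g true)⁻¹ (g b p)) = xor (s p) (s₀ p) := by
      intro b p hp
      have hx := (mem_hs _ _ _ _).1 hp
      have h2 := hval _ hx
      have h3 := hv _ hx
      rw [← hg b p hp] at h2 h3
      simp only [e, Equiv.coe_fn_mk] at h2 h3
      clear hp hx
      revert h2 h3
      generalize (y (xor b (s₀ p), p)).1 = c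
      generalize u ((g true)⁻¹ (g b p)) = d
      generalize s₀' (g b p) = d'
      generalize s p = t
      generalize s₀ p = t'
      revert b c d d' t t'; decide
    have h0 : ∀ p ∈ hs S s₀ false, u (γ p) = xor (s p) (s₀ p) := h1 false
    have h1' : ∀ p ∈ hs S s₀ true, u p = xor (s p) (s₀ p) := fun p hp => by
      simpa using h1 true p hp
    refine ⟨fun p hp => ?_, fun p hp => ?_⟩
    · rw [h0 p (Finset.mem_inter.1 hp).1, h1' p (Finset.mem_inter.1 hp).2]
    · by_cases hp1 : p ∈ hs S s₀ true
      · rw [if_pos hp1, h1' p hp1]; simp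
      · rw [if_neg hp1, h0 p ((Finset.mem_union.1 hp).resolve_right hp1)]; simp
  have h2 : (𝔼 s, 𝔼 s', if Valid S y s s' then (1 : ℝ) else 0)
      ≤ 𝔼 u : P → Bool, (if ∀ p ∈ E, u (γ p) = u p then (1 : ℝ) else 0) * (2 ^ A.card)⁻¹ := by
    rw [Finset.expect_comm, ← Fintype.expect_equiv e
      (fun u => 𝔼 s, if Valid S y s (e u) then (1 : ℝ) else 0) _ (fun _ => rfl)]
    refine Finset.expect_le_expect fun u _ => ?_
    rw [← prob_agree A (fun p => xor (if p ∈ hs S s₀ true then u p else u (γ p)) (s₀ p)),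
      Finset.mul_expect]
    refine Finset.expect_le_expect fun s _ => ?_
    by_cases hval : Valid S y s (e u)
    · obtain ⟨k1, k2⟩ := key u s hval
      rw [if_pos hval, if_pos k1, if_pos k2, mul_one]
    · rw [if_neg hval]; positivity
  have h3 := card_fixed_le E γ
  have h4 : E.card + A.card = S.card := by
    rw [hE, hA, Finset.card_inter_add_card_union, card_hs]
  refine (mul_le_mul_of_nonneg_right h2 (by positivity)).trans ?_
  rw [← Finset.expect_mul, Finset.expect_eq_sum_div_card, Finset.sum_boole, Finset.card_univ,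
    Fintype.card_fun, Fintype.card_bool, ← h4]
  have h5 : ((univ.filter (fun u : P → Bool => ∀ p ∈ E, u (γ p) = u p)).card : ℝ) * 2 ^ E.card
      ≤ 2 ^ Fintype.card P * 2 ^ cyc E γ := by
    rw [← pow_add]; exact_mod_cast h3
  push_cast
  rw [pow_add]
  field_simp
  exact h5

end Step

theorem ben_succ (h : ℕ) (ω ω' : Sw (h + 1)) :
    ben (h + 1) ω ω' = (sw (hd ω') * both (fun b => ben h (tl ω b) (tl ω' b)) * sw (hd ω) :
      Equiv.Perm (Bool × Cube h)) := by
  change (both (fun b => net h (tl ω' b)) * sw (hd ω'))⁻¹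
    * (both (fun b => net h (tl ω b)) * sw (hd ω)) = _
  rw [_root_.mul_inv_rev, sw_inv, both_inv, mul_assoc, ← mul_assoc (both _), both_mul, mul_assoc]
  rfl

theorem lev_succ (j h : ℕ) (S : Finset (Bool × Cube h)) (ω ω' : Sw (h + 1)) :
    lev j (h + 1) S ω ω' = (if j = h + 1 then cyc (hs S (hd ω) false ∩ hs S (hd ω) true)
        ((ben h (tl ω true) (tl ω' true))⁻¹ * ben h (tl ω false) (tl ω' false)) else 0)
      + ∑ b : Bool, lev j h (hs S (hd ω) b) (tl ω b) (tl ω' b) := rfl

theorem lev_eq_zero (j : ℕ) : ∀ (h : ℕ), h < j → ∀ S ω ω', lev j h S ω ω' = 0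
  | 0, _, _, _, _ => rfl
  | h + 1, hj, S, ω, ω' => by
    rw [lev_succ, if_neg (by omega)]
    simp [lev_eq_zero j h (by omega)]

theorem benes_weight (J : Finset ℕ) : ∀ (h : ℕ), (∀ j, 1 ≤ j → j ≤ h → j ∈ J) →
    ∀ (S : Finset (Cube h)) (y : Cube h → Cube h),
      𝔼 ω : Sw h, 𝔼 ω' : Sw h, (if ∀ x ∈ S, ben h ω ω' x = y x then
        (2 : ℝ) ^ (h * S.card) / 2 ^ (∑ j ∈ J, lev j h S ω ω') else 0) ≤ 1
  | 0, _, S, y => by
    refine Finset.expect_le univ_nonempty fun ω _ => Finset.expect_le univ_nonempty fun ω' _ => ?_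
    have : ∀ j, lev j 0 S ω ω' = 0 := fun _ => rfl
    split_ifs <;> simp [this]
  | h + 1, hJ, S, y => by
    have ih := benes_weight J h (fun j h1 h2 => hJ j h1 (by omega))
    change Finset (Bool × Cube h) at S
    change Bool × Cube h → Bool × Cube h at y
    set F : Bool → (Cube h → Bool) → Sw h → Sw h → ℝ := fun b s a a' =>
      if ∀ p ∈ hs S s b, ben h a a' p = (y (xor b (s p), p)).2 then
        (2 : ℝ) ^ (h * (hs S s b).card) / 2 ^ (∑ j ∈ J, lev j h (hs S s b) a a') else 0 with hF
    set V : (Cube h → Bool) → (Cube h → Bool) → ℝ := fun s s' =>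
      if Valid S y s s' then 1 else 0 with hV
    set π : ℝ := 𝔼 s, 𝔼 s', V s s' with hπ
    have hF0 : ∀ b s a a', 0 ≤ F b s a a' := fun b s a a' => by
      simp only [hF]; split_ifs <;> positivity
    have hV0 : ∀ s s', 0 ≤ V s s' := fun s s' => by simp only [hV]; split_ifs <;> norm_num
    have hpt : ∀ ω ω' : Sw (h + 1), π * (if ∀ x ∈ S, ben (h + 1) ω ω' x = y x then
        (2 : ℝ) ^ ((h + 1) * S.card) / 2 ^ (∑ j ∈ J, lev j (h + 1) S ω ω') else 0)
        ≤ V (hd ω) (hd ω') * F false (hd ω) (tl ω false) (tl ω' false)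
          * F true (hd ω) (tl ω true) (tl ω' true) := by
      intro ω ω'
      split_ifs with hm
      · rw [ben_succ] at hm
        have h1 := prob_valid_le S y _ _ _ hm
        obtain ⟨hv, hg⟩ := (match_iff S y _ _ _).1 hm
        simp only [hV, hF, if_pos hv, if_pos (hg false), if_pos (hg true), lev_succ,
          Finset.sum_add_distrib, Finset.sum_ite_eq', if_pos (hJ (h + 1) (by omega) le_rfl),
          Fintype.sum_bool]
        rw [← card_hs S (hd ω)] at h1 ⊢
        simp only [add_mul, mul_add, one_mul, pow_add] at h1 ⊢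
        rw [← mul_div_assoc, div_le_iff₀ (by positivity)]
        refine le_trans (le_of_eq (by ring)) ((mul_le_mul_of_nonneg_right h1
          (show (0 : ℝ) ≤ 2 ^ (h * (hs S (hd ω) false).card) * 2 ^ (h * (hs S (hd ω) true).card) by
            positivity)).trans (le_of_eq ?_))
        field_simp
      · rw [mul_zero]
        exact mul_nonneg (mul_nonneg (hV0 _ _) (hF0 _ _ _ _)) (hF0 _ _ _ _)
    have htot : 𝔼 ω : Sw (h + 1), 𝔼 ω' : Sw (h + 1),
        V (hd ω) (hd ω') * F false (hd ω) (tl ω false) (tl ω' false)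
          * F true (hd ω) (tl ω true) (tl ω' true) ≤ π := by
      have e1 : ∀ (s : Cube h → Bool) (a b : Sw h), 𝔼 ω' : Sw (h + 1),
          V s (hd ω') * F false s a (tl ω' false) * F true s b (tl ω' true)
          = (𝔼 s', V s s') * (𝔼 a', F false s a a') * (𝔼 b', F true s b b') := by
        intro s a b
        rw [expect_sw_succ (fun s' a' b' => V s s' * F false s a a' * F true s b b')]
        simp only [← Finset.mul_expect, ← Finset.expect_mul]
      simp only [e1]
      rw [expect_sw_succ (fun s a b =>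
        (𝔼 s', V s s') * (𝔼 a', F false s a a') * (𝔼 b', F true s b b'))]
      simp only [← Finset.mul_expect, ← Finset.expect_mul]
      refine Finset.expect_le_expect fun s _ => ?_
      have h0 := ih (hs S s false) (fun p => (y (xor false (s p), p)).2)
      have h1 := ih (hs S s true) (fun p => (y (xor true (s p), p)).2)
      have hv : 0 ≤ 𝔼 s', V s s' := Finset.expect_nonneg fun _ _ => hV0 _ _
      have h1' : 0 ≤ 𝔼 b, 𝔼 b', F true s b b' :=
        Finset.expect_nonneg fun _ _ => Finset.expect_nonneg fun _ _ => hF0 _ _ _ _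
      calc _ ≤ (𝔼 s', V s s') * 1 * 1 :=
            mul_le_mul (mul_le_mul_of_nonneg_left h0 hv) h1 h1' (by simpa using hv)
        _ = _ := by ring
    by_cases hex : ∃ s s', Valid S y s s'
    · obtain ⟨s, s', hv⟩ := hex
      have hπ0 : 0 < π := by
        refine Finset.expect_pos' (fun _ _ => Finset.expect_nonneg fun _ _ => hV0 _ _)
          ⟨s, mem_univ _, Finset.expect_pos' (fun _ _ => hV0 _ _) ⟨s', mem_univ _, ?_⟩⟩
        simp [hV, hv]
      refine le_of_mul_le_mul_left ?_ hπ0
      rw [mul_one]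
      refine le_trans ?_ htot
      rw [Finset.mul_expect]
      refine Finset.expect_le_expect fun ω _ => ?_
      rw [Finset.mul_expect]
      exact Finset.expect_le_expect fun ω' _ => hpt ω ω'
    · refine Finset.expect_le univ_nonempty fun ω _ =>
        Finset.expect_le univ_nonempty fun ω' _ => ?_
      rw [if_neg]
      · norm_num
      · intro hm
        rw [ben_succ] at hm
        exact hex ⟨_, _, ((match_iff S y _ _ _).1 hm).1⟩

end Crest.Agent.R155
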