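import Crest.Agent.R155.Defs

open Finset Matrix
open scoped BigOperators

namespace Crest.Agent.R155

variable {X : Type} [Fintype X] [DecidableEq X]

namespace Lin2

/-- ordered product of the first `2^s` terms -/
def tp {M : Type*} [Monoid M] : ℕ → (ℕ → M) → M
  | 0, f => f 0
  | s + 1, f => tp s fun i => f (2 * i) * f (2 * i + 1)

theorem tp_const {M : Type*} [Monoid M] : ∀ (s : ℕ) (A : M), tp s (fun _ => A) = A ^ 2 ^ s
  | 0, A => by simp [tp]
  | s + 1, A => by rw [tp, tp_const s, ← pow_two, ← pow_mul, pow_succ']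

theorem tp_alt {M : Type*} [Monoid M] (s : ℕ) (A B : M) :
    tp (s + 1) (fun i => if i % 2 = 0 then A else B) = (A * B) ^ 2 ^ s := by
  rw [tp, ← tp_const]
  congr 1
  funext i
  rw [if_pos (by omega), if_neg (by omega)]

theorem tp_half {M : Type*} [Monoid M] : ∀ (s : ℕ) (A B : M),
    tp (s + 1) (fun i => if i < 2 ^ s then A else B) = A ^ 2 ^ s * B ^ 2 ^ s
  | 0, A, B => by simp [tp]
  | s + 1, A, B => by
    rw [tp, pow_succ' 2 s, pow_mul, pow_mul, pow_two A, pow_two B, ← tp_half s]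
    congr 1
    funext i
    by_cases h : i < 2 ^ s
    · rw [if_pos h, if_pos (by omega), if_pos (by omega)]
    · rw [if_neg h, if_neg (by omega), if_neg (by omega)]

theorem trace_pow_comm (A B : Matrix X X ℝ) (n : ℕ) :
    ((A * B) ^ n).trace = ((B * A) ^ n).trace := by
  rcases n with _ | n
  · simp
  · rw [pow_succ, ← mul_assoc, mul_pow_mul, Matrix.trace_mul_comm, ← mul_assoc, ← pow_succ']

omit [DecidableEq X] in
theorem trace_mul_le (A B : Matrix X X ℝ) :
    (A * B).trace ≤ ((Aᵀ * A).trace + (Bᵀ * B).trace) / 2 := by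
  rw [Matrix.trace_mul_comm Aᵀ A]
  simp only [Matrix.trace, Matrix.diag, Matrix.mul_apply, Matrix.transpose_apply]
  rw [← sum_add_distrib, sum_div]
  refine sum_le_sum fun i _ => ?_
  rw [← sum_add_distrib, sum_div]
  refine sum_le_sum fun j _ => ?_
  nlinarith [sq_nonneg (A i j - B j i)]

theorem holder : ∀ (s : ℕ) (f : ℕ → Matrix X X ℝ) (c : ℝ),
    (∀ i, (((f i)ᵀ * f i) ^ 2 ^ s).trace ≤ c) → (tp (s + 1) f).trace ≤ c
  | 0, f, c, h => by
    have h0 := h 0
    have h1 := h 1
    simp only [pow_zero, pow_one] at h0 h1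
    have := trace_mul_le (f 0) (f 1)
    simp only [tp]
    linarith
  | s + 1, f, c, h => by
    rw [tp]
    refine holder s _ c fun i => ?_
    have e : (f (2 * i) * f (2 * i + 1))ᵀ * (f (2 * i) * f (2 * i + 1)) =
        (f (2 * i + 1))ᵀ * (((f (2 * i))ᵀ * f (2 * i)) * f (2 * i + 1)) := by
      simp only [Matrix.transpose_mul, mul_assoc]
    rw [e, trace_pow_comm, mul_assoc, ← tp_alt]
    refine holder s _ c fun j => ?_
    split_ifs
    · rw [Matrix.transpose_mul, Matrix.transpose_transpose, ← pow_two, ← pow_mul, ← pow_succ']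
      exact h _
    · rw [Matrix.transpose_mul, Matrix.transpose_transpose, ← pow_two, ← pow_mul, ← pow_succ',
        trace_pow_comm]
      exact h _

/-- ordered product -/
def op {M : Type*} [Monoid M] : ℕ → (ℕ → M) → M
  | 0, _ => 1
  | n + 1, f => f 0 * op n fun i => f (i + 1)

theorem op_const {M : Type*} [Monoid M] : ∀ (n : ℕ) (A : M), op n (fun _ => A) = A ^ n
  | 0, A => by simp [op]
  | n + 1, A => by rw [op, op_const n, pow_succ']

theorem op_mark {M : Type*} [Monoid M] (J A : M) : ∀ (j k : ℕ),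
    op (j + k + 1) (fun i => if i = j then J else A) = A ^ j * J * A ^ k
  | 0, k => by
    rw [op]
    simp [op_const]
  | j + 1, k => by
    rw [show j + 1 + k + 1 = (j + k + 1) + 1 by ring, op]
    simp only [Nat.add_right_cancel_iff]
    rw [op_mark J A j k, if_neg (by omega), pow_succ']
    simp only [mul_assoc]

theorem walk : ∀ (n : ℕ) (f : ℕ → Matrix X X ℝ) (K : X → X → ℝ),
    ∑ x, ∑ y, K x y * op n f x y =
      ∑ w : Fin (n + 1) → X, K (w 0) (w (Fin.last n)) * ∏ i : Fin n, f i (w i.castSucc) (w i.succ)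
  | 0, f, K => by
    simp only [op, Matrix.one_apply, mul_ite, mul_one, mul_zero, sum_ite_eq, mem_univ, if_true,
      univ_eq_empty, prod_empty]
    exact (Fintype.sum_equiv (Equiv.funUnique (Fin 1) X) _ _ fun w => rfl).symm
  | n + 1, f, K => by
    have ih := walk n (fun i => f (i + 1)) fun z y => ∑ x, K x y * f 0 x z
    rw [← (Fin.consEquiv fun _ : Fin (n + 2) => X).sum_comp, Fintype.sum_prod_type, sum_comm]
    have e1 : ∑ y, ∑ x, K x y * op (n + 1) f x y =
        ∑ z, ∑ y, (∑ x, K x y * f 0 x z) * op n (fun i => f (i + 1)) z y := by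
      simp only [op, Matrix.mul_apply, mul_sum, sum_mul]
      rw [sum_comm (f := fun z y => ∑ x, K x y * f 0 x z * op n (fun i => f (i + 1)) z y)]
      refine sum_congr rfl fun y _ => ?_
      rw [sum_comm]
      exact sum_congr rfl fun z _ => sum_congr rfl fun x _ => by ring
    rw [e1, ih, sum_comm]
    refine sum_congr rfl fun w _ => ?_
    rw [sum_mul]
    refine sum_congr rfl fun x _ => ?_
    rw [Fin.prod_univ_succ, ← mul_assoc]
    rfl

theorem trace_walk (n : ℕ) (f : ℕ → Matrix X X ℝ) :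
    (op n f).trace = ∑ w : Fin (n + 1) → X, (if w 0 = w (Fin.last n) then 1 else 0) *
      ∏ i : Fin n, f i (w i.castSucc) (w i.succ) := by
  rw [← walk n f fun x y => if x = y then 1 else 0]
  simp [Matrix.trace]

theorem amgm (n : ℕ) (a : Fin (n + 2) → ℝ) (ha : ∀ i, 0 ≤ a i) :
    ∏ i, a i ≤ ∑ j : Fin (n + 2), ((n : ℝ) + 2)⁻¹ *
      ∏ i : Fin (n + 2), if (i : ℕ) = j then 1 else a i ^ (((n : ℝ) + 2) / ((n : ℝ) + 1)) := by
  have hn : (0 : ℝ) ≤ n := Nat.cast_nonneg n
  refine le_trans (le_of_eq ?_) (Real.geom_mean_le_arith_mean_weighted univ _ _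
    (fun _ _ => by positivity) (by simp; field_simp)
    fun j _ => prod_nonneg fun i _ => by have := ha i; split_ifs <;> positivity)
  have e : ∀ j : Fin (n + 2), (∏ i : Fin (n + 2), if (i : ℕ) = j then 1 else
      a i ^ (((n : ℝ) + 2) / ((n : ℝ) + 1))) ^ ((n : ℝ) + 2)⁻¹ =
      ∏ i, if i = j then 1 else a i ^ ((n : ℝ) + 1)⁻¹ := by
    intro j
    rw [← Real.finsetProd_rpow _ _ fun i _ => by have := ha i; split_ifs <;> positivity]
    refine prod_congr rfl fun i _ => ?_
    by_cases h : i = j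
    · simp [h]
    · rw [if_neg h, if_neg (fun h' => h (Fin.ext h')), ← Real.rpow_mul (ha i)]
      congr 1
      field_simp
  simp only [e]
  rw [prod_comm]
  refine prod_congr rfl fun i _ => ?_
  rw [← mul_prod_erase _ _ (mem_univ i), if_pos rfl, one_mul,
    prod_congr rfl fun j hj => if_neg (ne_of_mem_erase hj).symm, prod_const,
    card_erase_of_mem (mem_univ _), card_univ, Fintype.card_fin, ← Real.rpow_natCast,
    ← Real.rpow_mul (ha i)]
  have : ((n : ℝ) + 1)⁻¹ * ((n + 2 - 1 : ℕ) : ℝ) = 1 := by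
    rw [show n + 2 - 1 = n + 1 by omega]; push_cast; field_simp
  rw [this, Real.rpow_one]

theorem row_pow (μ : Matrix X X ℝ) (h0 : ∀ x y, 0 ≤ μ x y) (b : ℝ) (hb : ∀ x, ∑ y, μ x y ≤ b) :
    ∀ (m : ℕ) (x : X), ∑ y, (μ ^ m) x y ≤ b ^ m
  | 0, x => by simp [Matrix.one_apply]
  | m + 1, x => by
    have hb0 : 0 ≤ b := (sum_nonneg fun y _ => h0 x y).trans (hb x)
    simp only [pow_succ', Matrix.mul_apply]
    rw [sum_comm]
    calc ∑ z, ∑ y, μ x z * (μ ^ m) z y ≤ ∑ z, μ x z * b ^ m := by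
          refine sum_le_sum fun z _ => ?_
          rw [← mul_sum]
          exact mul_le_mul_of_nonneg_left (row_pow μ h0 b hb m z) (h0 x z)
      _ ≤ _ := by
          rw [← sum_mul]
          exact mul_le_mul_of_nonneg_right (hb x) (by positivity)

theorem expect_mix {ι β : Type} [Fintype ι] [DecidableEq ι] [Fintype β] [Nonempty β]
    (dp : ι → ℕ) (r : ℕ) (F : (ι → β) → ℝ) : 𝔼 b, 𝔼 a, F (mix dp r a b) = 𝔼 w, F w := by
  let e : (ι → β) × (ι → β) ≃ (ι → β) × (ι → β) :=
    Function.Involutive.toPerm (fun t => (mix dp r t.1 t.2, mix dp r t.2 t.1)) fun t => by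
      ext i <;> simp only [mix] <;> split_ifs <;> rfl
  rw [expect_comm, ← expect_product', univ_product_univ,
    Fintype.expect_equiv e (fun t => F (mix dp r t.1 t.2)) (fun t => F t.1) fun _ => rfl,
    ← univ_product_univ, expect_product]
  simp

theorem holder_expect {Ω : Type} [Fintype Ω] [Nonempty Ω] (A : Finset ℕ) (g : ℕ → Ω → ℝ)
    (p : ℕ → ℝ) (hg : ∀ j ∈ A, ∀ a, 0 < g j a) (hp : ∀ j ∈ A, 0 < p j)
    (hs : ∑ j ∈ A, 1 / p j ≤ 1) :
    𝔼 a, ∏ j ∈ A, g j a ≤ ∏ j ∈ A, (𝔼 a, g j a ^ p j) ^ (1 / p j) := by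
  have hE : ∀ j ∈ A, 0 < 𝔼 a, g j a ^ p j := fun j hj =>
    expect_pos (fun a _ => Real.rpow_pos_of_pos (hg j hj a) _) univ_nonempty
  have hN : 0 < ∏ j ∈ A, (𝔼 a, g j a ^ p j) ^ (1 / p j) :=
    prod_pos fun j hj => Real.rpow_pos_of_pos (hE j hj) _
  rw [← div_le_one hN, expect_div]
  have h1 : ∀ a, (∏ j ∈ A, g j a) / ∏ j ∈ A, (𝔼 a, g j a ^ p j) ^ (1 / p j) ≤
      (1 - ∑ j ∈ A, 1 / p j) + ∑ j ∈ A, 1 / p j * (g j a ^ p j / 𝔼 a, g j a ^ p j) := by
    intro a
    have := Real.geom_mean_le_arith_mean_weighted (insertNone A)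
      (fun o => o.elim (1 - ∑ j ∈ A, 1 / p j) fun j => 1 / p j)
      (fun o => o.elim 1 fun j => g j a ^ p j / 𝔼 a, g j a ^ p j)
      (by
        rintro (_ | j) hj
        · simpa using hs
        · have := hp j (by simpa using hj)
          simp only [Option.elim_some]; positivity)
      (by simp [sum_insertNone])
      (by
        rintro (_ | j) hj
        · simp
        · have hj' : j ∈ A := by simpa using hj
          have := hg j hj' a
          have := hE j hj'
          simp only [Option.elim_some]; positivity)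
    simp only [prod_insertNone, sum_insertNone, Option.elim_none, Option.elim_some, Real.one_rpow,
      one_mul, mul_one] at this
    refine le_trans (le_of_eq ?_) this
    rw [← prod_div_distrib]
    refine prod_congr rfl fun j hj => ?_
    rw [Real.div_rpow (Real.rpow_pos_of_pos (hg j hj a) _).le (hE j hj).le, one_div,
      Real.rpow_rpow_inv (hg j hj a).le (hp j hj).ne']
  refine (expect_le_expect fun a _ => h1 a).trans (le_of_eq ?_)
  rw [expect_add_distrib, Fintype.expect_const, expect_sum_comm]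
  have : ∀ j ∈ A, 𝔼 a, 1 / p j * (g j a ^ p j / 𝔼 a, g j a ^ p j) = 1 / p j := fun j hj => by
    rw [← mul_expect, ← expect_div, div_self (hE j hj).ne', mul_one]
  rw [sum_congr rfl this]
  ring

end Lin2

/-- Hölder inequality for Schatten norms, powers of two. -/
theorem trace_pow_transpose_mul_le (T : Matrix X X ℝ) (s : ℕ) :
    ((Tᵀ) ^ (2 ^ s) * T ^ (2 ^ s)).trace ≤ ((Tᵀ * T) ^ (2 ^ s)).trace := by
  rw [← Lin2.tp_half]
  refine Lin2.holder s _ _ fun i => ?_
  split_ifs
  · rw [Matrix.transpose_transpose, Lin2.trace_pow_comm]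
  · exact le_rfl

/-- Young's inequality for symmetric non-negative kernels. -/
theorem trace_pow_le_young (ν : Matrix X X ℝ) (h0 : ∀ x y, 0 ≤ ν x y) (hs : ∀ x y, ν x y = ν y x)
    (p : ℕ) (hp : 2 ≤ p) (b : ℝ) (hb : ∀ x, ∑ y, ν x y ^ ((p : ℝ) / ((p : ℝ) - 1)) ≤ b) :
    (ν ^ p).trace ≤ (Fintype.card X : ℝ) * b ^ (p - 1) := by
  have _ := hs
  obtain ⟨n, rfl⟩ := Nat.exists_eq_add_of_le' hp
  have hq : ((n + 2 : ℕ) : ℝ) / (((n + 2 : ℕ) : ℝ) - 1) = ((n : ℝ) + 2) / ((n : ℝ) + 1) := by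
    push_cast; congr 1; ring
  rw [hq] at hb
  let μ : Matrix X X ℝ := Matrix.of fun x y => ν x y ^ (((n : ℝ) + 2) / ((n : ℝ) + 1))
  let J : Matrix X X ℝ := Matrix.of fun _ _ => 1
  have hj : ∀ j : Fin (n + 2), (Lin2.op (n + 2) fun i => if i = j then J else μ).trace ≤
      (Fintype.card X : ℝ) * b ^ (n + 2 - 1) := by
    intro j
    obtain ⟨k, hk⟩ : ∃ k, n + 2 = j + k + 1 := ⟨n + 1 - j, by omega⟩
    have := Lin2.op_mark J μ j k
    rw [← hk] at this
    rw [this, Matrix.trace_mul_comm, ← mul_assoc, ← pow_add, show n + 2 - 1 = k + j by omega]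
    simp only [Matrix.trace, Matrix.diag, Matrix.mul_apply, J, Matrix.of_apply, mul_one]
    refine (sum_le_sum fun x _ => Lin2.row_pow μ (fun x y => Real.rpow_nonneg (h0 x y) _) b hb
      (k + j) x).trans (by simp)
  have hn : (0 : ℝ) ≤ n := Nat.cast_nonneg n
  calc (ν ^ (n + 2)).trace ≤ ∑ j : Fin (n + 2), ((n : ℝ) + 2)⁻¹ *
        (Lin2.op (n + 2) fun i => if i = j then J else μ).trace := by
        rw [← Lin2.op_const]
        simp only [Lin2.trace_walk, mul_sum]
        rw [sum_comm]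
        refine sum_le_sum fun w _ => ?_
        have := Lin2.amgm n (fun i => ν (w i.castSucc) (w i.succ)) fun i => h0 _ _
        split_ifs
        · simp only [one_mul]
          refine this.trans (le_of_eq (sum_congr rfl fun j _ => ?_))
          congr 1
          refine prod_congr rfl fun i _ => ?_
          split_ifs <;> rfl
        · simp
    _ ≤ ∑ _j : Fin (n + 2), ((n : ℝ) + 2)⁻¹ * ((Fintype.card X : ℝ) * b ^ (n + 2 - 1)) :=
        sum_le_sum fun j _ => mul_le_mul_of_nonneg_left (hj j) (by positivity)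
    _ = _ := by
        simp only [sum_const, card_univ, Fintype.card_fin, nsmul_eq_mul]
        push_cast
        field_simp

/-- A Finner-type Hölder inequality along a filtration. -/
theorem finner {ι β : Type} [Fintype ι] [DecidableEq ι] [Fintype β] [Nonempty β] (dp : ι → ℕ)
    (J : Finset ℕ) (f : ℕ → (ι → β) → ℝ) (st en : ℕ → ℕ) (p B : ℕ → ℝ)
    (hf : ∀ j ∈ J, ∀ w, 0 < f j w) (hp : ∀ j ∈ J, 0 < p j) (hB : ∀ j ∈ J, 0 < B j)
    (hse : ∀ j ∈ J, st j ≤ en j)
    (hmeas : ∀ j ∈ J, ∀ a b, f j (mix dp (st j) a b) = f j b)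
    (hwin : ∀ j ∈ J, ∀ b, 𝔼 a, f j (mix dp (en j) a b) ^ (p j) ≤ B j ^ (p j))
    (hsum : ∀ r : ℕ, ∑ j ∈ J.filter (fun j => st j ≤ r ∧ r < en j), 1 / p j ≤ 1) :
    𝔼 w, ∏ j ∈ J, f j w ≤ ∏ j ∈ J, B j := by
  have _ := hse
  obtain ⟨G, hG⟩ : ∃ G : ℕ → ℕ → (ι → β) → ℝ,
      ∀ r j w, G r j w = (𝔼 a, f j (mix dp r a w) ^ p j) ^ (1 / p j) := ⟨_, fun _ _ _ => rfl⟩
  obtain ⟨H, hH⟩ : ∃ H : ℕ → ℕ → (ι → β) → ℝ,
      ∀ r j w, H r j w = if r < en j then G r j w else B j := ⟨_, fun _ _ _ => rfl⟩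
  have hE : ∀ r, ∀ j ∈ J, ∀ w, 0 < 𝔼 a, f j (mix dp r a w) ^ p j := fun r j hj w =>
    expect_pos (fun a _ => Real.rpow_pos_of_pos (hf j hj _) _) univ_nonempty
  have hG0 : ∀ r, ∀ j ∈ J, ∀ w, 0 < G r j w := fun r j hj w => by
    rw [hG]; exact Real.rpow_pos_of_pos (hE r j hj w) _
  have hH0 : ∀ r, ∀ j ∈ J, ∀ w, 0 < H r j w := fun r j hj w => by
    rw [hH]; split_ifs; exacts [hG0 r j hj w, hB j hj]
  have hGH : ∀ r, ∀ j ∈ J, r ≤ en j → ∀ w, G r j w ≤ H r j w := fun r j hj hr w => by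
    rw [hH]
    split_ifs with h
    · exact le_rfl
    · obtain rfl : r = en j := by omega
      rw [hG, one_div, Real.rpow_inv_le_iff_of_pos (hE _ j hj w).le (hB j hj).le (hp j hj)]
      exact hwin j hj w
  have hfm : ∀ r, ∀ j ∈ J, r ≤ st j → ∀ a w, f j (mix dp r a w) = f j w := fun r j hj hr a w => by
    rw [← hmeas j hj (mix dp r a w) w]
    congr 1
    funext i
    simp only [mix]
    split_ifs <;> first | rfl | omega
  have hGf : ∀ r, ∀ j ∈ J, r ≤ st j → ∀ w, G r j w = f j w := fun r j hj hr w => by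
    rw [hG]
    simp only [hfm r j hj hr, Fintype.expect_const]
    rw [one_div, Real.rpow_rpow_inv (hf j hj w).le (hp j hj).ne']
  have step : ∀ r w, 𝔼 a, ∏ j ∈ J, H r j (mix dp (r + 1) a w) ≤ ∏ j ∈ J, H (r + 1) j w := by
    intro r w
    have e1 : ∀ a, ∏ j ∈ J, H r j (mix dp (r + 1) a w) =
        (∏ j ∈ J.filter (fun j => st j ≤ r ∧ r < en j), G r j (mix dp (r + 1) a w)) *
        ∏ j ∈ J.filter (fun j => ¬ (st j ≤ r ∧ r < en j)), if r < en j then f j w else B j := by
      intro a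
      rw [← prod_filter_mul_prod_filter_not J fun j => st j ≤ r ∧ r < en j]
      congr 1
      · refine prod_congr rfl fun j hj => ?_
        rw [hH, if_pos (mem_filter.1 hj).2.2]
      · refine prod_congr rfl fun j hj => ?_
        obtain ⟨hj, hn⟩ := mem_filter.1 hj
        rw [hH]
        split_ifs with h
        · rw [hGf r j hj (by omega), hfm (r + 1) j hj (by omega)]
        · rfl
    simp only [e1]
    rw [← expect_mul, ← prod_filter_mul_prod_filter_not J fun j => st j ≤ r ∧ r < en j]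
    refine mul_le_mul ((Lin2.holder_expect _ (fun j a => G r j (mix dp (r + 1) a w)) p
      (fun j hj a => hG0 r j (mem_filter.1 hj).1 _) (fun j hj => hp j (mem_filter.1 hj).1)
      (hsum r)).trans (prod_le_prod (fun j hj => ?_) fun j hj => ?_))
      (prod_le_prod (fun j hj => ?_) fun j hj => ?_) (prod_nonneg fun j hj => ?_)
      (prod_nonneg fun j hj => (hH0 _ j (mem_filter.1 hj).1 w).le)
    · exact Real.rpow_nonneg (expect_nonneg fun a _ =>
        Real.rpow_nonneg (hG0 r j (mem_filter.1 hj).1 _).le _) _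
    · obtain ⟨hj, h1, h2⟩ := mem_filter.1 hj
      refine le_trans (le_of_eq ?_) (hGH (r + 1) j hj h2 w)
      rw [hG (r + 1), ← Lin2.expect_mix dp r fun a => f j (mix dp (r + 1) a w) ^ p j]
      congr 1
      refine expect_congr rfl fun a _ => ?_
      rw [hG, one_div, Real.rpow_inv_rpow (hE r j hj _).le (hp j hj).ne']
      refine expect_congr rfl fun a' _ => ?_
      congr 2
      funext i
      simp only [mix]
      split_ifs <;> first | rfl | omega
    · obtain ⟨hj, -⟩ := mem_filter.1 hj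
      split_ifs; exacts [(hf j hj w).le, (hB j hj).le]
    · obtain ⟨hj, hn⟩ := mem_filter.1 hj
      split_ifs with h
      · rw [← hGf (r + 1) j hj (by omega)]
        exact hGH (r + 1) j hj h w
      · rw [hH, if_neg (by omega)]
    · obtain ⟨hj, -⟩ := mem_filter.1 hj
      split_ifs; exacts [(hf j hj w).le, (hB j hj).le]
  have main : ∀ r, 𝔼 w, ∏ j ∈ J, f j w ≤ 𝔼 w, ∏ j ∈ J, H r j w := by
    intro r
    induction r with
    | zero =>
      refine expect_le_expect fun w _ => prod_le_prod (fun j hj => (hf j hj w).le) fun j hj => ?_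
      rw [← hGf 0 j hj (Nat.zero_le _)]
      exact hGH 0 j hj (Nat.zero_le _) w
    | succ r ih =>
      refine ih.trans ?_
      rw [← Lin2.expect_mix dp (r + 1)]
      exact expect_le_expect fun w _ => step r w
  refine (main (J.sup en)).trans (le_of_eq ?_)
  rw [← Fintype.expect_const (ι := ι → β) (∏ j ∈ J, B j)]
  refine expect_congr rfl fun w _ => prod_congr rfl fun j hj => ?_
  rw [hH, if_neg (not_lt.2 (le_sup hj))]

end Crest.Agent.R155
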