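import Crest.Agent.R155.BenesA
import Crest.Agent.R155.Lin2

open Finset Matrix
open scoped BigOperators

set_option linter.unusedSectionVars false

namespace Crest.Agent.R155

theorem mix_zero {ι β : Type} (dp : ι → ℕ) (a b : ι → β) : mix dp 0 a b = b := by
  funext i; simp [mix]

theorem tl_mix (h r : ℕ) (a b : Sw (h + 1)) (c : Bool) :
    tl (mix (depth (h + 1)) (r + 1) a b) c = mix (depth h) r (tl a c) (tl b c) := by
  funext i
  change (if depth h i + 1 < r + 1 then _ else _) = _
  simp only [mix, Nat.add_lt_add_iff_right]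
  rfl

theorem hd_mix (h r : ℕ) (a b : Sw (h + 1)) :
    hd (mix (depth (h + 1)) (r + 1) a b) = hd a := by
  funext i
  exact if_pos (e := b (Sum.inl i)) (Nat.succ_pos r)

theorem net_mix : ∀ (r h : ℕ) (b : Sw h), ∃ y : Equiv.Perm (Cube h),
    ∀ a, net h (mix (depth h) r a b) = y * top r h a
  | 0, h, b => ⟨net h b, fun a => by rw [mix_zero]; exact (mul_one _).symm⟩
  | r + 1, 0, b => ⟨1, fun a => rfl⟩
  | r + 1, h + 1, b => by
    choose y hy using fun c => net_mix r h (tl b c)
    refine ⟨both y, fun a => ?_⟩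
    change both (fun c => net h (tl (mix (depth (h + 1)) (r + 1) a b) c))
      * sw (hd (mix (depth (h + 1)) (r + 1) a b))
      = both y * (both (fun c => top r h (tl a c)) * sw (hd a))
    simp only [tl_mix, hd_mix, hy]
    rw [← mul_assoc, both_mul]

theorem lev_mix (j : ℕ) : ∀ (h r : ℕ), r + j ≤ h + 1 → ∀ S ω a b,
    lev j h S ω (mix (depth h) r a b) = lev j h S ω b
  | 0, _, _, _, _, _, _ => rfl
  | h + 1, 0, _, _, _, _, _ => by rw [mix_zero]
  | h + 1, r + 1, hr, S, ω, a, b => by
    rw [lev_succ, lev_succ]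
    simp only [tl_mix, lev_mix j h r (by omega)]
    congr 1
    split_ifs with hj
    · obtain rfl : r = 0 := by omega
      simp only [mix_zero]
    · rfl

theorem lev_window (j r lam : ℕ) (q : ℝ) (hq : 1 ≤ q) (hr : r + 1 ≤ j) :
    ∀ (h e : ℕ), e + j = h + 1 + r → ∀ (S : Finset (Cube h)) (ω b : Sw h),
      𝔼 a : Sw h, q ^ lev j h S ω (mix (depth h) e a b)
        ≤ Real.exp (S.card / 2 * (Real.log q / 2 ^ lam
          + (q - 1) * (2 : ℝ) ^ ((3 * (lam : ℝ) - r) / 2))) := by
  set γ := Real.log q / 2 ^ lam + (q - 1) * (2 : ℝ) ^ ((3 * (lam : ℝ) - r) / 2) with hγ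
  have hγ0 : 0 ≤ γ := by
    have := Real.log_nonneg hq
    have : 0 ≤ q - 1 := by linarith
    positivity
  intro h
  induction h with
  | zero =>
    intro e _ S ω b
    simp only [lev_eq_zero j 0 (by omega), pow_zero, Finset.expect_const univ_nonempty]
    exact Real.one_le_exp (by positivity)
  | succ h ih =>
    intro e he S ω b
    change Finset (Bool × Cube h) at S
    rcases lt_trichotomy j (h + 1) with hj | hj | hj
    · obtain ⟨e, rfl⟩ : ∃ e', e = e' + 1 := ⟨e - 1, by omega⟩
      simp only [lev_succ, if_neg hj.ne, zero_add, Fintype.sum_bool, tl_mix, pow_add]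
      rw [expect_sw_succ (fun _ a0 a1 =>
        q ^ lev j h (hs S (hd ω) true) (tl ω true) (mix (depth h) e a1 (tl b true)) *
        q ^ lev j h (hs S (hd ω) false) (tl ω false) (mix (depth h) e a0 (tl b false)))]
      simp only [← Finset.mul_expect, ← Finset.expect_mul, Finset.expect_const univ_nonempty]
      refine (mul_le_mul (ih e (by omega) _ _ _) (ih e (by omega) _ _ _)
        (Finset.expect_nonneg fun _ _ => by positivity) (Real.exp_pos _).le).trans (le_of_eq ?_)
      rw [← Real.exp_add]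
      congr 1
      have := card_hs S (hd ω)
      change _ = ((S.card : ℕ) : ℝ) / 2 * γ
      rw [← this]; push_cast; ring
    · obtain rfl : e = r + 1 := by omega
      simp only [lev_succ, if_pos hj, tl_mix, lev_eq_zero j h (by omega), Finset.sum_const_zero,
        add_zero]
      rw [expect_sw_succ (fun _ a0 a1 => q ^ cyc (hs S (hd ω) false ∩ hs S (hd ω) true)
        ((ben h (tl ω true) (mix (depth h) r a1 (tl b true)))⁻¹
          * ben h (tl ω false) (mix (depth h) r a0 (tl b false))))]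
      refine Finset.expect_le univ_nonempty fun _ _ => Finset.expect_le univ_nonempty fun a0 _ => ?_
      obtain ⟨y, hy⟩ := net_mix r h (tl b true)
      have e1 : ∀ a1, (ben h (tl ω true) (mix (depth h) r a1 (tl b true)))⁻¹
          * ben h (tl ω false) (mix (depth h) r a0 (tl b false))
          = ((net h (tl ω true))⁻¹ * y) * top r h a1
            * ben h (tl ω false) (mix (depth h) r a0 (tl b false)) := by
        intro a1
        rw [ben, hy, _root_.mul_inv_rev, inv_inv, mul_assoc _ y]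
      simp only [e1]
      refine (cyc_exp_moment r h lam (by omega) _ _ _ q hq).trans ?_
      rw [Real.exp_le_exp]
      refine mul_le_mul_of_nonneg_right ?_ hγ0
      have h1 := card_hs S (hd ω)
      have h2 := Finset.card_le_card (Finset.inter_subset_left (s₁ := hs S (hd ω) false)
        (s₂ := hs S (hd ω) true))
      have h3 := Finset.card_le_card (Finset.inter_subset_right (s₁ := hs S (hd ω) false)
        (s₂ := hs S (hd ω) true))
      change _ ≤ ((S.card : ℕ) : ℝ) / 2
      rw [le_div_iff₀ (by norm_num)]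
      exact_mod_cast (by omega : (hs S (hd ω) false ∩ hs S (hd ω) true).card * 2 ≤ S.card)
    · simp only [lev_eq_zero j (h + 1) hj, pow_zero, Finset.expect_const univ_nonempty]
      exact Real.one_le_exp (by positivity)

theorem two_rpow_le (j : ℕ) : (2 : ℝ) ^ (-(j : ℝ) / 12) ≤ (17 / 18) ^ j := by
  have h1 : (2 : ℝ) ^ (-(1 : ℝ) / 12) ≤ 17 / 18 := by
    rw [← pow_le_pow_iff_left₀ (n := 12) (by positivity) (by norm_num) (by norm_num),
      ← Real.rpow_natCast, ← Real.rpow_mul (by norm_num)]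
    norm_num
  calc (2 : ℝ) ^ (-(j : ℝ) / 12) = ((2 : ℝ) ^ (-(1 : ℝ) / 12)) ^ j := by
        rw [← Real.rpow_natCast, ← Real.rpow_mul (by norm_num)]; congr 1; ring
    _ ≤ _ := pow_le_pow_left₀ (by positivity) h1 j

theorem sum_geom_le (D : ℕ) : ∑ j ∈ Icc 1 D, (17 / 18 : ℝ) ^ j ≤ 17 - 17 * (17 / 18) ^ D := by
  induction D with
  | zero => simp
  | succ D ih =>
    rw [Finset.sum_Icc_succ_top (by omega), pow_succ]
    linarith

theorem gamma_le (j : ℕ) (hj : 1 ≤ j) :
    (Real.log ((2 : ℝ) ^ ((j : ℝ) / 31)) / 2 ^ (j / 12)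
      + ((2 : ℝ) ^ ((j : ℝ) / 31) - 1) * (2 : ℝ) ^ ((3 * ((j / 12 : ℕ) : ℝ) - (j / 2 : ℕ)) / 2))
      ≤ j * (4 * Real.log 2 / 31 * (17 / 18) ^ j) := by
  set q := (2 : ℝ) ^ ((j : ℝ) / 31) with hq
  have hq0 : 0 < q := by positivity
  have hl : Real.log q = j / 31 * Real.log 2 := by rw [hq, Real.log_rpow (by norm_num)]
  have hl2 : 0 < Real.log 2 := Real.log_pos (by norm_num)
  have hl0 : 0 ≤ Real.log q := by rw [hl]; positivity
  have h1 : q - 1 ≤ Real.log q * q := by
    have := Real.one_sub_inv_le_log_of_pos hq0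
    have h2 := mul_le_mul_of_nonneg_right this hq0.le
    rwa [sub_mul, inv_mul_cancel₀ hq0.ne', one_mul] at h2
  have h12 : (j : ℝ) ≤ 12 * ((j / 12 : ℕ) : ℝ) + 12 := by
    exact_mod_cast (by omega : j ≤ 12 * (j / 12) + 12)
  have h12' : 12 * ((j / 12 : ℕ) : ℝ) ≤ j := by
    exact_mod_cast (by omega : 12 * (j / 12) ≤ j)
  have h2' : (j : ℝ) ≤ 2 * ((j / 2 : ℕ) : ℝ) + 1 := by
    exact_mod_cast (by omega : j ≤ 2 * (j / 2) + 1)
  have hj0 : (0 : ℝ) ≤ j := by positivity
  have hT : (2 : ℝ) ^ (1 + -(j : ℝ) / 12) ≤ 2 * (17 / 18) ^ j := by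
    rw [Real.rpow_add (by norm_num), Real.rpow_one]
    exact mul_le_mul_of_nonneg_left (two_rpow_le j) (by norm_num)
  have h3 : ((2 : ℝ) ^ (j / 12))⁻¹ ≤ 2 * (17 / 18) ^ j := by
    refine le_trans ?_ hT
    rw [← Real.rpow_natCast, ← Real.rpow_neg (by norm_num)]
    exact Real.rpow_le_rpow_of_exponent_le (by norm_num) (by linarith)
  have h4 : q * (2 : ℝ) ^ ((3 * ((j / 12 : ℕ) : ℝ) - (j / 2 : ℕ)) / 2) ≤ 2 * (17 / 18) ^ j := by
    refine le_trans ?_ hT
    rw [hq, ← Real.rpow_add (by norm_num)]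
    exact Real.rpow_le_rpow_of_exponent_le (by norm_num) (by linarith)
  calc _ ≤ Real.log q * (2 * (17 / 18) ^ j) + Real.log q * (2 * (17 / 18) ^ j) := by
        refine add_le_add ?_ ?_
        · rw [div_eq_mul_inv]; exact mul_le_mul_of_nonneg_left h3 hl0
        · refine (mul_le_mul_of_nonneg_right h1 (by positivity)).trans ?_
          rw [mul_assoc]; exact mul_le_mul_of_nonneg_left h4 hl0
    _ = _ := by rw [hl]; ring

theorem lev_moment (D : ℕ) (S : Finset (Cube D)) (ω : Sw D) :
    𝔼 ω' : Sw D, (2 : ℝ) ^ (((∑ j ∈ Icc 1 D, lev j D S ω ω' : ℕ) : ℝ) / 31)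
      ≤ Real.exp (24 / 31 * S.card) := by
  have h := finner (depth D) (Icc 1 D) (fun j w => (2 : ℝ) ^ ((lev j D S ω w : ℝ) / 31))
    (fun j => D + 1 - j) (fun j => D + 1 - j + j / 2) (fun j => j)
    (fun j => Real.exp (S.card / 2 * (4 * Real.log 2 / 31 * (17 / 18) ^ j)))
    (fun _ _ _ => by positivity)
    (fun j hj => by exact_mod_cast (Finset.mem_Icc.1 hj).1)
    (fun _ _ => Real.exp_pos _) (fun _ _ => Nat.le_add_right _ _)
    (fun j hj a b => by
      have := Finset.mem_Icc.1 hj
      rw [lev_mix j D _ (by omega)])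
    (fun j hj b => by
      have hj' := Finset.mem_Icc.1 hj
      have hw := lev_window j (j / 2) (j / 12) ((2 : ℝ) ^ ((j : ℝ) / 31))
        (Real.one_le_rpow (by norm_num) (by positivity)) (by omega) D (D + 1 - j + j / 2)
        (by omega) S ω b
      refine le_trans (le_of_eq ?_) (hw.trans ?_)
      · refine Finset.expect_congr rfl fun a _ => ?_
        rw [← Real.rpow_natCast, ← Real.rpow_mul (by norm_num), ← Real.rpow_mul (by norm_num)]
        congr 1; ring
      · rw [← Real.exp_mul, Real.exp_le_exp, mul_assoc]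
        refine mul_le_mul_of_nonneg_left ?_ (by positivity)
        exact (gamma_le j hj'.1).trans (le_of_eq (mul_comm _ _)))
    (fun r => by
      by_cases hr : r ≤ D
      · have hi : (0 : ℝ) < ((D + 1 - r : ℕ) : ℝ) := by exact_mod_cast (by omega : 0 < D + 1 - r)
        calc _ ≤ ∑ j ∈ Ico (D + 1 - r) (2 * (D + 1 - r)), 1 / (j : ℝ) := by
              refine Finset.sum_le_sum_of_subset_of_nonneg (fun j hj => ?_)
                (fun _ _ _ => by positivity)
              simp only [Finset.mem_filter, Finset.mem_Icc, Finset.mem_Ico] at hj ⊢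
              omega
          _ ≤ ∑ j ∈ Ico (D + 1 - r) (2 * (D + 1 - r)), 1 / ((D + 1 - r : ℕ) : ℝ) := by
              refine Finset.sum_le_sum fun j hj => ?_
              exact one_div_le_one_div_of_le hi (by exact_mod_cast (Finset.mem_Ico.1 hj).1)
          _ = 1 := by
              rw [Finset.sum_const, Nat.card_Ico, nsmul_eq_mul,
                show 2 * (D + 1 - r) - (D + 1 - r) = D + 1 - r by omega]
              field_simp
      · rw [Finset.filter_false_of_mem]
        · simp
        · intro j hj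
          have := Finset.mem_Icc.1 hj
          omega)
  refine le_trans (le_of_eq ?_) (h.trans ?_)
  · refine Finset.expect_congr rfl fun w _ => ?_
    rw [← Real.rpow_sum_of_pos (by norm_num), ← Finset.sum_div]
    push_cast; rfl
  · rw [← Real.exp_sum, Real.exp_le_exp, ← Finset.mul_sum, ← Finset.mul_sum]
    have h1 := sum_geom_le D
    have h2 : (0 : ℝ) ≤ (17 / 18) ^ D := by positivity
    have h3 := Real.log_two_lt_d9
    have h4 : 0 < Real.log 2 := Real.log_pos (by norm_num)
    have h5 : 4 * Real.log 2 / 31 * ∑ j ∈ Icc 1 D, (17 / 18 : ℝ) ^ j ≤ 48 / 31 := by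
      calc _ ≤ 4 * Real.log 2 / 31 * 17 := mul_le_mul_of_nonneg_left (by linarith) (by positivity)
        _ ≤ _ := by linarith
    calc _ ≤ S.card / 2 * (48 / 31 : ℝ) := mul_le_mul_of_nonneg_left h5 (by positivity)
      _ = _ := by ring

end Crest.Agent.R155
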