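import Crest.Agent.R155.Chaos3

open Finset Matrix
open scoped BigOperators

set_option linter.unusedSectionVars false

namespace Crest.Agent.R155

variable {X : Type} [Fintype X] [DecidableEq X]

/-- The heat kernel of the complete graph. -/
noncomputable def Em {α : Type} [Fintype α] [DecidableEq α] (act : Equiv.Perm α →* Equiv.Perm X)
    (t : ℝ) : Matrix X X ℝ := NormedSpace.exp (t • kap act)

theorem commute_Em {α : Type} [Fintype α] [DecidableEq α] (act : Equiv.Perm α →* Equiv.Perm X)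
    (t : ℝ) (M : Matrix X X ℝ) (hM : ∀ σ, Commute M (Lm act σ)) : Commute M (Em act t) :=
  ((commute_kap act M hM).smul_right t).exp_right

theorem commute_Lm_Em {α : Type} [Fintype α] [DecidableEq α] (act : Equiv.Perm α →* Equiv.Perm X)
    (t : ℝ) (σ : Equiv.Perm α) : Commute (Lm act σ) (Em act t) :=
  ((commute_Lm_kap act σ).smul_right t).exp_right

theorem commute_diag_Lm {α : Type} (act : Equiv.Perm α →* Equiv.Perm X) (w : X → ℝ)
    (σ : Equiv.Perm α) (h : ∀ x, w (act σ⁻¹ x) = w x) : Commute (diagonal w) (Lm act σ) := by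
  ext x y
  simp only [diagonal_mul, mul_diagonal, Lm_apply]
  split_ifs with h1
  · rw [← h1, h]; ring
  · ring

theorem nsq_exp (M : Matrix X X ℝ) (hM : Mᵀ = M) (t : ℝ) (g : X → ℝ) :
    (NormedSpace.exp ((t / 2) • M) *ᵥ g) ⬝ᵥ (NormedSpace.exp ((t / 2) • M) *ᵥ g)
      = g ⬝ᵥ (NormedSpace.exp (t • M) *ᵥ g) := by
  rw [dotProduct_mulVec, ← mulVec_transpose, ← Matrix.exp_transpose, transpose_smul, hM,
    mulVec_mulVec, ← Matrix.exp_add_of_commute _ _ (Commute.refl _), ← add_smul, add_halves,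
    dotProduct_comm]

theorem avg_Lm_nsq_le {α ι : Type} [Fintype ι] [Nonempty ι] (act : Equiv.Perm α →* Equiv.Perm X)
    (φ : ι → Equiv.Perm α) (f : X → ℝ) :
    (avgM (fun i => Lm act (φ i)) *ᵥ f) ⬝ᵥ (avgM (fun i => Lm act (φ i)) *ᵥ f) ≤ f ⬝ᵥ f := by
  have h1 : ∀ y, (avgM (fun i => Lm act (φ i)) *ᵥ f) y * (avgM (fun i => Lm act (φ i)) *ᵥ f) y
      ≤ 𝔼 i, (Lm act (φ i) *ᵥ f) y * (Lm act (φ i) *ᵥ f) y := by
    intro y
    rw [avgM_mulVec]
    have := Finset.expect_mul_sq_le_sq_mul_sq (univ : Finset ι)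
      (fun i => (Lm act (φ i) *ᵥ f) y) (fun _ => (1 : ℝ))
    simpa [sq] using this
  calc _ ≤ ∑ y, 𝔼 i, (Lm act (φ i) *ᵥ f) y * (Lm act (φ i) *ᵥ f) y :=
        Finset.sum_le_sum fun y _ => h1 y
    _ = 𝔼 i, (Lm act (φ i) *ᵥ f) ⬝ᵥ (Lm act (φ i) *ᵥ f) := by
        simp only [dotProduct]; rw [Finset.expect_sum_comm]
    _ = _ := by simp [Lm_nsq]

theorem Lm_sw_Pm {P : Type} [Fintype P] [DecidableEq P]
    (act : Equiv.Perm (Bool × P) →* Equiv.Perm X) (s : P → Bool) :
    Lm act (sw s) * Pm act = Pm act := by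
  unfold Pm
  rw [mul_avgM]
  simp only [← map_mul, sw_mul_sw]
  exact avgM_equiv (Function.Involutive.toPerm (fun t : P → Bool => fun p => xor (s p) (t p))
    (fun t => by funext p; simp)) (fun t => Lm act (sw t))

/-- The projection on configurations with `j` particles. -/
def sec {α : Type} [DecidableEq α] (C : Cfg α X) (j : ℕ) : Matrix X X ℝ :=
  diagonal fun x => if (C.occ x).card = j then 1 else 0

theorem commute_sec_Lm {α : Type} [DecidableEq α] (C : Cfg α X) (j : ℕ) (σ : Equiv.Perm α) :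
    Commute (sec C j) (Lm C.act σ) :=
  commute_diag_Lm _ _ _ (fun x => by simp only [C.occ_act, Finset.card_map])

theorem supp_of_commute {α : Type} [DecidableEq α] (C : Cfg α X) (j : ℕ) (M : Matrix X X ℝ)
    (hM : Commute (sec C j) M) (f : X → ℝ) (hf : ∀ x, f x ≠ 0 → (C.occ x).card = j) :
    ∀ x, (M *ᵥ f) x ≠ 0 → (C.occ x).card = j := by
  have h1 : sec C j *ᵥ f = f := by
    funext x
    rw [sec, mulVec_diagonal]
    by_cases h : (C.occ x).card = j
    · simp [h]
    · have : f x = 0 := by by_contra h'; exact h (hf x h')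
      simp [this]
  intro x hx
  by_contra h
  apply hx
  rw [← h1, mulVec_mulVec, ← hM.eq, ← mulVec_mulVec, sec, mulVec_diagonal]
  simp [h]

theorem nsq_eq_sum_sec {α : Type} [Fintype α] [DecidableEq α] (C : Cfg α X) (M : Matrix X X ℝ)
    (hM : ∀ j, Commute (sec C j) M) (f : X → ℝ) :
    (M *ᵥ f) ⬝ᵥ (M *ᵥ f) = ∑ j ∈ range (Fintype.card α + 1),
      (M *ᵥ (sec C j *ᵥ f)) ⬝ᵥ (M *ᵥ (sec C j *ᵥ f)) := by
  have : ∀ j, M *ᵥ (sec C j *ᵥ f) = sec C j *ᵥ (M *ᵥ f) := fun j => by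
    rw [mulVec_mulVec, ← (hM j).eq, ← mulVec_mulVec]
  simp only [this]
  simp only [dotProduct, sec, mulVec_diagonal]
  rw [Finset.sum_comm]
  refine Finset.sum_congr rfl fun x _ => ?_
  rw [Finset.sum_eq_single (C.occ x).card]
  · simp
  · intro j _ hj; simp [Ne.symm hj]
  · intro h
    exact absurd (Finset.mem_range.2 (Nat.lt_succ_of_le (Finset.card_le_univ _))) h

/-- The weight of the Casimir estimate. -/
noncomputable def beta (a ρ : ℝ) (h : ℕ) (S : Finset (Cube h)) : ℝ :=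
  2 * a * bad ρ h S + 2 * a ^ 2 * Real.exp (15 / 2 * a) * S.card * max 0 (ρ - (2 ^ h)⁻¹)

theorem bad_succ (ρ : ℝ) (h : ℕ) (S : Finset (Bool × Cube h)) :
    bad ρ (h + 1) S = if 2 ≤ S.card ∧ ρ * 2 ^ (h + 1) < (S.card : ℝ) then S.card
      else ∑ b : Bool, bad ρ h (half b S) := rfl

theorem beta_succ (a ρ : ℝ) (h : ℕ) (S : Finset (Bool × Cube h)) :
    beta a ρ (h + 1) S = 2 * a * bad ρ (h + 1) S
      + 2 * a ^ 2 * Real.exp (15 / 2 * a) * S.card * max 0 (ρ - (2 ^ (h + 1))⁻¹) := rfl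

/-- The weight as a matrix. -/
noncomputable def Wm (a ρ : ℝ) (h : ℕ) (C : Cfg (Cube h) X) : Matrix X X ℝ :=
  diagonal fun y => Real.exp (-(beta a ρ h (C.occ y)) / 2)

theorem nsq_diag_le (w w' : X → ℝ) (c : ℝ) (v : X → ℝ)
    (h : ∀ y, v y ≠ 0 → c * (w y * w y) ≤ w' y * w' y) :
    c * ((diagonal w *ᵥ v) ⬝ᵥ (diagonal w *ᵥ v)) ≤ (diagonal w' *ᵥ v) ⬝ᵥ (diagonal w' *ᵥ v) := by
  simp only [dotProduct, mulVec_diagonal, Finset.mul_sum]
  refine Finset.sum_le_sum fun y _ => ?_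
  by_cases hy : v y = 0
  · simp [hy]
  · have := mul_le_mul_of_nonneg_right (h y hy) (mul_self_nonneg (v y))
    linarith

theorem casimir_step (a ρ : ℝ) (ha : 0 ≤ a) (hρ0 : 0 < ρ) (hρ1 : ρ ≤ 1)
    (hy : 8 * ρ / 5 * (Real.exp (5 * a) - 1) ≤ 1) (h : ℕ)
    (ih : ∀ (C : Cfg (Cube h) X) (f : X → ℝ),
      (Wm a ρ h C *ᵥ (Tm h C.act *ᵥ f)) ⬝ᵥ (Wm a ρ h C *ᵥ (Tm h C.act *ᵥ f))
        ≤ (Em C.act (-(a / 2)) *ᵥ f) ⬝ᵥ (Em C.act (-(a / 2)) *ᵥ f))
    (C : Cfg (Bool × Cube h) X) (j : ℕ) (f : X → ℝ) (hf : ∀ x, f x ≠ 0 → (C.occ x).card = j) :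
    (Wm a ρ (h + 1) C *ᵥ (Tm (h + 1) C.act *ᵥ f)) ⬝ᵥ (Wm a ρ (h + 1) C *ᵥ (Tm (h + 1) C.act *ᵥ f))
        ≤ (Em C.act (-(a / 2)) *ᵥ f) ⬝ᵥ (Em C.act (-(a / 2)) *ᵥ f) := by
  set c : ℝ := 2 * a ^ 2 * Real.exp (15 / 2 * a) with hc
  have hc0 : 0 ≤ c := by positivity
  have hTsupp := supp_of_commute C j (Tm (h + 1) C.act)
    (commute_Tm (h + 1) C.act _ (commute_sec_Lm C j)) f hf
  have hEsupp := supp_of_commute C j (Em C.act (-(a / 2)))
    (commute_Em C.act _ _ (commute_sec_Lm C j)) f hf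
  by_cases hd : 2 ≤ j ∧ ρ * 2 ^ (h + 1) < (j : ℝ)
  · -- dense case
    have h1 : Real.exp (a * (2 * j)) * ((Wm a ρ (h + 1) C *ᵥ (Tm (h + 1) C.act *ᵥ f)) ⬝ᵥ
        (Wm a ρ (h + 1) C *ᵥ (Tm (h + 1) C.act *ᵥ f))) ≤ f ⬝ᵥ f := by
      refine (nsq_diag_le _ (fun _ => 1) _ _ (fun y hy => ?_)).trans ?_
      · have hj := hTsupp y hy
        rw [← Real.exp_add, ← Real.exp_add, mul_one, Real.exp_le_one_iff]
        have hb : bad ρ (h + 1) (C.occ y) = j := by
          rw [bad_succ, if_pos (by rw [hj]; exact hd), hj]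
        have : 0 ≤ c * (C.occ y).card * max 0 (ρ - (2 ^ (h + 1))⁻¹) := by positivity
        have hβ := beta_succ a ρ h (C.occ y)
        rw [hb] at hβ
        change a * (2 * j) + (-beta a ρ (h + 1) (C.occ y) / 2 + -beta a ρ (h + 1) (C.occ y) / 2) ≤ 0
        rw [hβ]
        linarith
      · simp only [diagonal_one, one_mulVec]
        exact avg_Lm_nsq_le _ _ _
    have h2 : f ⬝ᵥ f ≤ Real.exp (a * (2 * j)) *
        ((Em C.act (-(a / 2)) *ᵥ f) ⬝ᵥ (Em C.act (-(a / 2)) *ᵥ f)) := by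
      refine le_trans (le_of_eq ?_) (quad_exp_kap_le C j _ hEsupp a ha)
      rw [← nsq_exp _ (kap_transpose _), mulVec_mulVec, Em,
        ← Matrix.exp_add_of_commute _ _ (((Commute.refl _).smul_left _).smul_right _),
        ← add_smul]
      simp
    exact le_of_mul_le_mul_left (h1.trans h2) (Real.exp_pos _)
  · -- sparse case
    haveI : Nonempty (Cube h) := by
      rw [← Fintype.card_pos_iff, card_cube]; positivity
    set W : Bool → Matrix X X ℝ := fun b => Wm a ρ h (C.sub b) with hW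
    set T : Bool → Matrix X X ℝ := fun b => Tm h (C.sub b).act with hT
    set E : Bool → Matrix X X ℝ := fun b => Em (C.sub b).act (-(a / 2)) with hE
    set g : X → ℝ := Pm C.act *ᵥ (Em C.act (-(a / 2)) *ᵥ f) with hg
    have hL : ∀ σ τ, Commute (Lm (C.sub false).act σ) (Lm (C.sub true).act τ) := fun σ τ =>
      (commute_inc σ τ).map (Lm C.act)
    have hW1 : ∀ σ, Commute (W true) (Lm (C.sub false).act σ) := fun σ =>
      commute_diag_Lm _ _ _ (fun x => by
        simp only [Cfg.sub, MonoidHom.comp_apply, C.occ_act]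
        rw [half_map_inc_ne true false (by simp)])
    have hT1 : ∀ σ, Commute (T true) (Lm (C.sub false).act σ) := fun σ =>
      (commute_Tm h _ _ (hL σ)).symm
    have hK1 : ∀ σ, Commute (kap (C.sub true).act) (Lm (C.sub false).act σ) := fun σ =>
      (commute_kap _ _ (hL σ)).symm
    have hKb : ∀ b, Commute (kap C.act) (kap (C.sub b).act) := fun b =>
      commute_kap _ _ (fun σ => (commute_Lm_kap C.act _).symm)
    have hZ : Zm C.act (fun _ => false) = kap C.act - kap (C.sub false).act - kap (C.sub true).act :=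
      (kap_sub_eq_Zm C.act).symm
    have hEE : E true * E false
        = NormedSpace.exp ((a / 2) • Zm C.act (fun _ => false)) * Em C.act (-(a / 2)) := by
      simp only [hE, Em]
      rw [← Matrix.exp_add_of_commute _ _ (((commute_kap _ _ hK1).smul_left _).smul_right _),
        ← Matrix.exp_add_of_commute, hZ]
      · congr 1; module
      · refine (Commute.smul_left ?_ _).smul_right _
        rw [hZ]
        exact ((Commute.refl _).sub_left (hKb false).symm).sub_left (hKb true).symm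
    have hPE : Em C.act (-(a / 2)) * Pm C.act = Pm C.act * Em C.act (-(a / 2)) :=
      (commute_avgM _ _ (fun s => (commute_Lm_Em C.act _ _).symm)).eq
    have hginv : ∀ s, Lm C.act (sw s) *ᵥ g = g := fun s => by
      rw [hg, mulVec_mulVec, Lm_sw_Pm]
    have hgsupp : ∀ x, g x ≠ 0 → (C.occ x).card = j :=
      supp_of_commute C j (Pm C.act) (commute_avgM _ _ (fun s => commute_sec_Lm C j _)) _ hEsupp
    have hgle : g ⬝ᵥ g ≤ (Em C.act (-(a / 2)) *ᵥ f) ⬝ᵥ (Em C.act (-(a / 2)) *ᵥ f) :=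
      avg_Lm_nsq_le _ _ _
    have hZt : (Zm C.act (fun _ => false))ᵀ = Zm C.act (fun _ => false) := by
      rw [hZ]; simp only [transpose_sub, kap_transpose]
    have h1 : ((W false * W true) *ᵥ (Tm (h + 1) C.act *ᵥ f)) ⬝ᵥ
        ((W false * W true) *ᵥ (Tm (h + 1) C.act *ᵥ f))
        ≤ g ⬝ᵥ (NormedSpace.exp (a • Zm C.act (fun _ => false)) *ᵥ g) := by
      have e1 : (W false * W true) *ᵥ (Tm (h + 1) C.act *ᵥ f)
          = W false *ᵥ (T false *ᵥ (W true *ᵥ (T true *ᵥ (Pm C.act *ᵥ f)))) := by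
        rw [Tm_succ]
        simp only [mulVec_mulVec]
        congr 1
        have := (commute_Tm h _ _ hW1).eq
        simp only [← mul_assoc]
        congr 2
        simp only [mul_assoc]
        congr 1
      have e2 : E false *ᵥ (W true *ᵥ (T true *ᵥ (Pm C.act *ᵥ f)))
          = W true *ᵥ (T true *ᵥ (E false *ᵥ (Pm C.act *ᵥ f))) := by
        simp only [mulVec_mulVec]
        congr 1
        rw [← mul_assoc, ← (commute_Em _ _ _ hW1).eq, mul_assoc, ← mul_assoc (Em _ _),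
          ← (commute_Em _ _ _ hT1).eq, mul_assoc]
      have e3 : E true *ᵥ (E false *ᵥ (Pm C.act *ᵥ f))
          = NormedSpace.exp ((a / 2) • Zm C.act (fun _ => false)) *ᵥ g := by
        rw [hg]
        simp only [mulVec_mulVec]
        rw [← mul_assoc, hEE, mul_assoc, hPE]
      rw [e1]
      refine (ih (C.sub false) _).trans ?_
      change (E false *ᵥ _) ⬝ᵥ (E false *ᵥ _) ≤ _
      rw [e2]
      refine (ih (C.sub true) _).trans ?_
      change (E true *ᵥ _) ⬝ᵥ (E true *ᵥ _) ≤ _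
      rw [e3, nsq_exp _ hZt]
    set Δ : ℝ := max 0 (ρ - (2 ^ (h + 1))⁻¹) - max 0 (ρ - (2 ^ h)⁻¹) with hΔ
    have hp : ((2 : ℝ) ^ h)⁻¹ = 2 * (2 ^ (h + 1))⁻¹ := by rw [pow_succ]; field_simp
    have hp0 : (0 : ℝ) < (2 ^ (h + 1))⁻¹ := by positivity
    have hΔ0 : 0 ≤ Δ := sub_nonneg.2 (max_le_max le_rfl (by linarith))
    have h2 : Real.exp (c * j * Δ) * ((Wm a ρ (h + 1) C *ᵥ (Tm (h + 1) C.act *ᵥ f)) ⬝ᵥ
        (Wm a ρ (h + 1) C *ᵥ (Tm (h + 1) C.act *ᵥ f)))
        ≤ ((W false * W true) *ᵥ (Tm (h + 1) C.act *ᵥ f)) ⬝ᵥ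
        ((W false * W true) *ᵥ (Tm (h + 1) C.act *ᵥ f)) := by
      simp only [hW, Wm, diagonal_mul_diagonal]
      refine nsq_diag_le _ _ _ _ (fun y hy => ?_)
      have hj := hTsupp y hy
      simp only [← Real.exp_add, Real.exp_le_exp]
      have hb : (bad ρ (h + 1) (C.occ y) : ℝ)
          = bad ρ h (half false (C.occ y)) + bad ρ h (half true (C.occ y)) := by
        rw [bad_succ, if_neg (by rw [hj]; exact hd), Fintype.sum_bool]; push_cast; ring
      have hcard : ((half false (C.occ y)).card : ℝ) + (half true (C.occ y)).card = j := by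
        rw [← hj, ← card_half_add]; push_cast; ring
      have hβ := beta_succ a ρ h (C.occ y)
      rw [hb, hj] at hβ
      change c * j * Δ + (-beta a ρ (h + 1) (C.occ y) / 2 + -beta a ρ (h + 1) (C.occ y) / 2) ≤ _
      rw [hβ]
      simp only [beta, Cfg.sub, ← hc]
      rw [hΔ, ← hcard]
      apply le_of_eq; ring
    have h3 : g ⬝ᵥ (NormedSpace.exp (a • Zm C.act (fun _ => false)) *ᵥ g)
        ≤ Real.exp (c * j * Δ) * (g ⬝ᵥ g) := by
      have hgg : 0 ≤ g ⬝ᵥ g := Finset.sum_nonneg fun x _ => mul_self_nonneg _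
      by_cases hj : 2 ≤ j
      · have hj2 : (j : ℝ) ≤ ρ * 2 ^ (h + 1) := by
          by_contra hcon; exact hd ⟨hj, not_le.1 hcon⟩
        have hj3 : (2 : ℝ) ≤ j := by exact_mod_cast hj
        have hcard : (2 * (Fintype.card (Cube h) : ℝ)) = 2 ^ (h + 1) := by
          rw [card_cube]; push_cast; ring
        have hρj : (j : ℝ) / 2 ^ (h + 1) ≤ ρ := by rwa [div_le_iff₀ (by positivity)]
        have hρ2 : ((2 : ℝ) ^ h)⁻¹ ≤ ρ := by
          refine le_trans ?_ hρj
          rw [hp, div_eq_mul_inv]; gcongr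
        have hΔe : Δ = (2 ^ (h + 1))⁻¹ := by
          rw [hΔ, max_eq_right (by linarith), max_eq_right (by linarith)]; linarith
        refine (chaos_exp C j (by omega) ?_ g hginv hgsupp a ha ?_).trans ?_
        · rw [hcard]; nlinarith [show (0 : ℝ) < 2 ^ (h + 1) by positivity]
        · rw [hcard]
          refine le_trans ?_ hy
          have : 0 ≤ Real.exp (5 * a) - 1 := by
            have := Real.add_one_le_exp (5 * a); linarith
          gcongr
        · rw [hcard]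
          refine mul_le_mul_of_nonneg_right (le_trans (le_of_eq ?_) (Real.add_one_le_exp _)) hgg
          rw [hΔe, hc]; ring
      · rw [quad_exp_of_mulVec_eq_zero _ _ (Zm_mulVec_lonely C g hginv
          (fun x hx => by rw [hgsupp x hx]; omega))]
        exact le_mul_of_one_le_left hgg (Real.one_le_exp (by positivity))
    refine le_of_mul_le_mul_left (h2.trans (h1.trans (h3.trans ?_))) (Real.exp_pos _)
    exact mul_le_mul_of_nonneg_left hgle (Real.exp_pos _).le

/-- The Casimir estimate: one pass of the butterfly network is dominated by the heat kernel of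
the complete graph, up to a weight. -/
theorem casimir (a ρ : ℝ) (ha : 0 ≤ a) (hρ0 : 0 < ρ) (hρ1 : ρ ≤ 1)
    (hy : 8 * ρ / 5 * (Real.exp (5 * a) - 1) ≤ 1) (h : ℕ) :
    ∀ (C : Cfg (Cube h) X) (f : X → ℝ),
      (Wm a ρ h C *ᵥ (Tm h C.act *ᵥ f)) ⬝ᵥ (Wm a ρ h C *ᵥ (Tm h C.act *ᵥ f))
        ≤ (Em C.act (-(a / 2)) *ᵥ f) ⬝ᵥ (Em C.act (-(a / 2)) *ᵥ f) := by
  induction h with
  | zero =>
    intro C f
    have hk : kap C.act = 0 := by
      unfold kap
      have : ∀ u v : Cube 0, (1 - Lm C.act (Equiv.swap u v)) = 0 := fun u v => by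
        have : u = v := Subsingleton.elim (α := Unit) u v
        subst this
        rw [Equiv.swap_self]
        exact sub_eq_zero.2 (map_one _).symm
      simp [this]
    rw [Tm_zero, Em, hk, smul_zero, NormedSpace.exp_zero, one_mulVec]
    have := nsq_diag_le (fun y => Real.exp (-(beta a ρ 0 (C.occ y)) / 2)) (fun _ => 1) 1 f
      (fun y _ => by
        rw [one_mul, mul_one, ← Real.exp_add, Real.exp_le_one_iff]
        have : 0 ≤ beta a ρ 0 (C.occ y) := by unfold beta; positivity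
        linarith)
    simpa [Wm] using this
  | succ h ih =>
    intro C f
    rw [mulVec_mulVec, nsq_eq_sum_sec C, nsq_eq_sum_sec C (Em C.act _)]
    · refine Finset.sum_le_sum fun j _ => ?_
      rw [← mulVec_mulVec]
      refine casimir_step a ρ ha hρ0 hρ1 hy h ih C j _ (fun x hx => ?_)
      by_contra hcon
      apply hx
      rw [sec, mulVec_diagonal]
      exact mul_eq_zero_of_left (if_neg hcon) _
    · exact fun j => commute_Em C.act _ _ (commute_sec_Lm C j)
    · intro j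
      refine Commute.mul_right ?_ (commute_Tm (h + 1) C.act _ (commute_sec_Lm C j))
      exact commute_diagonal _ _

end Crest.Agent.R155
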