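import Crest.Agent.R155.Defs

open Finset Matrix
open scoped BigOperators

namespace Crest.Agent.R155

variable {X : Type} [Fintype X] [DecidableEq X]

/-- Schur test on the support of `g`. -/
theorem schur_test (M N : Matrix X X ℝ) (hN : ∀ x y, N x y = N y x)
    (hMN : ∀ x y, |M x y| ≤ N x y) (g : X → ℝ) (c : ℝ)
    (hrow : ∀ x, g x ≠ 0 → ∑ y, (if g y ≠ 0 then N x y else 0) ≤ c) :
    |g ⬝ᵥ (M *ᵥ g)| ≤ c * (g ⬝ᵥ g) := by
  classical
  set N' : X → X → ℝ := fun x y => if g x ≠ 0 ∧ g y ≠ 0 then N x y else 0 with hN'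
  have hsym : ∀ x y, N' x y = N' y x := by
    intro x y
    simp only [hN', and_comm, hN x y]
  have h1 : ∀ x y, |g x * (M x y * g y)| ≤ N' x y * (g x ^ 2) / 2 + N' x y * (g y ^ 2) / 2 := by
    intro x y
    by_cases hx : g x = 0
    · simp [hN', hx]
    by_cases hy : g y = 0
    · simp [hN', hy]
    have e : N' x y = N x y := by simp [hN', hx, hy]
    rw [e, abs_mul, abs_mul]
    have h0 : 0 ≤ |M x y| := abs_nonneg _
    have h2 : |g x| * |g y| ≤ (g x ^ 2 + g y ^ 2) / 2 := by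
      nlinarith [sq_nonneg (|g x| - |g y|), sq_abs (g x), sq_abs (g y)]
    have h3 : 0 ≤ |g x| * |g y| := by positivity
    calc |g x| * (|M x y| * |g y|) = |M x y| * (|g x| * |g y|) := by ring
      _ ≤ N x y * ((g x ^ 2 + g y ^ 2) / 2) :=
          mul_le_mul (hMN x y) h2 h3 (h0.trans (hMN x y))
      _ = _ := by ring
  have h2 : ∀ x, ∑ y, N' x y * g x ^ 2 ≤ c * g x ^ 2 := by
    intro x
    rw [← Finset.sum_mul]
    by_cases hx : g x = 0
    · simp [hx]
    refine mul_le_mul_of_nonneg_right ?_ (sq_nonneg _)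
    refine le_trans (le_of_eq ?_) (hrow x hx)
    refine Finset.sum_congr rfl fun y _ => ?_
    simp [hN', hx]
  have h3 : ∑ x, ∑ y, N' x y * g x ^ 2 ≤ c * (g ⬝ᵥ g) := by
    simp only [dotProduct, Finset.mul_sum]
    exact Finset.sum_le_sum fun x _ => (h2 x).trans (le_of_eq (by ring))
  have h4 : ∑ x, ∑ y, N' x y * g y ^ 2 = ∑ x, ∑ y, N' x y * g x ^ 2 := by
    rw [Finset.sum_comm]
    exact Finset.sum_congr rfl fun x _ => Finset.sum_congr rfl fun y _ => by rw [hsym]
  calc |g ⬝ᵥ (M *ᵥ g)| = |∑ x, ∑ y, g x * (M x y * g y)| := by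
        simp only [dotProduct, mulVec, Finset.mul_sum]
    _ ≤ ∑ x, ∑ y, |g x * (M x y * g y)| :=
        (Finset.abs_sum_le_sum_abs _ _).trans
          (Finset.sum_le_sum fun x _ => Finset.abs_sum_le_sum_abs _ _)
    _ ≤ ∑ x, ∑ y, (N' x y * (g x ^ 2) / 2 + N' x y * (g y ^ 2) / 2) :=
        Finset.sum_le_sum fun x _ => Finset.sum_le_sum fun y _ => h1 x y
    _ = (∑ x, ∑ y, N' x y * g x ^ 2) / 2 + (∑ x, ∑ y, N' x y * g y ^ 2) / 2 := by
        simp only [Finset.sum_add_distrib, Finset.sum_div]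
    _ ≤ c * (g ⬝ᵥ g) := by rw [h4]; linarith

set_option backward.isDefEq.respectTransparency false in
theorem hasSum_exp_mat (A : Matrix X X ℝ) :
    HasSum (fun n : ℕ => ((n.factorial : ℝ)⁻¹) • A ^ n) (NormedSpace.exp A) :=
  open scoped Matrix.Norms.Operator in NormedSpace.exp_series_hasSum_exp' (𝕂 := ℝ) A

theorem hasSum_exp_quad (M : Matrix X X ℝ) (a : ℝ) (g : X → ℝ) :
    HasSum (fun r : ℕ => a ^ r / (r.factorial : ℝ) * (g ⬝ᵥ (M ^ r *ᵥ g)))
      (g ⬝ᵥ (NormedSpace.exp (a • M) *ᵥ g)) := by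
  let φ : Matrix X X ℝ →+ ℝ :=
    { toFun := fun A => g ⬝ᵥ (A *ᵥ g)
      map_zero' := by simp
      map_add' := fun A B => by simp [add_mulVec] }
  have hφ : Continuous φ := by
    change Continuous fun A : Matrix X X ℝ => g ⬝ᵥ (A *ᵥ g)
    fun_prop
  have := (hasSum_exp_mat (a • M)).map φ hφ
  convert this using 1
  · ext r
    change _ = g ⬝ᵥ ((((r.factorial : ℝ)⁻¹) • (a • M) ^ r) *ᵥ g)
    rw [smul_pow, smul_mulVec, smul_mulVec, dotProduct_smul, dotProduct_smul]
    simp only [smul_eq_mul]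
    ring
  · rfl

/-- Real spectral theorem in matrix form. -/
theorem exists_diag (K : Matrix X X ℝ) (hK : Kᵀ = K) :
    ∃ (U : Matrix X X ℝ) (d : X → ℝ), Uᵀ * U = 1 ∧ U * Uᵀ = 1 ∧ K = U * diagonal d * Uᵀ := by
  have hH : K.IsHermitian := by
    rw [Matrix.IsHermitian, conjTranspose_eq_transpose_of_trivial, hK]
  refine ⟨hH.eigenvectorUnitary, hH.eigenvalues, ?_, ?_, ?_⟩
  · have := (hH.eigenvectorUnitary).2.1
    rwa [star_eq_conjTranspose, conjTranspose_eq_transpose_of_trivial] at this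
  · have := (hH.eigenvectorUnitary).2.2
    rwa [star_eq_conjTranspose, conjTranspose_eq_transpose_of_trivial] at this
  · have := hH.spectral_theorem
    rw [Unitary.conjStarAlgAut_apply, star_eq_conjTranspose,
      conjTranspose_eq_transpose_of_trivial] at this
    simpa using this

theorem dot_orth {U : Matrix X X ℝ} (h : Uᵀ * U = 1) (w w' : X → ℝ) :
    (U *ᵥ w) ⬝ᵥ (U *ᵥ w') = w ⬝ᵥ w' := by
  rw [dotProduct_mulVec, vecMul_mulVec, h, vecMul_one]

theorem exp_diag_conj {U : Matrix X X ℝ} (h1 : Uᵀ * U = 1) (h2 : U * Uᵀ = 1) (d : X → ℝ) :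
    NormedSpace.exp (U * diagonal d * Uᵀ) = U * diagonal (fun i => Real.exp (d i)) * Uᵀ := by
  have hinv : U⁻¹ = Uᵀ := inv_eq_left_inv h1
  have hu : IsUnit U := ⟨⟨U, Uᵀ, h2, h1⟩, rfl⟩
  rw [← hinv, Matrix.exp_conj _ _ hu, Matrix.exp_diagonal]
  congr 3
  ext i
  rw [Pi.coe_exp, Real.exp_eq_exp_ℝ]

/-- The spectral projection of a symmetric matrix on the eigenvalues `≥ c`. -/
theorem exists_spectral_proj (K : Matrix X X ℝ) (hK : Kᵀ = K) (c : ℝ) :
    ∃ Q : Matrix X X ℝ, Qᵀ = Q ∧ Q * Q = Q ∧ (∀ B, Commute B K → Commute B Q) ∧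
      (∀ (v : X → ℝ) (t : ℝ), K *ᵥ v = t • v → c ≤ t → Q *ᵥ v = v) ∧
      ∀ a : ℝ, 0 ≤ a → ∀ v : X → ℝ, Q *ᵥ v = v →
        (NormedSpace.exp ((-(a / 2)) • K) *ᵥ v) ⬝ᵥ (NormedSpace.exp ((-(a / 2)) • K) *ᵥ v)
          ≤ Real.exp (-(a * c)) * (v ⬝ᵥ v) := by
  obtain ⟨U, d, h1, h2, hKU⟩ := exists_diag K hK
  let p : X → ℝ := fun i => if c ≤ d i then 1 else 0
  have hc1 : ∀ A : Matrix X X ℝ, Uᵀ * (U * A) = A := fun A => by
    rw [← Matrix.mul_assoc, h1, Matrix.one_mul]
  have hc2 : ∀ A : Matrix X X ℝ, U * (Uᵀ * A) = A := fun A => by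
    rw [← Matrix.mul_assoc, h2, Matrix.one_mul]
  refine ⟨U * diagonal p * Uᵀ, ?_, ?_, ?_, ?_, ?_⟩
  · simp [transpose_mul, Matrix.mul_assoc]
  · have : diagonal p * diagonal p = diagonal p := by
      rw [diagonal_mul_diagonal]
      congr 1
      ext i
      simp only [p]
      split_ifs <;> simp
    simp only [Matrix.mul_assoc, hc1]
    rw [← Matrix.mul_assoc (diagonal p), this]
  · intro B hB
    set B' := Uᵀ * B * U with hB'
    have hBB : B = U * B' * Uᵀ := by
      simp only [hB', Matrix.mul_assoc, hc2, h2, Matrix.mul_one]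
    have hd : B' * diagonal d = diagonal d * B' := by
      have := congrArg (fun A => Uᵀ * A * U) hB.eq
      simp only [hKU, Matrix.mul_assoc, hc1, h1, Matrix.mul_one] at this
      simpa only [hB', Matrix.mul_assoc] using this
    have hp : B' * diagonal p = diagonal p * B' := by
      ext i j
      have := congrFun (congrFun hd i) j
      rw [mul_diagonal, diagonal_mul] at this ⊢
      by_cases h0 : B' i j = 0
      · simp [h0]
      · have : d j = d i := by
          have h3 : B' i j * d j = B' i j * d i := by rw [this, mul_comm]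
          exact mul_left_cancel₀ h0 h3
        simp only [p, this, mul_comm]
    rw [hBB]
    change _ * _ = _ * _
    simp only [Matrix.mul_assoc, hc1]
    rw [← Matrix.mul_assoc B', hp, Matrix.mul_assoc]
  · intro v t hv hct
    set w := Uᵀ *ᵥ v with hw
    have hdw : diagonal d *ᵥ w = t • w := by
      have := congrArg (fun z => Uᵀ *ᵥ z) hv
      simp only [hKU, mulVec_mulVec, Matrix.mul_assoc, hc1, mulVec_smul] at this
      rw [hw, mulVec_mulVec]
      exact this
    have hpw : diagonal p *ᵥ w = w := by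
      ext i
      have := congrFun hdw i
      rw [mulVec_diagonal] at this ⊢
      by_cases h0 : w i = 0
      · simp [h0]
      · have h3 : d i = t := by
          simp only [Pi.smul_apply, smul_eq_mul] at this
          exact mul_right_cancel₀ h0 this
        simp [p, h3, hct]
    rw [← mulVec_mulVec, ← mulVec_mulVec, ← hw, hpw, hw, mulVec_mulVec, h2, one_mulVec]
  · intro a ha v hv
    set w := Uᵀ *ᵥ v with hw
    have hpw : diagonal p *ᵥ w = w := by
      have := congrArg (fun z => Uᵀ *ᵥ z) hv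
      simp only [mulVec_mulVec, Matrix.mul_assoc, hc1] at this
      rw [hw, mulVec_mulVec]
      exact this
    have hsm : (-(a / 2)) • K = U * diagonal (fun i => -(a / 2) * d i) * Uᵀ := by
      rw [hKU, ← Matrix.smul_mul, ← Matrix.mul_smul, ← diagonal_smul]
      rfl
    have hvv : v ⬝ᵥ v = w ⬝ᵥ w := by
      rw [hw, dot_orth (by simpa using h2)]
    rw [hsm, exp_diag_conj h1 h2, ← mulVec_mulVec, ← mulVec_mulVec, dot_orth h1, ← hw, hvv]
    simp only [dotProduct, mulVec_diagonal, Finset.mul_sum]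
    refine Finset.sum_le_sum fun i _ => ?_
    by_cases hi : c ≤ d i
    · have : Real.exp (-(a / 2) * d i) * Real.exp (-(a / 2) * d i) ≤ Real.exp (-(a * c)) := by
        rw [← Real.exp_add]
        apply Real.exp_le_exp.2
        nlinarith
      nlinarith [mul_self_nonneg (w i)]
    · have := congrFun hpw i
      rw [mulVec_diagonal] at this
      have h0 : w i = 0 := by simpa [p, hi] using this.symm
      simp [h0]

/-- A proper invariant subspace of a symmetric matrix has an eigenvector orthogonal to it. -/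
theorem exists_eigen_orth (K : Matrix X X ℝ) (hK : Kᵀ = K) (S : Submodule ℝ (X → ℝ))
    (hS : ∀ v ∈ S, K *ᵥ v ∈ S) (hne : S ≠ ⊤) :
    ∃ (v : X → ℝ) (t : ℝ), v ≠ 0 ∧ (∀ s ∈ S, s ⬝ᵥ v = 0) ∧ K *ᵥ v = t • v := by
  obtain ⟨U, d, h1, h2, hKU⟩ := exists_diag K hK
  have hc1 : ∀ A : Matrix X X ℝ, Uᵀ * (U * A) = A := fun A => by
    rw [← Matrix.mul_assoc, h1, Matrix.one_mul]
  -- a nonzero vector orthogonal to `S`
  obtain ⟨f, hf0, hf⟩ := Submodule.exists_dual_map_eq_bot_of_lt_top (lt_top_iff_ne_top.2 hne)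
    inferInstance
  let w : X → ℝ := fun i => f (Pi.single i 1)
  have hfw : ∀ s : X → ℝ, s ⬝ᵥ w = f s := by
    intro s
    conv_rhs => rw [pi_eq_sum_univ' s]
    simp only [dotProduct, w, map_sum, map_smul, smul_eq_mul]
  have hw0 : w ≠ 0 := by
    intro h
    apply hf0
    ext s
    simpa [w] using congrFun h s
  have hwS : ∀ s ∈ S, s ⬝ᵥ w = 0 := by
    intro s hs
    rw [hfw]
    have : f s ∈ Submodule.map f S := Submodule.mem_map_of_mem hs
    rw [hf] at this
    simpa using this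
  have hinv : ∀ (t : ℝ) (v : X → ℝ), (∀ s ∈ S, s ⬝ᵥ v = 0) →
      ∀ s ∈ S, s ⬝ᵥ (K *ᵥ v - t • v) = 0 := by
    intro t v hv s hs
    rw [dotProduct_sub, dotProduct_smul, hv s hs, dotProduct_mulVec, ← mulVec_transpose, hK,
      hv _ (hS s hs)]
    simp
  let P : List ℝ → X → ℝ := fun L => L.foldr (fun t v => K *ᵥ v - t • v) w
  have hP : ∀ L, ∀ s ∈ S, s ⬝ᵥ P L = 0 := by
    intro L
    induction L with
    | nil => exact hwS
    | cons t L ih => exact hinv t _ ih
  have hPc : ∀ L i, (Uᵀ *ᵥ P L) i = (L.map fun t => d i - t).prod * (Uᵀ *ᵥ w) i := by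
    intro L i
    induction L with
    | nil => simp [P]
    | cons t L ih =>
      have e : P (t :: L) = K *ᵥ P L - t • P L := rfl
      have e2 : Uᵀ *ᵥ (K *ᵥ P L) = diagonal d *ᵥ (Uᵀ *ᵥ P L) := by
        rw [mulVec_mulVec, mulVec_mulVec]
        congr 1
        conv_lhs => rw [hKU]
        simp only [Matrix.mul_assoc, hc1]
      rw [e, mulVec_sub, e2, mulVec_smul, Pi.sub_apply, mulVec_diagonal, Pi.smul_apply, ih]
      simp only [List.map_cons, List.prod_cons, smul_eq_mul]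
      ring
  have hmain : ∀ L, P L = 0 → ∃ (v : X → ℝ) (t : ℝ), v ≠ 0 ∧ (∀ s ∈ S, s ⬝ᵥ v = 0) ∧
      K *ᵥ v = t • v := by
    intro L
    induction L with
    | nil => exact fun h => (hw0 h).elim
    | cons t L ih =>
      intro h
      by_cases h0 : P L = 0
      · exact ih h0
      · exact ⟨P L, t, h0, hP L, sub_eq_zero.1 h⟩
  refine hmain (Finset.univ.toList.map d) ?_
  have : Uᵀ *ᵥ P (Finset.univ.toList.map d) = 0 := by
    ext i
    rw [hPc, List.prod_eq_zero, zero_mul, Pi.zero_apply]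
    simp only [List.map_map, List.mem_map]
    exact ⟨i, by simp, by simp⟩
  have h3 := congrArg (fun z => U *ᵥ z) this
  simpa only [mulVec_mulVec, h2, one_mulVec, mulVec_zero] using h3

/-- The trace is at most the sum of the (non-negative) eigenvalues of a spanning family of
eigenvectors. -/
theorem trace_le_of_span {ι : Type} [Fintype ι] (M : Matrix X X ℝ) (v : ι → X → ℝ) (l : ι → ℝ)
    (hspan : Submodule.span ℝ (Set.range v) = ⊤) (hev : ∀ i, M *ᵥ v i = l i • v i)
    (hl : ∀ i, 0 ≤ l i) : M.trace ≤ ∑ i, l i := by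
  classical
  obtain ⟨κ, a, ha, hsp, hli⟩ := exists_linearIndependent' ℝ v
  have : Finite κ := Finite.of_injective a ha
  let _ : Fintype κ := Fintype.ofFinite κ
  let b : Module.Basis κ ℝ (X → ℝ) := Module.Basis.mk hli (by rw [hsp, hspan])
  have hb : ∀ k, b k = v (a k) := fun k => by simp [b]
  have h1 : M.trace = ∑ k, l (a k) := by
    rw [← Matrix.trace_toLin'_eq, LinearMap.trace_eq_matrix_trace ℝ b]
    simp only [Matrix.trace, diag_apply, LinearMap.toMatrix_apply, toLin'_apply]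
    refine Finset.sum_congr rfl fun k _ => ?_
    rw [hb, hev, ← hb]
    simp
  have h2 : ∑ k, l (a k) = ∑ i ∈ Finset.univ.map ⟨a, ha⟩, l i := by
    rw [Finset.sum_map]; rfl
  rw [h1, h2]
  exact Finset.sum_le_sum_of_subset_of_nonneg (Finset.subset_univ _) fun i _ _ => hl i

/-- Eigenvectors of `M` spanning the range of a commuting orthogonal projection `Q`. -/
theorem exists_eigen_family (M Q : Matrix X X ℝ) (hM : Mᵀ = M) (hQ : Qᵀ = Q) (hQQ : Q * Q = Q)
    (hc : Commute M Q) (hpsd : ∀ v : X → ℝ, 0 ≤ v ⬝ᵥ (M *ᵥ v)) :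
    ∃ (v : X → X → ℝ) (l : X → ℝ), (∀ i, M *ᵥ v i = l i • v i) ∧ (∀ i, 0 ≤ l i) ∧
      (∀ w : X → ℝ, Q *ᵥ w = w → w ∈ Submodule.span ℝ (Set.range v)) ∧
      ∑ i, l i = (Q * M * Q).trace := by
  have hs : (Q * M * Q)ᵀ = Q * M * Q := by
    simp [transpose_mul, hM, hQ, Matrix.mul_assoc]
  obtain ⟨U, d, h1, h2, hKU⟩ := exists_diag _ hs
  let u : X → X → ℝ := fun i => U *ᵥ Pi.single i 1
  have hu : ∀ i, (Q * M * Q) *ᵥ u i = d i • u i := by
    intro i
    simp only [u]
    rw [hKU, mulVec_mulVec, Matrix.mul_assoc, h1, Matrix.mul_one, ← mulVec_mulVec,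
      diagonal_mulVec_single, ← mulVec_smul]
    congr 1
    ext j
    simp [Pi.single_apply]
  have hMQ : Q * M * Q = M * Q := by rw [← hc.eq, Matrix.mul_assoc, hQQ]
  refine ⟨fun i => Q *ᵥ u i, d, ?_, ?_, ?_, ?_⟩
  · intro i
    have := congrArg (fun z => Q *ᵥ z) (hu i)
    simp only [mulVec_mulVec, mulVec_smul] at this
    rw [← this, mulVec_mulVec, ← Matrix.mul_assoc, ← Matrix.mul_assoc, hQQ, hMQ]
  · intro i
    have h3 : u i ⬝ᵥ u i = 1 := by
      simp only [u]
      rw [dot_orth h1]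
      simp
    have h4 : u i ⬝ᵥ ((Q * M * Q) *ᵥ u i) = d i := by
      rw [hu, dotProduct_smul, h3]; simp
    rw [← h4, ← mulVec_mulVec, ← mulVec_mulVec, dotProduct_mulVec, ← mulVec_transpose, hQ]
    exact hpsd _
  · intro w hw
    have h3 : w = ∑ i, (Uᵀ *ᵥ w) i • (Q *ᵥ u i) := by
      have h4 : Uᵀ *ᵥ w = ∑ i, (Uᵀ *ᵥ w) i • (Pi.single i 1 : X → ℝ) := pi_eq_sum_univ' _
      calc w = Q *ᵥ (U *ᵥ (Uᵀ *ᵥ w)) := by
            rw [mulVec_mulVec (M := U), h2, one_mulVec, hw]
        _ = _ := by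
            conv_lhs => rw [h4]
            simp only [mulVec_sum, mulVec_smul, u]
    rw [h3]
    exact Submodule.sum_mem _ fun i _ =>
      Submodule.smul_mem _ _ (Submodule.subset_span ⟨i, rfl⟩)
  · rw [hKU, trace_mul_comm, ← Matrix.mul_assoc, h1, Matrix.one_mul, trace_diagonal]

end Crest.Agent.R155
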