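import Crest.Agent.R155.Defs

open Finset Matrix
open scoped BigOperators

namespace Crest.Agent.R155

theorem motz_nonneg (ρ : ℝ) (hρ0 : 0 ≤ ρ) (r h : ℕ) : 0 ≤ motz ρ r h := by
  induction r generalizing h with
  | zero => simp only [motz]; split_ifs <;> norm_num
  | succ r ih =>
    simp only [motz]
    have h1 : 0 ≤ 4 * (h : ℝ) * (2 * h - 1) := by
      rcases h with _ | h
      · simp
      · have : (0 : ℝ) ≤ h := Nat.cast_nonneg h
        push_cast; nlinarith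
    have := ih (h + 1)
    have := ih h
    have := ih (h - 1)
    positivity

namespace Motz

theorem le_of_deriv {f f' g g' : ℝ → ℝ} {a : ℝ} (hf : ∀ t, HasDerivAt f (f' t) t)
    (hg : ∀ t, HasDerivAt g (g' t) t) (h0 : f 0 ≤ g 0) (h : ∀ t ∈ Set.Icc 0 a, f' t ≤ g' t) :
    ∀ t ∈ Set.Icc 0 a, f t ≤ g t := fun _ ht =>
  image_le_of_deriv_right_le_deriv_boundary
    (fun t _ => (hf t).continuousAt.continuousWithinAt) (fun t _ => (hf t).hasDerivWithinAt) h0
    (fun t _ => (hg t).continuousAt.continuousWithinAt) (fun t _ => (hg t).hasDerivWithinAt)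
    (fun t ht => h t (Set.Ico_subset_Icc_self ht)) ht

theorem hasDerivAt_sum (m : ℕ → ℝ) (N : ℕ) (t : ℝ) :
    HasDerivAt (fun t : ℝ => ∑ r ∈ range N, t ^ (r + 1) / ((r + 1).factorial : ℝ) * m r)
      (∑ r ∈ range N, t ^ r / (r.factorial : ℝ) * m r) t := by
  refine HasDerivAt.fun_sum fun r _ => ?_
  refine HasDerivAt.congr_deriv
    (((hasDerivAt_pow (r + 1) t).div_const ((r + 1).factorial : ℝ)).mul_const (m r)) ?_
  rw [Nat.factorial_succ]
  have : (r.factorial : ℝ) ≠ 0 := by positivity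
  push_cast
  field_simp

noncomputable def cc : ℕ → ℝ
  | 0 => 1
  | h + 1 => (h + 1 / 2) * cc h

theorem cc_nonneg : ∀ h, 0 ≤ cc h
  | 0 => zero_le_one
  | h + 1 => by have := cc_nonneg h; simp only [cc]; positivity

noncomputable def yy (ρ t : ℝ) : ℝ := 8 * ρ / 5 * (Real.exp (5 * t) - 1)

noncomputable def ub (ρ : ℝ) (h : ℕ) (t : ℝ) : ℝ :=
  cc h * (Real.exp ((1 / 2 + 2 * ρ) * t) * yy ρ t ^ h)

theorem hasDerivAt_yy (ρ t : ℝ) : HasDerivAt (yy ρ) (5 * yy ρ t + 8 * ρ) t := by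
  refine HasDerivAt.congr_deriv
    ((((hasDerivAt_id t).const_mul 5).exp.sub_const 1).const_mul (8 * ρ / 5)) ?_
  simp only [yy, id]; ring

theorem hasDerivAt_ub (ρ : ℝ) (h : ℕ) (t : ℝ) :
    HasDerivAt (ub ρ h) (cc h * (Real.exp ((1 / 2 + 2 * ρ) * t) *
      ((1 / 2 + 2 * ρ) * yy ρ t ^ h + h * yy ρ t ^ (h - 1) * (5 * yy ρ t + 8 * ρ)))) t := by
  refine HasDerivAt.congr_deriv
    ((((hasDerivAt_id t).const_mul (1 / 2 + 2 * ρ)).exp.mul
      ((hasDerivAt_yy ρ t).pow h)).const_mul (cc h)) ?_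
  simp only [id, Pi.pow_apply]; ring

theorem yy_nonneg {ρ t : ℝ} (hρ0 : 0 ≤ ρ) (ht : 0 ≤ t) : 0 ≤ yy ρ t := by
  have := Real.add_one_le_exp (5 * t)
  exact mul_nonneg (by positivity) (by linarith)

theorem super {ρ t : ℝ} (hρ0 : 0 ≤ ρ) (ht : 0 ≤ t) (hy : yy ρ t ≤ 1) (h : ℕ) :
    ub ρ (h + 1) t + (4 * h + 2 * ρ) * ub ρ h t + ρ * (4 * h * (2 * h - 1)) * ub ρ (h - 1) t ≤
      cc h * (Real.exp ((1 / 2 + 2 * ρ) * t) *
      ((1 / 2 + 2 * ρ) * yy ρ t ^ h + h * yy ρ t ^ (h - 1) * (5 * yy ρ t + 8 * ρ))) := by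
  have y0 := yy_nonneg hρ0 ht
  have e0 := Real.exp_pos ((1 / 2 + 2 * ρ) * t)
  have c0 := cc_nonneg h
  have key : 0 ≤ cc h * Real.exp ((1 / 2 + 2 * ρ) * t) * yy ρ t ^ h * ((h + 1 / 2) * (1 - yy ρ t)) :=
    mul_nonneg (by positivity) (mul_nonneg (by positivity) (by linarith))
  rcases h with _ | h
  · simp only [ub, cc] at key ⊢
    simp only [Nat.cast_zero, pow_zero, zero_add, pow_one] at key ⊢
    linarith
  · simp only [ub, Nat.add_sub_cancel] at key ⊢
    simp only [cc] at key ⊢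
    push_cast at key ⊢
    simp only [pow_succ] at key ⊢
    linarith

theorem partial_le {ρ a : ℝ} (hρ0 : 0 ≤ ρ) (hy : yy ρ a ≤ 1) (N : ℕ) :
    ∀ h : ℕ, ∀ t ∈ Set.Icc 0 a,
      ∑ r ∈ range N, t ^ r / (r.factorial : ℝ) * motz ρ r h ≤ ub ρ h t := by
  induction N with
  | zero =>
    intro h t ht
    have := yy_nonneg hρ0 ht.1
    have := cc_nonneg h
    simp only [range_zero, sum_empty, ub]
    positivity
  | succ N ih =>
    intro h
    simp only [sum_range_succ', pow_zero, Nat.factorial_zero, Nat.cast_one, div_one, one_mul]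
    refine le_of_deriv (fun t => (hasDerivAt_sum (fun r => motz ρ (r + 1) h) N t).add_const
      (motz ρ 0 h)) (hasDerivAt_ub ρ h) ?_ (fun t ht => ?_)
    · rcases h with _ | h <;> simp [motz, ub, yy, cc]
    · have hyt : yy ρ t ≤ 1 := by
        refine le_trans ?_ hy
        have := Real.exp_le_exp.2 (by linarith [ht.2] : 5 * t ≤ 5 * a)
        exact mul_le_mul_of_nonneg_left (by linarith) (by positivity)
      refine le_trans ?_ (super hρ0 ht.1 hyt h)
      have h1 : 0 ≤ 4 * (h : ℝ) * (2 * h - 1) := by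
        rcases h with _ | h
        · simp
        · have : (0 : ℝ) ≤ h := Nat.cast_nonneg h
          push_cast; nlinarith
      have a1 := ih (h + 1) t ht
      have a2 := mul_le_mul_of_nonneg_left (ih h t ht) (by positivity : 0 ≤ 4 * (h : ℝ) + 2 * ρ)
      have a3 := mul_le_mul_of_nonneg_left (ih (h - 1) t ht) (mul_nonneg hρ0 h1)
      refine le_trans (le_of_eq ?_) (add_le_add (add_le_add a1 a2) a3)
      simp only [mul_sum, ← sum_add_distrib, motz]
      exact sum_congr rfl fun r _ => by ring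

end Motz

theorem motz_sum_le (ρ a : ℝ) (hρ0 : 0 ≤ ρ) (hρ1 : ρ ≤ 1) (ha : 0 ≤ a)
    (hy : 8 * ρ / 5 * (Real.exp (5 * a) - 1) ≤ 1) (N : ℕ) :
    ∑ r ∈ range N, a ^ (r + 1) / ((r + 1).factorial : ℝ) * motz ρ r 1
      ≤ 2 * ρ * a ^ 2 * Real.exp (15 / 2 * a) := by
  refine Motz.le_of_deriv (a := a) (g := fun t => 2 * ρ * t ^ 2 * Real.exp (15 / 2 * a))
    (g' := fun t => 2 * ρ * (2 * t) * Real.exp (15 / 2 * a))
    (Motz.hasDerivAt_sum (fun r => motz ρ r 1) N) (fun t => ?_) (by simp) (fun t ht => ?_) a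
    ⟨ha, le_rfl⟩
  · refine HasDerivAt.congr_deriv
      (((hasDerivAt_pow 2 t).const_mul (2 * ρ)).mul_const (Real.exp (15 / 2 * a))) ?_
    simp
  · refine (Motz.partial_le hρ0 hy N 1 t ht).trans ?_
    simp only [Motz.ub, Motz.cc, Motz.yy, pow_one, Nat.cast_zero]
    have h1 : Real.exp (5 * t) - 1 ≤ 5 * t * Real.exp (5 * t) := by
      have h2 := Real.add_one_le_exp (-(5 * t))
      have h3 : Real.exp (-(5 * t)) * Real.exp (5 * t) = 1 := by rw [← Real.exp_add]; simp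
      have h4 := Real.exp_pos (5 * t)
      nlinarith
    have h5 : Real.exp ((1 / 2 + 2 * ρ) * t) * Real.exp (5 * t) ≤ Real.exp (15 / 2 * a) := by
      rw [← Real.exp_add, Real.exp_le_exp]
      nlinarith [ht.1, ht.2]
    have h6 := mul_le_mul_of_nonneg_left h1
      (mul_nonneg hρ0 (Real.exp_pos ((1 / 2 + 2 * ρ) * t)).le)
    have h7 := mul_le_mul_of_nonneg_left h5 (mul_nonneg hρ0 ht.1)
    nlinarith

end Crest.Agent.R155
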