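import Crest.Agent.R155.Basic
import Crest.Agent.R155.Lin1
import Crest.Agent.R155.Motzkin

open Finset Matrix
open scoped BigOperators

namespace Crest.Agent.R155

/-- The sign of a side. -/
def sg (b : Bool) : ℝ := if b then -1 else 1

@[simp] theorem sg_false : sg false = 1 := rfl
@[simp] theorem sg_true : sg true = -1 := by simp [sg]

theorem sg_xor (a b : Bool) : sg (xor a b) = sg a * sg b := by
  cases a <;> cases b <;> simp

theorem sg_mul_self (a : Bool) : sg a * sg a = 1 := by cases a <;> simp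

theorem abs_sg (a : Bool) : |sg a| = 1 := by cases a <;> simp

variable {P X : Type} [Fintype P] [DecidableEq P] [Fintype X] [DecidableEq X]

/-- The signed sum of the four transpositions between the pairs `p` and `q`. -/
noncomputable def Bm (act : Equiv.Perm (Bool × P) →* Equiv.Perm X) (p q : P) : Matrix X X ℝ :=
  ∑ b : Bool, ∑ c : Bool, (sg b * sg c) • Lm act (Equiv.swap (b, p) (c, q))

/-- The defect of the Laplacians, with signs. -/
noncomputable def Zm (act : Equiv.Perm (Bool × P) →* Equiv.Perm X) (s : P → Bool) :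
    Matrix X X ℝ :=
  (4 * (Fintype.card P : ℝ))⁻¹ • ∑ p : P, ∑ q : P, (sg (s p) * sg (s q)) • Bm act p q

theorem Bm_transpose (act : Equiv.Perm (Bool × P) →* Equiv.Perm X) (p q : P) :
    (Bm act p q)ᵀ = Bm act p q := by
  simp [Bm, transpose_sum, Lm_transpose]

theorem Bm_symm (act : Equiv.Perm (Bool × P) →* Equiv.Perm X) (p q : P) (x y : X) :
    Bm act p q x y = Bm act p q y x := by
  conv_lhs => rw [← Bm_transpose]
  rfl

theorem Bm_comm (act : Equiv.Perm (Bool × P) →* Equiv.Perm X) (p q : P) :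
    Bm act p q = Bm act q p := by
  unfold Bm
  rw [Finset.sum_comm]
  refine Finset.sum_congr rfl (fun b _ => Finset.sum_congr rfl (fun c _ => ?_))
  rw [Equiv.swap_comm, mul_comm]

theorem kap_sub_eq_Zm (act : Equiv.Perm (Bool × P) →* Equiv.Perm X) :
    kap act - kap (act.comp (inc false)) - kap (act.comp (inc true))
      = Zm act (fun _ => false) := by
  unfold kap Zm Bm
  simp only [Lm_comp, inc_swap, Fintype.card_prod, Fintype.card_bool, Fintype.sum_prod_type,
    Fintype.sum_bool, sg_false, sg_true, mul_one, one_smul, Finset.sum_add_distrib]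
  have h2 : (2 * (Fintype.card P : ℝ))⁻¹ = (4 * (Fintype.card P : ℝ))⁻¹ * 2 := by
    rw [mul_inv, mul_inv]; ring
  have h4 : (2 * ((2 * Fintype.card P : ℕ) : ℝ))⁻¹ = (4 * (Fintype.card P : ℝ))⁻¹ := by
    push_cast; ring
  rw [h2, h4, mul_smul, mul_smul, ← smul_sub, ← smul_sub]
  congr 1
  simp only [Finset.sum_sub_distrib, mul_neg, neg_neg, mul_one, one_smul, neg_smul,
    Finset.sum_neg_distrib, two_smul]
  abel

theorem sw_conj_Bm (act : Equiv.Perm (Bool × P) →* Equiv.Perm X) (s : P → Bool) (p q : P) :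
    Lm act (sw s) * Bm act p q = (sg (s p) * sg (s q)) • Bm act p q * Lm act (sw s) := by
  unfold Bm
  simp only [Finset.mul_sum, Finset.sum_mul, Finset.smul_sum, mul_smul_comm, smul_mul_assoc,
    ← map_mul, Equiv.mul_swap_eq_swap_mul, sw_apply, smul_smul]
  symm
  rw [← Equiv.sum_comp (Function.Involutive.toPerm (fun b => xor b (s p)) (fun b => by simp))]
  refine Finset.sum_congr rfl (fun b _ => ?_)
  rw [← Equiv.sum_comp (Function.Involutive.toPerm (fun b => xor b (s q)) (fun b => by simp))]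
  refine Finset.sum_congr rfl (fun c _ => ?_)
  simp only [Function.Involutive.coe_toPerm, sg_xor]
  congr 1
  have h1 := sg_mul_self (s p)
  have h2 := sg_mul_self (s q)
  linear_combination (sg b * sg c * sg (s q) * sg (s q)) * h1 + (sg b * sg c) * h2

theorem sw_conj_Zm (act : Equiv.Perm (Bool × P) →* Equiv.Perm X) (s : P → Bool) :
    Lm act (sw s) * Zm act (fun _ => false) = Zm act s * Lm act (sw s) := by
  unfold Zm
  simp only [sg_false, mul_one, one_smul, mul_smul_comm, smul_mul_assoc, Finset.mul_sum,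
    Finset.sum_mul, sw_conj_Bm]

theorem sw_conj_Zm_pow (act : Equiv.Perm (Bool × P) →* Equiv.Perm X) (s : P → Bool) (r : ℕ) :
    Lm act (sw s) * Zm act (fun _ => false) ^ r = Zm act s ^ r * Lm act (sw s) := by
  induction r with
  | zero => simp
  | succ r ih => rw [pow_succ, ← mul_assoc, ih, mul_assoc, sw_conj_Zm, ← mul_assoc, ← pow_succ]

theorem quad_Zm_pow_eq (act : Equiv.Perm (Bool × P) →* Equiv.Perm X) (g : X → ℝ)
    (hg : ∀ s, Lm act (sw s) *ᵥ g = g) (s : P → Bool) (r : ℕ) :
    g ⬝ᵥ (Zm act (fun _ => false) ^ r *ᵥ g) = g ⬝ᵥ (Zm act s ^ r *ᵥ g) := by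
  have h1 : g ᵥ* Lm act (sw s) = g := by
    rw [← mulVec_transpose, Lm_transpose, sw_inv, hg]
  calc g ⬝ᵥ (Zm act (fun _ => false) ^ r *ᵥ g)
      = (g ᵥ* Lm act (sw s)) ⬝ᵥ (Zm act (fun _ => false) ^ r *ᵥ g) := by rw [h1]
    _ = g ⬝ᵥ ((Lm act (sw s) * Zm act (fun _ => false) ^ r) *ᵥ g) := by
        rw [← dotProduct_mulVec, mulVec_mulVec]
    _ = g ⬝ᵥ (Zm act s ^ r *ᵥ g) := by
        rw [sw_conj_Zm_pow, ← mulVec_mulVec, hg]

/-- Toggle membership of `p`. -/
def tog (U : Finset P) (p : P) : Finset P := if p ∈ U then U.erase p else insert p U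

omit [Fintype P] in
theorem tog_tog (U : Finset P) (p : P) : tog (tog U p) p = U := by
  unfold tog
  by_cases h : p ∈ U <;> simp [h]

omit [Fintype P] in
theorem mem_tog (U : Finset P) (p q : P) : q ∈ tog U p ↔ (if q = p then p ∉ U else q ∈ U) := by
  unfold tog
  by_cases h : p ∈ U <;> by_cases h2 : q = p <;> simp [h, h2]

omit [Fintype P] in
theorem tog_comm (U : Finset P) (p q : P) : tog (tog U p) q = tog (tog U q) p := by
  ext r
  simp only [mem_tog]
  by_cases h1 : r = p <;> by_cases h2 : r = q <;> by_cases h3 : p = q <;> simp_all [eq_comm]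

omit [Fintype P] in
theorem card_tog (U : Finset P) (p : P) :
    (tog U p).card = if p ∈ U then U.card - 1 else U.card + 1 := by
  unfold tog
  by_cases h : p ∈ U <;> simp [h, Finset.card_erase_of_mem]

/-- Walsh characters. -/
noncomputable def chi (U : Finset P) (s : P → Bool) : ℝ := ∏ p ∈ U, sg (s p)

omit [Fintype P] in
theorem chi_tog (U : Finset P) (p : P) (s : P → Bool) : chi (tog U p) s = chi U s * sg (s p) := by
  unfold tog chi
  by_cases h : p ∈ U
  · rw [if_pos h, ← Finset.mul_prod_erase U _ h]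
    have := sg_mul_self (s p)
    linear_combination (-∏ x ∈ U.erase p, sg (s x)) * this
  · rw [if_neg h, Finset.prod_insert h, mul_comm]

theorem expect_chi (U : Finset P) : 𝔼 s : P → Bool, chi U s = if U = ∅ then 1 else 0 := by
  split_ifs with h
  · subst h; simp [chi]
  · obtain ⟨p, hp⟩ := Finset.nonempty_iff_ne_empty.2 h
    let e : (P → Bool) ≃ (P → Bool) :=
      Function.Involutive.toPerm (fun s => Function.update s p (!s p)) (fun s => by simp)
    have h1 : 𝔼 s : P → Bool, chi U s = 𝔼 s : P → Bool, -chi U s := by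
      refine Fintype.expect_equiv e _ _ (fun s => ?_)
      simp only [e, Function.Involutive.coe_toPerm, chi]
      rw [← Finset.mul_prod_erase U _ hp, ← Finset.mul_prod_erase U _ hp]
      have : ∏ x ∈ U.erase p, sg (Function.update s p (!s p) x) = ∏ x ∈ U.erase p, sg (s x) :=
        Finset.prod_congr rfl (fun x hx => by
          rw [Function.update_of_ne (Finset.ne_of_mem_erase hx)])
      rw [this, Function.update_self]
      cases s p <;> simp
    rw [Finset.expect_neg_distrib] at h1
    linarith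

/-- The defect operator in Walsh coordinates. -/
noncomputable def Zh (act : Equiv.Perm (Bool × P) →* Equiv.Perm X) :
    Matrix (X × Finset P) (X × Finset P) ℝ :=
  Matrix.of fun y y' => (4 * (Fintype.card P : ℝ))⁻¹ * ∑ p : P, ∑ q : P,
    (if y'.2 = tog (tog y.2 p) q then Bm act p q y.1 y'.1 else 0)

/-- Its entrywise majorant. -/
noncomputable def Nh (act : Equiv.Perm (Bool × P) →* Equiv.Perm X) :
    Matrix (X × Finset P) (X × Finset P) ℝ :=
  Matrix.of fun y y' => (4 * (Fintype.card P : ℝ))⁻¹ * ∑ p : P, ∑ q : P,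
    (if y'.2 = tog (tog y.2 p) q then |Bm act p q y.1 y'.1| else 0)

omit [Fintype P] in
theorem tog_tog_iff (U V : Finset P) (p q : P) :
    V = tog (tog U p) q ↔ U = tog (tog V p) q := by
  constructor
  · rintro rfl; rw [tog_comm U p q, tog_tog, tog_tog]
  · rintro rfl; rw [tog_comm V p q, tog_tog, tog_tog]

theorem Zh_transpose (act : Equiv.Perm (Bool × P) →* Equiv.Perm X) : (Zh act)ᵀ = Zh act := by
  ext y y'
  simp only [Zh, transpose_apply, of_apply, tog_tog_iff y.2 y'.2, Bm_symm act _ _ y.1 y'.1]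

theorem Nh_transpose (act : Equiv.Perm (Bool × P) →* Equiv.Perm X) : (Nh act)ᵀ = Nh act := by
  ext y y'
  simp only [Nh, transpose_apply, of_apply, tog_tog_iff y.2 y'.2, Bm_symm act _ _ y.1 y'.1]

theorem abs_Zh_le (act : Equiv.Perm (Bool × P) →* Equiv.Perm X) (y y' : X × Finset P) :
    |Zh act y y'| ≤ Nh act y y' := by
  simp only [Zh, Nh, of_apply, abs_mul]
  rw [abs_of_nonneg (by positivity)]
  refine mul_le_mul_of_nonneg_left ?_ (by positivity)
  refine (Finset.abs_sum_le_sum_abs _ _).trans (Finset.sum_le_sum fun p _ => ?_)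
  refine (Finset.abs_sum_le_sum_abs _ _).trans (Finset.sum_le_sum fun q _ => ?_)
  split_ifs <;> simp

theorem Zh_mulVec (act : Equiv.Perm (Bool × P) →* Equiv.Perm X) (φ : X × Finset P → ℝ)
    (x : X) (U : Finset P) :
    (Zh act *ᵥ φ) (x, U) = (4 * (Fintype.card P : ℝ))⁻¹ * ∑ p : P, ∑ q : P, ∑ y : X,
      Bm act p q x y * φ (y, tog (tog U p) q) := by
  simp only [mulVec, dotProduct, Zh, of_apply, Fintype.sum_prod_type, mul_assoc,
    ← Finset.mul_sum, Finset.sum_mul, ite_mul, zero_mul]
  congr 1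
  simp only [Finset.sum_comm (s := (univ : Finset (Finset P))), Finset.sum_ite_eq',
    Finset.mem_univ, if_true]
  rw [Finset.sum_comm]
  refine Finset.sum_congr rfl (fun p _ => ?_)
  rw [Finset.sum_comm]

theorem Nh_mulVec (act : Equiv.Perm (Bool × P) →* Equiv.Perm X) (φ : X × Finset P → ℝ)
    (x : X) (U : Finset P) :
    (Nh act *ᵥ φ) (x, U) = (4 * (Fintype.card P : ℝ))⁻¹ * ∑ p : P, ∑ q : P, ∑ y : X,
      |Bm act p q x y| * φ (y, tog (tog U p) q) := by
  simp only [mulVec, dotProduct, Nh, of_apply, Fintype.sum_prod_type, mul_assoc,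
    ← Finset.mul_sum, Finset.sum_mul, ite_mul, zero_mul]
  congr 1
  simp only [Finset.sum_comm (s := (univ : Finset (Finset P))), Finset.sum_ite_eq',
    Finset.mem_univ, if_true]
  rw [Finset.sum_comm]
  refine Finset.sum_congr rfl (fun p _ => ?_)
  rw [Finset.sum_comm]

/-- Extension of a function by zero to the non-trivial Walsh coordinates. -/
def hat (g : X → ℝ) : X × Finset P → ℝ := fun y => if y.2 = ∅ then g y.1 else 0

theorem Zh_pow_hat (act : Equiv.Perm (Bool × P) →* Equiv.Perm X) (g : X → ℝ) (r : ℕ)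
    (x : X) (U : Finset P) :
    (Zh act ^ r *ᵥ hat g) (x, U) = 𝔼 s : P → Bool, chi U s * (Zm act s ^ r *ᵥ g) x := by
  induction r generalizing x U with
  | zero =>
    simp only [pow_zero, one_mulVec, hat, ← Finset.expect_mul, expect_chi]
    split_ifs <;> simp
  | succ r ih =>
    rw [pow_succ', ← mulVec_mulVec, Zh_mulVec]
    simp only [ih, chi_tog, Finset.mul_expect, ← Finset.expect_sum_comm]
    refine Finset.expect_congr rfl (fun s _ => ?_)
    rw [pow_succ', ← mulVec_mulVec]
    generalize Zm act s ^ r *ᵥ g = v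
    simp only [Zm, mulVec, dotProduct, Matrix.smul_apply, Matrix.sum_apply, smul_eq_mul,
      Finset.mul_sum, Finset.sum_mul]
    symm
    rw [Finset.sum_comm]
    refine Finset.sum_congr rfl (fun p _ => ?_)
    rw [Finset.sum_comm]
    refine Finset.sum_congr rfl (fun q _ => Finset.sum_congr rfl (fun y _ => ?_))
    ring

theorem quad_Zh_pow (act : Equiv.Perm (Bool × P) →* Equiv.Perm X) (g : X → ℝ)
    (hg : ∀ s, Lm act (sw s) *ᵥ g = g) (r : ℕ) :
    g ⬝ᵥ (Zm act (fun _ => false) ^ r *ᵥ g) = (hat g : X × Finset P → ℝ) ⬝ᵥ (Zh act ^ r *ᵥ hat g) := by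
  have h1 : (hat g : X × Finset P → ℝ) ⬝ᵥ (Zh act ^ r *ᵥ hat g)
      = ∑ x, g x * (Zh act ^ r *ᵥ hat g) (x, ∅) := by
    simp only [dotProduct, Fintype.sum_prod_type]
    refine Finset.sum_congr rfl (fun x _ => ?_)
    simp [hat]
  rw [h1]
  simp only [Zh_pow_hat, chi, Finset.prod_empty, one_mul, Finset.mul_expect,
    ← Finset.expect_sum_comm]
  have : ∀ s : P → Bool, ∑ x, g x * (Zm act s ^ r *ᵥ g) x
      = g ⬝ᵥ (Zm act (fun _ => false) ^ r *ᵥ g) := fun s => (quad_Zm_pow_eq act g hg s r).symm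
  simp only [this]
  rw [Finset.expect_const Finset.univ_nonempty]

end Crest.Agent.R155
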