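import Crest.Agent.R155.Chaos

open Finset Matrix
open scoped BigOperators

set_option linter.unusedSectionVars false

namespace Crest.Agent.R155

section Generic

variable {Y : Type} [Fintype Y] [DecidableEq Y]

theorem abs_mul_le_mul {M M' N N' : Matrix Y Y ℝ} (h : ∀ x y, |M x y| ≤ N x y)
    (h' : ∀ x y, |M' x y| ≤ N' x y) (x y : Y) : |(M * M') x y| ≤ (N * N') x y := by
  simp only [Matrix.mul_apply]
  refine (Finset.abs_sum_le_sum_abs _ _).trans (Finset.sum_le_sum fun z _ => ?_)
  rw [abs_mul]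
  exact mul_le_mul (h _ _) (h' _ _) (abs_nonneg _) ((abs_nonneg _).trans (h _ _))

theorem abs_pow_le_pow {M N : Matrix Y Y ℝ} (h : ∀ x y, |M x y| ≤ N x y) (r : ℕ) (x y : Y) :
    |(M ^ r) x y| ≤ (N ^ r) x y := by
  induction r generalizing x y with
  | zero => simp only [pow_zero, Matrix.one_apply]; split_ifs <;> simp
  | succ r ih => rw [pow_succ, pow_succ]; exact abs_mul_le_mul ih h x y

theorem mulVec_mono {N : Matrix Y Y ℝ} (h : ∀ x y, 0 ≤ N x y) {φ ψ : Y → ℝ}
    (hle : ∀ y, φ y ≤ ψ y) (x : Y) : (N *ᵥ φ) x ≤ (N *ᵥ ψ) x :=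
  Finset.sum_le_sum fun y _ => mul_le_mul_of_nonneg_left (hle y) (h x y)

theorem mulVec_nonneg' {N : Matrix Y Y ℝ} (h : ∀ x y, 0 ≤ N x y) {φ : Y → ℝ}
    (hle : ∀ y, 0 ≤ φ y) (x : Y) : 0 ≤ (N *ᵥ φ) x :=
  Finset.sum_nonneg fun y _ => mul_nonneg (h x y) (hle y)

theorem pow_entry_nonneg {N : Matrix Y Y ℝ} (h : ∀ x y, 0 ≤ N x y) (r : ℕ) (x y : Y) :
    0 ≤ (N ^ r) x y :=
  (abs_nonneg _).trans (abs_pow_le_pow (M := N) (fun x y => (abs_of_nonneg (h x y)).le) r x y)

end Generic

variable {P X : Type} [Fintype P] [DecidableEq P] [Fintype X] [DecidableEq X]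

theorem card_occ_act {α : Type} [DecidableEq α] (C : Cfg α X) (σ : Equiv.Perm α) (x : X) :
    (C.occ (C.act σ x)).card = (C.occ x).card := by
  rw [C.occ_act, Finset.card_map]

theorem Bm_apply (act : Equiv.Perm (Bool × P) →* Equiv.Perm X) (p q : P) (x y : X) :
    Bm act p q x y = ∑ b : Bool, ∑ c : Bool,
      (sg b * sg c) * (if act (Equiv.swap (b, p) (c, q)) x = y then 1 else 0) := by
  simp only [Bm, Matrix.sum_apply, Matrix.smul_apply, Lm_apply, Equiv.swap_inv, smul_eq_mul]
  rfl

theorem card_occ_of_Bm (C : Cfg (Bool × P) X) (p q : P) (x y : X) (h : Bm C.act p q x y ≠ 0) :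
    (C.occ y).card = (C.occ x).card := by
  rw [Bm_apply] at h
  obtain ⟨b, _, hb⟩ := Finset.exists_ne_zero_of_sum_ne_zero h
  obtain ⟨c, _, hc⟩ := Finset.exists_ne_zero_of_sum_ne_zero hb
  by_cases hy : C.act (Equiv.swap (b, p) (c, q)) x = y
  · rw [← hy, card_occ_act]
  · simp [hy] at hc

/-- Number of occupied sites in the pair `p`. -/
def oc (C : Cfg (Bool × P) X) (x : X) (p : P) : ℝ :=
  ∑ b : Bool, if (b, p) ∈ C.occ x then 1 else 0

theorem oc_nonneg (C : Cfg (Bool × P) X) (x : X) (p : P) : 0 ≤ oc C x p :=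
  Finset.sum_nonneg fun b _ => by split_ifs <;> norm_num

theorem sum_oc (C : Cfg (Bool × P) X) (x : X) : ∑ p, oc C x p = (C.occ x).card := by
  unfold oc
  rw [Finset.sum_comm, ← Fintype.sum_prod_type' (fun b p => if (b, p) ∈ C.occ x then (1 : ℝ) else 0)]
  simp

theorem row_half_le (act : Equiv.Perm (Bool × P) →* Equiv.Perm X) (u : Bool × P) (q : P) (x : X) :
    ∑ y, |∑ c : Bool, sg c * (if act (Equiv.swap u (c, q)) x = y then (1 : ℝ) else 0)| ≤ 2 := by
  calc _ ≤ ∑ y, ∑ c : Bool, (if act (Equiv.swap u (c, q)) x = y then (1 : ℝ) else 0) := by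
        refine Finset.sum_le_sum fun y _ => (Finset.abs_sum_le_sum_abs _ _).trans
          (Finset.sum_le_sum fun c _ => ?_)
        rw [abs_mul, abs_sg]; split_ifs <;> simp
    _ = 2 := by rw [Finset.sum_comm]; simp

theorem row_half_eq_zero (C : Cfg (Bool × P) X) (u : Bool × P) (q : P) (x : X)
    (hu : u ∉ C.occ x) (hq : ∀ c, (c, q) ∉ C.occ x) :
    ∑ y, |∑ c : Bool, sg c * (if C.act (Equiv.swap u (c, q)) x = y then (1 : ℝ) else 0)| = 0 := by
  refine Finset.sum_eq_zero fun y _ => ?_
  simp [C.fix u _ x hu (hq _)]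

theorem row_le_aux (C : Cfg (Bool × P) X) (p q : P) (x : X) :
    ∑ y, |Bm C.act p q x y| ≤ ∑ b : Bool, ∑ y,
      |∑ c : Bool, sg c * (if C.act (Equiv.swap (b, p) (c, q)) x = y then (1 : ℝ) else 0)| := by
  rw [Finset.sum_comm]
  refine Finset.sum_le_sum fun y _ => ?_
  rw [Bm_apply]
  refine (Finset.abs_sum_le_sum_abs _ _).trans (Finset.sum_le_sum fun b _ => ?_)
  simp only [mul_assoc, ← Finset.mul_sum, abs_mul, abs_sg, one_mul, le_refl]

theorem row_le_four (C : Cfg (Bool × P) X) (p q : P) (x : X) : ∑ y, |Bm C.act p q x y| ≤ 4 := by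
  refine (row_le_aux C p q x).trans ?_
  calc _ ≤ ∑ _b : Bool, (2 : ℝ) := Finset.sum_le_sum fun b _ => row_half_le _ _ _ _
    _ = 4 := by simp; norm_num

theorem row_le_of_empty (C : Cfg (Bool × P) X) (p q : P) (x : X) (hq : ∀ c, (c, q) ∉ C.occ x) :
    ∑ y, |Bm C.act p q x y| ≤ 2 * oc C x p := by
  refine (row_le_aux C p q x).trans ?_
  rw [oc, Finset.mul_sum]
  refine Finset.sum_le_sum fun b _ => ?_
  split_ifs with h
  · simpa using row_half_le C.act (b, p) q x
  · rw [row_half_eq_zero C _ q x h hq]; simp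

theorem one_le_oc (C : Cfg (Bool × P) X) (x : X) (p : P) (h : ¬ ∀ c, (c, p) ∉ C.occ x) :
    1 ≤ oc C x p := by
  push Not at h
  obtain ⟨c, hc⟩ := h
  have := Finset.single_le_sum (f := fun b : Bool => if (b, p) ∈ C.occ x then (1 : ℝ) else 0)
    (fun b _ => by split_ifs <;> norm_num) (Finset.mem_univ c)
  simpa [hc, oc] using this

theorem row_le_oc (C : Cfg (Bool × P) X) (p q : P) (x : X) :
    ∑ y, |Bm C.act p q x y| ≤ 2 * (oc C x p + oc C x q) := by
  have hp0 := oc_nonneg C x p
  have hq0 := oc_nonneg C x q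
  by_cases hq : ∀ c, (c, q) ∉ C.occ x
  · linarith [row_le_of_empty C p q x hq]
  · by_cases hp : ∀ c, (c, p) ∉ C.occ x
    · rw [Bm_comm]; linarith [row_le_of_empty C q p x hp]
    · linarith [row_le_four C p q x, one_le_oc C x p hp, one_le_oc C x q hq]

theorem Nh_nonneg (act : Equiv.Perm (Bool × P) →* Equiv.Perm X) (y y' : X × Finset P) :
    0 ≤ Nh act y y' := (abs_nonneg _).trans (abs_Zh_le act y y')

/-- One step of the majorant, for a test function bounded in terms of the parity weight. -/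
theorem Nh_mulVec_le (C : Cfg (Bool × P) X) (φ : X × Finset P → ℝ) (j : ℕ) (x : X)
    (hx : (C.occ x).card = j) (U : Finset P) (c : P → P → ℝ)
    (hc : ∀ p q y, (C.occ y).card = j → φ (y, tog (tog U p) q) ≤ c p q) :
    (Nh C.act *ᵥ φ) (x, U) ≤ (4 * (Fintype.card P : ℝ))⁻¹ * ∑ p : P, ∑ q : P,
      (∑ y, |Bm C.act p q x y|) * c p q := by
  rw [Nh_mulVec]
  refine mul_le_mul_of_nonneg_left ?_ (by positivity)
  refine Finset.sum_le_sum fun p _ => Finset.sum_le_sum fun q _ => ?_
  rw [Finset.sum_mul]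
  refine Finset.sum_le_sum fun y _ => ?_
  by_cases h : Bm C.act p q x y = 0
  · simp [h]
  · exact mul_le_mul_of_nonneg_left (hc p q y ((card_occ_of_Bm C p q x y h).trans hx))
      (abs_nonneg _)

theorem sum_oc_add (C : Cfg (Bool × P) X) (x : X) :
    ∑ p : P, ∑ q : P, 2 * (oc C x p + oc C x q)
      = 4 * (Fintype.card P : ℝ) * (C.occ x).card := by
  simp only [mul_add, Finset.sum_add_distrib, Finset.sum_const, Finset.card_univ, nsmul_eq_mul,
    ← Finset.mul_sum, sum_oc]
  ring

/-- The indicator of the trivial Walsh coordinate. -/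
def oneE : X × Finset P → ℝ := fun y => if y.2 = ∅ then 1 else 0

theorem Nh_pow_oneE_le [Nonempty P] (C : Cfg (Bool × P) X) (j : ℕ) (hj : 0 < j) (r : ℕ) (x : X)
    (hx : (C.occ x).card = j) (U : Finset P) (h : ℕ) (hU : U.card = 2 * h) :
    (Nh C.act ^ r *ᵥ oneE) (x, U) ≤ motz (j / (2 * (Fintype.card P : ℝ))) r h / (j : ℝ) ^ h := by
  have hm : (0 : ℝ) < Fintype.card P := by exact_mod_cast Fintype.card_pos
  have hj' : (0 : ℝ) < j := by exact_mod_cast hj
  set m : ℝ := (Fintype.card P : ℝ) with hmdef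
  set ρ : ℝ := j / (2 * m) with hρ
  have hρ0 : 0 ≤ ρ := by positivity
  induction r generalizing x U h with
  | zero =>
    simp only [pow_zero, one_mulVec, oneE, motz]
    by_cases hh : h = 0
    · subst hh
      have : U = ∅ := Finset.card_eq_zero.1 (by simpa using hU)
      simp [this]
    · have : U ≠ ∅ := by rintro rfl; simp at hU; omega
      simp [this, hh]
  | succ r ih =>
    rw [pow_succ', ← mulVec_mulVec]
    set A := motz ρ r (h + 1) / (j : ℝ) ^ (h + 1) with hA
    set B := motz ρ r h / (j : ℝ) ^ h with hB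
    set D := motz ρ r (h - 1) / (j : ℝ) ^ (h - 1) with hD
    have hA0 : 0 ≤ A := div_nonneg (motz_nonneg ρ hρ0 _ _) (by positivity)
    have hB0 : 0 ≤ B := div_nonneg (motz_nonneg ρ hρ0 _ _) (by positivity)
    have hD0 : 0 ≤ D := div_nonneg (motz_nonneg ρ hρ0 _ _) (by positivity)
    refine (Nh_mulVec_le C _ j x hx U (fun p q => if p = q then B else
      if p ∈ U then (if q ∈ U then D else B) else (if q ∈ U then B else A)) ?_).trans ?_
    · intro p q y hy
      by_cases hpq : p = q
      · subst hpq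
        rw [tog_tog, if_pos rfl]
        exact ih y hy U h hU
      · rw [if_neg hpq]
        have hqp : ¬ q = p := fun h => hpq h.symm
        have hq' : q ∈ tog U p ↔ q ∈ U := by rw [mem_tog, if_neg hqp]
        by_cases hp : p ∈ U <;> by_cases hq : q ∈ U
        · rw [if_pos hp, if_pos hq]
          refine ih y hy _ _ ?_
          rw [card_tog, if_pos (hq'.2 hq), card_tog, if_pos hp]; omega
        · rw [if_pos hp, if_neg hq]
          refine ih y hy _ _ ?_
          have := Finset.card_pos.2 ⟨p, hp⟩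
          rw [card_tog, if_neg (mt hq'.1 hq), card_tog, if_pos hp]; omega
        · rw [if_neg hp, if_pos hq]
          refine ih y hy _ _ ?_
          rw [card_tog, if_pos (hq'.2 hq), card_tog, if_neg hp]; omega
        · rw [if_neg hp, if_neg hq]
          refine ih y hy _ _ ?_
          rw [card_tog, if_neg (mt hq'.1 hq), card_tog, if_neg hp]; omega
    · have hterm : ∀ p q : P, (∑ y, |Bm C.act p q x y|) * (if p = q then B else
          if p ∈ U then (if q ∈ U then D else B) else (if q ∈ U then B else A))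
          ≤ (if p = q then 4 * oc C x p * B else 0) + 2 * (oc C x p + oc C x q) * A
            + ((if p ∈ U then (if q ∈ U then 4 * D else 0) else 0)
              - (if p = q then (if p ∈ U then 4 * D else 0) else 0))
            + ((if p ∈ U then 4 * B else 0) + (if q ∈ U then 4 * B else 0)) := by
        intro p q
        have h1 := row_le_oc C p q x
        have h2 := row_le_four C p q x
        have h3 := oc_nonneg C x p
        have h4 := oc_nonneg C x q
        have h5 : 0 ≤ (oc C x p + oc C x q) * A := by positivity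
        generalize (∑ y, |Bm C.act p q x y|) = R at h1 h2
        by_cases hpq : p = q
        · subst hpq
          by_cases hp : p ∈ U <;> simp only [hp, if_true, if_false] <;> nlinarith
        · by_cases hp : p ∈ U <;> by_cases hq : q ∈ U <;>
            simp only [hpq, hp, hq, if_true, if_false] <;> nlinarith
      refine (mul_le_mul_of_nonneg_left (Finset.sum_le_sum fun p _ =>
        Finset.sum_le_sum fun q _ => hterm p q) (by positivity)).trans (le_of_eq ?_)
      have e1 : ∑ p : P, ∑ q : P, (if p = q then 4 * oc C x p * B else 0) = 4 * j * B := by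
        simp only [Finset.sum_ite_eq, Finset.mem_univ, if_true, ← Finset.sum_mul, ← Finset.mul_sum,
          sum_oc, hx]
      have e2 : ∑ p : P, ∑ q : P, 2 * (oc C x p + oc C x q) * A = 4 * m * j * A := by
        simp only [← Finset.sum_mul, sum_oc_add, hx, hmdef]
      have e3 : ∑ p : P, ∑ q : P, (if p ∈ U then (if q ∈ U then 4 * D else 0) else 0)
          = (2 * h) * ((2 * h) * (4 * D)) := by
        simp [Finset.sum_ite_mem, hU]
      have e4 : ∑ p : P, ∑ q : P, (if p = q then (if p ∈ U then 4 * D else 0) else 0)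
          = (2 * h) * (4 * D) := by
        simp [Finset.sum_ite_mem, hU]
      have e5 : ∑ p : P, ∑ _q : P, (if p ∈ U then 4 * B else 0) = m * ((2 * h) * (4 * B)) := by
        rw [Finset.sum_comm]
        simp [Finset.sum_ite_mem, hU, hmdef]
      have e6 : ∑ _p : P, ∑ q : P, (if q ∈ U then 4 * B else 0) = m * ((2 * h) * (4 * B)) := by
        simp [Finset.sum_ite_mem, hU, hmdef]
      simp only [Finset.sum_add_distrib, Finset.sum_sub_distrib, e1, e2, e3, e4, e5, e6, motz]
      rw [hA, hB, hD, hρ]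
      rcases h with _ | h
      · simp only [Nat.cast_zero, pow_zero, zero_add, pow_one]
        field_simp
        ring
      · simp only [Nat.add_sub_cancel]
        push_cast
        field_simp
        ring

end Crest.Agent.R155
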