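import Crest.Agent.R155.Chaos2

open Finset Matrix
open scoped BigOperators

set_option linter.unusedSectionVars false

namespace Crest.Agent.R155

variable {P X : Type} [Fintype P] [DecidableEq P] [Fintype X] [DecidableEq X]

theorem swap_eq_sw (p : P) :
    Equiv.swap (false, p) (true, p) = sw (fun q => decide (q = p)) := by
  ext1 ⟨b, q⟩
  simp only [Equiv.swap_apply_def, sw_apply, Prod.mk.injEq]
  by_cases h : q = p <;> cases b <;> simp [h]

theorem inv_pair_swap (act : Equiv.Perm (Bool × P) →* Equiv.Perm X) (g : X → ℝ)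
    (hg : ∀ s, Lm act (sw s) *ᵥ g = g) (p : P) (x : X) :
    g (act (Equiv.swap (false, p) (true, p)) x) = g x := by
  have := congrFun (hg (fun q => decide (q = p))) x
  rw [Lm_mulVec, sw_inv] at this
  rw [swap_eq_sw, this]

theorem Bm_mulVec (act : Equiv.Perm (Bool × P) →* Equiv.Perm X) (g : X → ℝ) (p q : P) (x : X) :
    (Bm act p q *ᵥ g) x
      = ∑ b : Bool, ∑ c : Bool, sg b * sg c * g (act (Equiv.swap (b, p) (c, q)) x) := by
  simp only [Bm, Matrix.sum_mulVec, Finset.sum_apply, Matrix.smul_mulVec, Pi.smul_apply,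
    Lm_mulVec, Equiv.swap_inv, smul_eq_mul]

theorem Bm_self_mulVec (act : Equiv.Perm (Bool × P) →* Equiv.Perm X) (g : X → ℝ)
    (hg : ∀ s, Lm act (sw s) *ᵥ g = g) (p : P) (x : X) : (Bm act p p *ᵥ g) x = 0 := by
  rw [Bm_mulVec]
  have h1 := inv_pair_swap act g hg p x
  have h2 : act (Equiv.refl _) x = x := by
    have : (Equiv.refl (Bool × P)) = (1 : Equiv.Perm (Bool × P)) := rfl
    rw [this, map_one]; rfl
  simp only [Fintype.sum_bool, Equiv.swap_self, Equiv.swap_comm (true, p) (false, p), h1, h2,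
    sg_true, sg_false]
  ring

theorem Bm_mulVec_of_empty (C : Cfg (Bool × P) X) (g : X → ℝ)
    (hg : ∀ s, Lm C.act (sw s) *ᵥ g = g) (p q : P) (hpq : p ≠ q) (x : X)
    (hq : ∀ c, (c, q) ∉ C.occ x) : (Bm C.act p q *ᵥ g) x = 0 := by
  rw [Bm_mulVec]
  refine Finset.sum_eq_zero fun b _ => ?_
  have h1 : Equiv.swap (b, p) (true, q) = Equiv.swap (false, q) (true, q)
      * Equiv.swap (b, p) (false, q) * Equiv.swap (false, q) (true, q) := by
    rw [Equiv.mul_swap_eq_swap_mul (Equiv.swap (false, q) (true, q)) (b, p) (false, q), mul_assoc,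
      Equiv.swap_mul_self, mul_one, Equiv.swap_apply_left,
      Equiv.swap_apply_of_ne_of_ne] <;> simp [hpq]
  simp only [Fintype.sum_bool, sg_true, sg_false]
  rw [h1, map_mul, map_mul, Equiv.Perm.mul_apply, Equiv.Perm.mul_apply,
    C.fix _ _ x (hq _) (hq _), inv_pair_swap C.act g hg]
  ring

theorem Zm_mulVec_lonely (C : Cfg (Bool × P) X) (g : X → ℝ)
    (hg : ∀ s, Lm C.act (sw s) *ᵥ g = g) (hsupp : ∀ x, g x ≠ 0 → (C.occ x).card ≤ 1) :
    Zm C.act (fun _ => false) *ᵥ g = 0 := by
  have key : ∀ p q, Bm C.act p q *ᵥ g = 0 := by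
    intro p q
    funext x
    by_cases hx : (C.occ x).card ≤ 1
    · by_cases hpq : p = q
      · subst hpq; exact Bm_self_mulVec _ g hg p x
      · by_cases hq : ∀ c, (c, q) ∉ C.occ x
        · exact Bm_mulVec_of_empty C g hg p q hpq x hq
        · rw [Bm_comm]
          refine Bm_mulVec_of_empty C g hg q p (Ne.symm hpq) x (fun b hb => ?_)
          push Not at hq
          obtain ⟨c, hc⟩ := hq
          have := Finset.card_le_one.1 hx _ hb _ hc
          exact hpq (congrArg Prod.snd this)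
    · rw [Bm_mulVec]
      refine Finset.sum_eq_zero fun b _ => Finset.sum_eq_zero fun c _ => ?_
      have : g (C.act (Equiv.swap (b, p) (c, q)) x) = 0 := by
        by_contra hne
        exact hx (by simpa [card_occ_act] using hsupp _ hne)
      simp [this]
  simp [Zm, Matrix.smul_mulVec, Matrix.sum_mulVec, key]

theorem quad_exp_of_mulVec_eq_zero (M : Matrix X X ℝ) (g : X → ℝ) (h : M *ᵥ g = 0) (a : ℝ) :
    g ⬝ᵥ (NormedSpace.exp (a • M) *ᵥ g) = g ⬝ᵥ g := by
  have h1 := hasSum_exp_quad M a g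
  have h2 : HasSum (fun r : ℕ => a ^ r / (r.factorial : ℝ) * (g ⬝ᵥ (M ^ r *ᵥ g))) (g ⬝ᵥ g) := by
    have := hasSum_single (f := fun r : ℕ => a ^ r / (r.factorial : ℝ) * (g ⬝ᵥ (M ^ r *ᵥ g))) 0
      (fun r hr => by
        obtain ⟨r, rfl⟩ := Nat.exists_eq_succ_of_ne_zero hr
        simp [pow_succ, ← mulVec_mulVec, h])
    simpa using this
  exact h1.unique h2

/-- Projection killing the trivial Walsh coordinate. -/
def Dm : Matrix (X × Finset P) (X × Finset P) ℝ :=
  Matrix.diagonal fun y => if y.2 = ∅ then 0 else 1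

theorem tog_tog_empty (p q : P) : tog (tog (∅ : Finset P) p) q = ∅ ↔ p = q := by
  constructor
  · intro h
    have := (tog_tog_iff (∅ : Finset P) ∅ p q)
    by_contra hpq
    have h1 : p ∈ tog (tog (∅ : Finset P) p) q := by
      rw [mem_tog, if_neg hpq, mem_tog]; simp
    rw [h] at h1; simp at h1
  · rintro rfl; exact tog_tog _ _

theorem Dm_Zh_hat (act : Equiv.Perm (Bool × P) →* Equiv.Perm X) (g : X → ℝ)
    (hg : ∀ s, Lm act (sw s) *ᵥ g = g) :
    Dm *ᵥ (Zh act *ᵥ hat g) = Zh act *ᵥ hat g := by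
  funext ⟨x, U⟩
  rw [Dm, mulVec_diagonal]
  by_cases hU : U = ∅
  · subst hU
    simp only [if_true, zero_mul]
    rw [Zh_mulVec]
    symm
    refine mul_eq_zero_of_right _ (Finset.sum_eq_zero fun p _ => Finset.sum_eq_zero fun q _ => ?_)
    by_cases hpq : p = q
    · subst hpq
      simp only [hat, tog_tog, if_true]
      exact Bm_self_mulVec act g hg p x
    · simp [hat, tog_tog_empty, hpq]
  · simp [hU]

theorem Dm_nonneg (y y' : X × Finset P) : 0 ≤ (Dm : Matrix _ _ ℝ) y y' := by
  simp only [Dm, Matrix.diagonal_apply]; split_ifs <;> norm_num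

theorem Dm_mulVec_le (φ : X × Finset P → ℝ) (h : ∀ y, 0 ≤ φ y) (y : X × Finset P) :
    (Dm *ᵥ φ) y ≤ φ y := by
  rw [Dm, mulVec_diagonal]; split_ifs <;> simp [h]

theorem hat_dot (g : X → ℝ) : (hat g : X × Finset P → ℝ) ⬝ᵥ hat g = g ⬝ᵥ g := by
  simp [dotProduct, Fintype.sum_prod_type, hat]

theorem quad_Zm_pow_le [Nonempty P] (C : Cfg (Bool × P) X) (j : ℕ) (hj : 0 < j) (g : X → ℝ)
    (hg : ∀ s, Lm C.act (sw s) *ᵥ g = g) (hsupp : ∀ x, g x ≠ 0 → (C.occ x).card = j) (r : ℕ) :
    g ⬝ᵥ (Zm C.act (fun _ => false) ^ (r + 1) *ᵥ g)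
      ≤ motz (j / (2 * (Fintype.card P : ℝ))) r 1 * (g ⬝ᵥ g) := by
  have hm : (0 : ℝ) < Fintype.card P := by exact_mod_cast Fintype.card_pos
  have hj' : (0 : ℝ) < j := by exact_mod_cast hj
  rw [quad_Zh_pow _ g hg]
  have hD : (Dm : Matrix (X × Finset P) (X × Finset P) ℝ)ᵀ = Dm := by simp [Dm]
  rcases r with _ | r
  · rw [zero_add, pow_one, ← Dm_Zh_hat _ g hg, dotProduct_mulVec, ← mulVec_transpose, hD]
    have : (Dm : Matrix (X × Finset P) (X × Finset P) ℝ) *ᵥ hat g = 0 := by
      funext y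
      rw [Dm, mulVec_diagonal]
      by_cases h : y.2 = ∅ <;> simp [hat, h]
    simp [this, motz]
  · have h1 : (hat g : X × Finset P → ℝ) ⬝ᵥ (Zh C.act ^ (r + 1 + 1) *ᵥ hat g)
        = hat g ⬝ᵥ ((Zh C.act * (Dm * (Zh C.act ^ r * (Dm * Zh C.act)))) *ᵥ hat g) := by
      simp only [← mulVec_mulVec]
      rw [Dm_Zh_hat _ g hg, dotProduct_mulVec (hat g) (Zh C.act), dotProduct_mulVec _ Dm,
        ← mulVec_transpose, ← mulVec_transpose, hD, Zh_transpose, Dm_Zh_hat _ g hg,
        pow_succ', pow_succ, ← mulVec_mulVec, ← mulVec_mulVec, dotProduct_mulVec (hat g),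
        ← mulVec_transpose, Zh_transpose]
    rw [h1, ← hat_dot (P := P) g]
    refine (le_abs_self _).trans (schur_test _
      (Nh C.act * (Dm * (Nh C.act ^ r * (Dm * Nh C.act)))) ?_ ?_ _ _ ?_)
    · intro y y'
      have : (Nh C.act * (Dm * (Nh C.act ^ r * (Dm * Nh C.act))))ᵀ
          = Nh C.act * (Dm * (Nh C.act ^ r * (Dm * Nh C.act))) := by
        simp only [transpose_mul, transpose_pow, Nh_transpose, hD, Matrix.mul_assoc]
      conv_lhs => rw [← this]
      rfl
    · have hDD : ∀ y y' : X × Finset P, |(Dm : Matrix _ _ ℝ) y y'| ≤ Dm y y' :=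
        fun y y' => (abs_of_nonneg (Dm_nonneg y y')).le
      exact abs_mul_le_mul (abs_Zh_le _) (abs_mul_le_mul hDD (abs_mul_le_mul
        (abs_pow_le_pow (abs_Zh_le _) r) (abs_mul_le_mul hDD (abs_Zh_le _))))
    · rintro ⟨x, U⟩ hy
      have hU : U = ∅ := by by_contra h; simp [hat, h] at hy
      subst hU
      have hx : (C.occ x).card = j := hsupp x (by simpa [hat] using hy)
      have hN := Nh_nonneg C.act
      have hNr := pow_entry_nonneg hN r
      have hnn : ∀ {A B : Matrix (X × Finset P) (X × Finset P) ℝ}, (∀ y y', 0 ≤ A y y') →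
          (∀ y y', 0 ≤ B y y') → ∀ y y', 0 ≤ (A * B) y y' := fun hA hB y y' =>
        Finset.sum_nonneg fun z _ => mul_nonneg (hA _ _) (hB _ _)
      have hone : ∀ y : X × Finset P, 0 ≤ oneE y := fun y => by
        unfold oneE; split_ifs <;> norm_num
      calc _ ≤ ((Nh C.act * (Dm * (Nh C.act ^ r * (Dm * Nh C.act)))) *ᵥ oneE) (x, ∅) := by
            refine Finset.sum_le_sum fun y' _ => ?_
            have := hnn hN (hnn Dm_nonneg (hnn hNr (hnn Dm_nonneg hN))) (x, ∅) y'
            by_cases h : y'.2 = ∅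
            · simp only [oneE, h, if_true, mul_one]; split_ifs <;> simp [this]
            · simp [hat, oneE, h]
        _ ≤ (Nh C.act *ᵥ (Dm *ᵥ (Nh C.act ^ (r + 1) *ᵥ oneE))) (x, ∅) := by
            simp only [← mulVec_mulVec, pow_succ]
            exact mulVec_mono hN (mulVec_mono Dm_nonneg (mulVec_mono hNr
              (Dm_mulVec_le _ (mulVec_nonneg' hN hone)))) _
        _ ≤ (4 * (Fintype.card P : ℝ))⁻¹ * ∑ p : P, ∑ q : P, (∑ y, |Bm C.act p q x y|)
              * (motz (j / (2 * (Fintype.card P : ℝ))) (r + 1) 1 / j) := by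
            refine Nh_mulVec_le C _ j x hx ∅ _ (fun p q y hy => ?_)
            rw [Dm, mulVec_diagonal]
            by_cases hpq : p = q
            · subst hpq
              simp only [tog_tog, if_true, zero_mul]
              exact div_nonneg (motz_nonneg _ (by positivity) _ _) hj'.le
            · have := Nh_pow_oneE_le C j hj (r + 1) y hy (tog (tog ∅ p) q) 1 (by
                simp [card_tog, mem_tog, Ne.symm hpq])
              simpa [tog_tog_empty, hpq] using this
        _ ≤ (4 * (Fintype.card P : ℝ))⁻¹ * ∑ p : P, ∑ q : P, (2 * (oc C x p + oc C x q))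
              * (motz (j / (2 * (Fintype.card P : ℝ))) (r + 1) 1 / j) := by
            refine mul_le_mul_of_nonneg_left (Finset.sum_le_sum fun p _ =>
              Finset.sum_le_sum fun q _ => mul_le_mul_of_nonneg_right (row_le_oc C p q x)
                (div_nonneg (motz_nonneg _ (by positivity) _ _) hj'.le)) (by positivity)
        _ = _ := by
            simp only [← Finset.sum_mul, sum_oc_add, hx]
            field_simp

theorem chaos_exp [Nonempty P] (C : Cfg (Bool × P) X) (j : ℕ) (hj : 0 < j)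
    (hj2 : (j : ℝ) ≤ 2 * (Fintype.card P : ℝ)) (g : X → ℝ)
    (hg : ∀ s, Lm C.act (sw s) *ᵥ g = g) (hsupp : ∀ x, g x ≠ 0 → (C.occ x).card = j) (a : ℝ)
    (ha : 0 ≤ a) (hy : 8 * (j / (2 * (Fintype.card P : ℝ))) / 5 * (Real.exp (5 * a) - 1) ≤ 1) :
    g ⬝ᵥ (NormedSpace.exp (a • Zm C.act (fun _ => false)) *ᵥ g)
      ≤ (1 + 2 * (j / (2 * (Fintype.card P : ℝ))) * a ^ 2 * Real.exp (15 / 2 * a)) * (g ⬝ᵥ g) := by
  have hm : (0 : ℝ) < Fintype.card P := by exact_mod_cast Fintype.card_pos
  have h1 := (hasSum_exp_quad (Zm C.act (fun _ => false)) a g).tendsto_sum_nat.comp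
    (Filter.tendsto_add_atTop_nat 1)
  refine le_of_tendsto' h1 (fun N => ?_)
  have hgg : 0 ≤ g ⬝ᵥ g := Finset.sum_nonneg fun x _ => mul_self_nonneg _
  simp only [Function.comp_apply, Finset.sum_range_succ', pow_zero, Nat.factorial_zero,
    Nat.cast_one, div_one, one_mul, one_mulVec]
  have h2 := motz_sum_le (j / (2 * (Fintype.card P : ℝ))) a (by positivity)
    (by rw [div_le_one (by positivity)]; exact hj2) ha hy N
  calc _ ≤ ∑ r ∈ range N, a ^ (r + 1) / ((r + 1).factorial : ℝ)
          * (motz (j / (2 * (Fintype.card P : ℝ))) r 1 * (g ⬝ᵥ g)) + g ⬝ᵥ g := by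
        gcongr with r hr
        exact quad_Zm_pow_le C j hj g hg hsupp r
    _ = (∑ r ∈ range N, a ^ (r + 1) / ((r + 1).factorial : ℝ)
          * motz (j / (2 * (Fintype.card P : ℝ))) r 1) * (g ⬝ᵥ g) + g ⬝ᵥ g := by
        simp only [Finset.sum_mul, mul_assoc]
    _ ≤ _ := by nlinarith

/-- The Laplacian is bounded by twice the number of particles. -/
theorem quad_exp_kap_le {α : Type} [Fintype α] [DecidableEq α] (C : Cfg α X) (j : ℕ) (g : X → ℝ)
    (hsupp : ∀ x, g x ≠ 0 → (C.occ x).card = j) (a : ℝ) (ha : 0 ≤ a) :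
    g ⬝ᵥ (NormedSpace.exp (a • kap C.act) *ᵥ g) ≤ Real.exp (a * (2 * j)) * (g ⬝ᵥ g) := by
  set N : Matrix X X ℝ := Matrix.of fun x y => (2 * (Fintype.card α : ℝ))⁻¹ *
    ∑ u : α, ∑ v : α, |(1 - Lm C.act (Equiv.swap u v)) x y| with hNdef
  have hKN : ∀ x y, |kap C.act x y| ≤ N x y := by
    intro x y
    simp only [kap, hNdef, Matrix.smul_apply, Matrix.sum_apply, smul_eq_mul, of_apply, abs_mul]
    rw [abs_of_nonneg (by positivity)]
    refine mul_le_mul_of_nonneg_left ?_ (by positivity)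
    exact (Finset.abs_sum_le_sum_abs _ _).trans (Finset.sum_le_sum fun u _ =>
      Finset.abs_sum_le_sum_abs _ _)
  have hN0 : ∀ x y, 0 ≤ N x y := fun x y => (abs_nonneg _).trans (hKN x y)
  have hNt : Nᵀ = N := by
    ext x y
    simp only [hNdef, transpose_apply, of_apply]
    congr 1
    refine Finset.sum_congr rfl fun u _ => Finset.sum_congr rfl fun v _ => ?_
    have : (1 - Lm C.act (Equiv.swap u v))ᵀ = 1 - Lm C.act (Equiv.swap u v) := by
      simp [Lm_transpose]
    conv_lhs => rw [← this]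
    rfl
  have hrow1 : ∀ u v x (φ : X → ℝ) (c : ℝ), 0 ≤ c → (C.occ x).card = j →
      (∀ y, (C.occ y).card = j → φ y ≤ c) →
      ∑ y, |(1 - Lm C.act (Equiv.swap u v)) x y| * φ y
        ≤ ((if u ∈ C.occ x then 2 else 0) + (if v ∈ C.occ x then 2 else 0)) * c := by
    intro u v x φ c hc hx hφ
    by_cases hfix : C.act (Equiv.swap u v) x = x
    · have : ∀ y, (1 - Lm C.act (Equiv.swap u v)) x y = 0 := by
        intro y; simp [Lm_apply, hfix, Matrix.one_apply]
      simp only [this, abs_zero, zero_mul, Finset.sum_const_zero]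
      positivity
    · have h2 : (2 : ℝ) ≤ (if u ∈ C.occ x then 2 else 0) + (if v ∈ C.occ x then 2 else 0) := by
        by_cases hu : u ∈ C.occ x <;> by_cases hv : v ∈ C.occ x <;> simp [hu, hv]
        exact (hfix (C.fix u v x hu hv)).elim
      calc _ = ∑ y, ((if x = y then φ y else 0)
              + (if C.act (Equiv.swap u v) x = y then φ y else 0)) := by
            refine Finset.sum_congr rfl fun y _ => ?_
            simp only [Matrix.sub_apply, Lm_apply, Matrix.one_apply, Equiv.swap_inv]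
            by_cases h1 : x = y
            · subst h1; simp [hfix]
            · by_cases h2 : C.act (Equiv.swap u v) x = y <;> simp [h1, h2]
        _ = φ x + φ (C.act (Equiv.swap u v) x) := by simp [Finset.sum_add_distrib]
        _ ≤ 2 * c := by
            have := hφ x hx
            have := hφ (C.act (Equiv.swap u v) x) (by rw [card_occ_act, hx])
            linarith
        _ ≤ _ := mul_le_mul_of_nonneg_right h2 hc
  have hpow : ∀ r x, (C.occ x).card = j → (N ^ r *ᵥ fun _ => 1) x ≤ (2 * j : ℝ) ^ r := by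
    intro r
    induction r with
    | zero => intro x _; simp
    | succ r ih =>
      intro x hx
      rw [pow_succ', ← mulVec_mulVec]
      generalize (N ^ r *ᵥ fun _ => 1) = φ at ih
      have : (N *ᵥ φ) x = (2 * (Fintype.card α : ℝ))⁻¹ *
          ∑ u : α, ∑ v : α, ∑ y, |(1 - Lm C.act (Equiv.swap u v)) x y| * φ y := by
        simp only [mulVec, dotProduct, hNdef, of_apply, mul_assoc, ← Finset.mul_sum, Finset.sum_mul]
        congr 1
        rw [Finset.sum_comm]
        refine Finset.sum_congr rfl fun u _ => ?_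
        rw [Finset.sum_comm]
      rw [this]
      refine (mul_le_mul_of_nonneg_left (Finset.sum_le_sum fun u _ => Finset.sum_le_sum fun v _ =>
        hrow1 u v x φ _ (by positivity) hx ih) (by positivity)).trans ?_
      simp only [← Finset.sum_mul, Finset.sum_add_distrib, Finset.sum_const, Finset.card_univ,
        nsmul_eq_mul, ← Finset.mul_sum, Finset.sum_ite_mem, Finset.univ_inter, hx]
      rcases Nat.eq_zero_or_pos (Fintype.card α) with h0 | h0
      · simp only [h0]; simp
      · have : (0 : ℝ) < Fintype.card α := by exact_mod_cast h0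
        apply le_of_eq; field_simp; ring
  have hgg : 0 ≤ g ⬝ᵥ g := Finset.sum_nonneg fun x _ => mul_self_nonneg _
  have h1 := hasSum_exp_quad (kap C.act) a g
  have h2 : HasSum (fun r : ℕ => (a * (2 * j)) ^ r / (r.factorial : ℝ) * (g ⬝ᵥ g))
      (Real.exp (a * (2 * j)) * (g ⬝ᵥ g)) := by
    refine HasSum.mul_right _ ?_
    rw [Real.exp_eq_exp_ℝ]
    exact NormedSpace.expSeries_div_hasSum_exp _
  refine hasSum_le (fun r => ?_) h1 h2
  have h3 : g ⬝ᵥ (kap C.act ^ r *ᵥ g) ≤ (2 * j : ℝ) ^ r * (g ⬝ᵥ g) := by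
    refine (le_abs_self _).trans (schur_test _ (N ^ r) ?_ (abs_pow_le_pow hKN r) _ _ ?_)
    · intro x y
      have : (N ^ r)ᵀ = N ^ r := by rw [transpose_pow, hNt]
      conv_lhs => rw [← this]
      rfl
    · intro x hx
      refine le_trans (Finset.sum_le_sum fun y _ => ?_) (hpow r x (hsupp x hx))
      have := pow_entry_nonneg hN0 r x y
      split_ifs <;> simp [this]
  calc _ ≤ a ^ r / (r.factorial : ℝ) * ((2 * j : ℝ) ^ r * (g ⬝ᵥ g)) := by gcongr
    _ = _ := by rw [mul_pow]; ring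

end Crest.Agent.R155
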