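import Crest.Agent.R155.Defs

/-! Auxiliary lemmas for `Cycle.lean`: strands of the butterfly network and an abstract
exploration lemma. -/

open Finset

namespace Crest.Agent.R155.Cyc

/-- First-round switch. -/
def sl {h : ℕ} (p : Cube h) : SwIdx (h + 1) := Sum.inl p
/-- Switch of a sub-network. -/
def sr {h : ℕ} (b : Bool) (i : SwIdx h) : SwIdx (h + 1) := Sum.inr (b, i)
/-- A point of the cube. -/
def mk {h : ℕ} (b : Bool) (p : Cube h) : Cube (h + 1) := (b, p)

theorem sl_inj {h : ℕ} {p q : Cube h} (H : sl p = sl q) : p = q := Sum.inl.inj H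
theorem sr_inj {h : ℕ} {b c : Bool} {i j : SwIdx h} (H : sr b i = sr c j) : b = c ∧ i = j :=
  Prod.mk.inj (Sum.inr.inj H)
theorem sl_ne_sr {h : ℕ} {p : Cube h} {b : Bool} {i : SwIdx h} : sl p ≠ sr b i :=
  fun H => Sum.inl_ne_inr H
theorem sw_cases {h : ℕ} (i : SwIdx (h + 1)) : (∃ p, i = sl p) ∨ ∃ b j, i = sr b j := by
  rcases i with p | ⟨b, j⟩
  · exact Or.inl ⟨p, rfl⟩
  · exact Or.inr ⟨b, j, rfl⟩

/-- The switches met by the strand entering at `u` during the first `r` rounds. -/
def path : (r h : ℕ) → Sw h → Cube h → Finset (SwIdx h)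
  | 0, _, _, _ => ∅
  | _ + 1, 0, _, _ => ∅
  | r + 1, h + 1, a, u =>
      insert (sl u.2)
        ((path r h (tl a (xor u.1 (hd a u.2))) u.2).image (sr (xor u.1 (hd a u.2))))

theorem top_succ (r h : ℕ) (a : Sw (h + 1)) (u : Cube (h + 1)) :
    top (r + 1) (h + 1) a u
      = ((xor u.1 (hd a u.2), top r h (tl a (xor u.1 (hd a u.2))) u.2) : Bool × Cube h) := rfl

theorem inl_mem (r h : ℕ) (a : Sw (h + 1)) (u : Cube (h + 1)) (p : Cube h) :
    sl p ∈ path (r + 1) (h + 1) a u ↔ p = u.2 := by
  unfold path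
  rw [Finset.mem_insert, Finset.mem_image]
  constructor
  · rintro (h1 | ⟨i, _, h2⟩)
    · exact sl_inj h1
    · exact absurd h2.symm sl_ne_sr
  · rintro rfl; exact Or.inl rfl

theorem inr_mem (r h : ℕ) (a : Sw (h + 1)) (u : Cube (h + 1)) (b : Bool) (j : SwIdx h) :
    sr b j ∈ path (r + 1) (h + 1) a u ↔
      b = xor u.1 (hd a u.2) ∧ j ∈ path r h (tl a b) u.2 := by
  conv_lhs => unfold path
  rw [Finset.mem_insert, Finset.mem_image]
  constructor
  · rintro (h1 | ⟨i, hi, h2⟩)
    · exact absurd h1.symm sl_ne_sr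
    · obtain ⟨h4, h5⟩ := sr_inj h2
      subst h4; subst h5
      exact ⟨rfl, hi⟩
  · rintro ⟨rfl, hj⟩
    exact Or.inr ⟨j, hj, rfl⟩

/-- (P1) -/
theorem path_congr : ∀ (r h : ℕ) (a a' : Sw h) (u : Cube h),
    (∀ i ∈ path r h a u, a' i = a i) → path r h a' u = path r h a u ∧ top r h a' u = top r h a u
  | 0, _, _, _, _, _ => ⟨by simp [path], by simp [top]⟩
  | _ + 1, 0, _, _, _, _ => ⟨by simp [path], by simp [top]⟩
  | r + 1, h + 1, a, a', u, H => by
    have h1 : hd a' u.2 = hd a u.2 := H _ ((inl_mem r h a u u.2).2 rfl)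
    have h2 := path_congr r h (tl a (xor u.1 (hd a u.2))) (tl a' (xor u.1 (hd a u.2))) u.2
      (fun i hi => H _ ((inr_mem r h a u _ i).2 ⟨rfl, hi⟩))
    constructor
    · unfold path
      rw [h1, h2.1]
    · rw [top_succ, top_succ, h1, h2.2]

/-- (P2) -/
theorem agree_of_top_eq : ∀ (r h : ℕ) (a a' : Sw h) (u : Cube h),
    top r h a' u = top r h a u → ∀ i ∈ path r h a u, a' i = a i
  | 0, _, _, _, _, _ => by simp [path]
  | _ + 1, 0, _, _, _, _ => by simp [path]
  | r + 1, h + 1, a, a', u, H => by
    rw [top_succ, top_succ] at H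
    obtain ⟨h1, h2⟩ := Prod.mk.inj H
    have h3 : hd a' u.2 = hd a u.2 := by
      revert h1; cases u.1 <;> cases hd a' u.2 <;> cases hd a u.2 <;> simp
    rw [h3] at h2
    have h4 := agree_of_top_eq r h _ _ u.2 h2
    intro i hi
    rcases sw_cases i with ⟨p, rfl⟩ | ⟨b, j, rfl⟩
    · rw [inl_mem] at hi; subst hi; exact h3
    · rw [inr_mem] at hi
      obtain ⟨rfl, hj⟩ := hi
      exact h4 j hj

/-- (P3) -/
theorem card_path : ∀ (r h : ℕ) (a : Sw h) (u : Cube h), r ≤ h → (path r h a u).card = r
  | 0, _, _, _, _ => by simp [path]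
  | _ + 1, 0, _, _, H => by omega
  | r + 1, h + 1, a, u, H => by
    unfold path
    rw [Finset.card_insert_of_notMem, Finset.card_image_of_injective,
      card_path r h _ _ (by omega)]
    · intro i j hij
      exact (sr_inj hij).2
    · rw [Finset.mem_image]
      rintro ⟨i, _, h2⟩
      exact sl_ne_sr h2.symm

theorem cube_ext {h : ℕ} {u v : Cube (h + 1)} (h1 : u.1 = v.1) (h2 : u.2 = v.2) : u = v :=
  Prod.ext h1 h2

/-- (P4) -/
theorem two_strands : ∀ (r h : ℕ) (a : Sw h) (u v w : Cube h) (i : SwIdx h),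
    i ∈ path r h a u → i ∈ path r h a v → i ∈ path r h a w → u = v ∨ u = w ∨ v = w
  | 0, _, _, _, _, _, _ => by simp [path]
  | _ + 1, 0, _, _, _, _, _ => by simp [path]
  | r + 1, h + 1, a, u, v, w, Sum.inl p => by
    intro h1 h2 h3
    replace h1 := (inl_mem r h a u p).1 h1
    replace h2 := (inl_mem r h a v p).1 h2
    replace h3 := (inl_mem r h a w p).1 h3
    have : u.1 = v.1 ∨ u.1 = w.1 ∨ v.1 = w.1 := by
      cases u.1 <;> cases v.1 <;> cases w.1 <;> simp
    rcases this with h | h | h
    · exact Or.inl (cube_ext h (h1.symm.trans h2))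
    · exact Or.inr (Or.inl (cube_ext h (h1.symm.trans h3)))
    · exact Or.inr (Or.inr (cube_ext h (h2.symm.trans h3)))
  | r + 1, h + 1, a, u, v, w, Sum.inr (b, j) => by
    intro g1 g2 g3
    obtain ⟨h1, h1'⟩ := (inr_mem r h a u b j).1 g1
    obtain ⟨h2, h2'⟩ := (inr_mem r h a v b j).1 g2
    obtain ⟨h3, h3'⟩ := (inr_mem r h a w b j).1 g3
    have key : ∀ x y : Cube (h + 1), b = xor x.1 (hd a x.2) → b = xor y.1 (hd a y.2) →
        x.2 = y.2 → x = y := by
      intro x y hx hy hxy
      refine cube_ext ?_ hxy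
      rw [hx, hxy] at hy
      revert hy; cases x.1 <;> cases y.1 <;> cases hd a y.2 <;> simp
    rcases two_strands r h (tl a b) u.2 v.2 w.2 j h1' h2' h3' with h | h | h
    · exact Or.inl (key u v h1 h2 h)
    · exact Or.inr (Or.inl (key u w h1 h3 h))
    · exact Or.inr (Or.inr (key v w h2 h3 h))

/-- The switches of the strand `u` that are shared with another strand of `C`. -/
def shared (r h : ℕ) (a : Sw h) (C : Finset (Cube h)) (u : Cube h) : Finset (SwIdx h) :=
  (path r h a u).filter (fun i => ∃ v ∈ C, v ≠ u ∧ i ∈ path r h a v)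

/-- The strands of `C` that go to the half `b`. -/
def hf {h : ℕ} (a : Sw (h + 1)) (C : Finset (Cube (h + 1))) (b : Bool) : Finset (Cube h) :=
  univ.filter (fun p => mk (xor b (hd a p)) p ∈ C)

theorem card_hf {h : ℕ} (a : Sw (h + 1)) (C : Finset (Cube (h + 1))) :
    (hf a C false).card + (hf a C true).card ≤ C.card := by
  have h1 : ∀ b, (hf a C b).card = (C.filter (fun u => xor u.1 (hd a u.2) = b)).card := by
    intro b
    refine Finset.card_bij (fun p _ => mk (xor b (hd a p)) p) ?_ ?_ ?_
    · intro p hp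
      simp only [hf, Finset.mem_filter, Finset.mem_univ, true_and] at hp
      rw [Finset.mem_filter]
      refine ⟨hp, ?_⟩
      show xor (xor b (hd a p)) (hd a p) = b
      cases b <;> cases hd a p <;> rfl
    · intro p _ q _ hpq
      exact (Prod.mk.inj hpq).2
    · intro u hu
      rw [Finset.mem_filter] at hu
      have e : mk (xor b (hd a u.2)) u.2 = u := by
        refine cube_ext ?_ rfl
        show xor b (hd a u.2) = u.1
        rw [← hu.2]; cases u.1 <;> cases hd a u.2 <;> rfl
      refine ⟨u.2, ?_, e⟩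
      simp only [hf, Finset.mem_filter, Finset.mem_univ, true_and]
      rw [e]; exact hu.1
  rw [h1, h1, ← Finset.card_union_of_disjoint]
  · exact Finset.card_le_card (Finset.union_subset (Finset.filter_subset _ _)
      (Finset.filter_subset _ _))
  · rw [Finset.disjoint_filter]
    intro u _ h1 h2
    rw [h1] at h2; cases h2

theorem shared_succ (r h : ℕ) (a : Sw (h + 1)) (C : Finset (Cube (h + 1))) (b : Bool)
    (p : Cube h) :
    shared (r + 1) (h + 1) a C (mk (xor b (hd a p)) p) ⊆
      (if p ∈ hf a C (!b) then {sl p} else ∅) ∪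
        (shared r h (tl a b) (hf a C b) p).image (sr b) := by
  intro i hi
  rcases sw_cases i with ⟨q, rfl⟩ | ⟨c, j, rfl⟩
  · simp only [shared, Finset.mem_filter] at hi
    obtain ⟨h1, v, hv, hne, h2⟩ := hi
    rw [inl_mem] at h1 h2
    have h1' : q = p := h1
    subst h1'
    have : q ∈ hf a C (!b) := by
      simp only [hf, Finset.mem_filter, Finset.mem_univ, true_and]
      have e : mk (xor (!b) (hd a q)) q = v := by
        refine cube_ext ?_ h2
        show xor (!b) (hd a q) = v.1
        have : v.1 ≠ xor b (hd a q) := fun hh => hne (cube_ext hh h2.symm)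
        revert this; cases b <;> cases hd a q <;> cases v.1 <;> simp
      rw [e]; exact hv
    rw [if_pos this]
    exact Finset.mem_union_left _ (Finset.mem_singleton_self _)
  · simp only [shared, Finset.mem_filter] at hi
    obtain ⟨h1, v, hv, hne, h2⟩ := hi
    rw [inr_mem] at h1 h2
    have hc : c = b := by
      have : c = xor (xor b (hd a p)) (hd a p) := h1.1
      rw [this]; cases b <;> cases hd a p <;> rfl
    subst hc
    have e : mk (xor c (hd a v.2)) v.2 = v := by
      refine cube_ext ?_ rfl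
      show xor c (hd a v.2) = v.1
      rw [h2.1]; cases v.1 <;> cases hd a v.2 <;> rfl
    refine Finset.mem_union_right _ (Finset.mem_image.2 ⟨j, ?_, rfl⟩)
    simp only [shared, Finset.mem_filter]
    refine ⟨h1.2, v.2, ?_, ?_, h2.2⟩
    · simp only [hf, Finset.mem_filter, Finset.mem_univ, true_and]
      rw [e]; exact hv
    · intro hh
      apply hne
      rw [← e, hh]

/-- (P5) -/
theorem two_pow_le_card : ∀ (r h : ℕ) (a : Sw h) (C : Finset (Cube h)) (δ : ℕ), C.Nonempty →
    (∀ u ∈ C, δ ≤ (shared r h a C u).card) → 2 ^ δ ≤ C.card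
  | 0, _, a, C, δ, hC, H => by
    obtain ⟨u, hu⟩ := hC
    have := H u hu
    simp only [shared, path, Finset.filter_empty, Finset.card_empty, Nat.le_zero] at this
    subst this
    exact Finset.card_pos.2 ⟨u, hu⟩
  | _ + 1, 0, a, C, δ, hC, H => by
    obtain ⟨u, hu⟩ := hC
    have := H u hu
    simp only [shared, path, Finset.filter_empty, Finset.card_empty, Nat.le_zero] at this
    subst this
    exact Finset.card_pos.2 ⟨u, hu⟩
  | r + 1, h + 1, a, C, 0, hC, _ => Finset.card_pos.2 hC
  | r + 1, h + 1, a, C, δ + 1, hC, H => by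
    have key : ∀ b, ∀ p ∈ hf a C b, δ + 1 ≤ (if p ∈ hf a C (!b) then 1 else 0) +
        (shared r h (tl a b) (hf a C b) p).card := by
      intro b p hp
      have hp' : mk (xor b (hd a p)) p ∈ C := by
        simpa only [hf, Finset.mem_filter, Finset.mem_univ, true_and] using hp
      refine (H _ hp').trans ((Finset.card_le_card (shared_succ r h a C b p)).trans
        ((Finset.card_union_le _ _).trans (add_le_add ?_ Finset.card_image_le)))
      split_ifs <;> simp
    have weak : ∀ b, (hf a C b).Nonempty → 2 ^ δ ≤ (hf a C b).card := by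
      intro b hb
      refine two_pow_le_card r h (tl a b) (hf a C b) δ hb (fun p hp => ?_)
      have := key b p hp
      split_ifs at this <;> omega
    have strong : ∀ b, (hf a C b).Nonempty → hf a C (!b) = ∅ → 2 ^ (δ + 1) ≤ (hf a C b).card := by
      intro b hb hb'
      refine two_pow_le_card r h (tl a b) (hf a C b) (δ + 1) hb (fun p hp => ?_)
      have := key b p hp
      rw [hb'] at this
      simpa using this
    have hc := card_hf a C
    obtain ⟨u, hu⟩ := hC
    have hu' : u.2 ∈ hf a C (xor u.1 (hd a u.2)) := by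
      simp only [hf, Finset.mem_filter, Finset.mem_univ, true_and]
      have e : mk (xor (xor u.1 (hd a u.2)) (hd a u.2)) u.2 = u := by
        refine cube_ext ?_ rfl
        show xor (xor u.1 (hd a u.2)) (hd a u.2) = u.1
        cases u.1 <;> cases hd a u.2 <;> rfl
      rw [e]; exact hu
    rcases (hf a C false).eq_empty_or_nonempty with h0 | h0 <;>
      rcases (hf a C true).eq_empty_or_nonempty with h1 | h1
    · exfalso
      revert hu'
      cases xor u.1 (hd a u.2)
      · rw [h0]; simp
      · rw [h1]; simp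
    · have := strong true h1 h0; omega
    · have := strong false h0 h1; omega
    · have e0 := weak false h0
      have e1 := weak true h1
      rw [pow_succ]; omega

/-! ### Abstract exploration lemma -/

section Explore

variable {ι : Type} [Fintype ι] [DecidableEq ι]

/-- `F` is determined by the coordinates in the (random) set `J`. -/
def Det {β : Sort*} (J : (ι → Bool) → Finset ι) (F : (ι → Bool) → β) : Prop :=
  ∀ a b : ι → Bool, (∀ i ∈ J a, b i = a i) → F b = F a

theorem explore_step (J π : (ι → Bool) → Finset ι) (W : (ι → Bool) → ℕ)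
    (A : (ι → Bool) → Prop) [DecidablePred A] (hJ : Det J J) (hW : Det J W)
    (hπ : ∀ a a', A a → A a' → (∀ i ∈ J a, a' i = a i) → π a' = π a ∧ ∀ i ∈ π a, a' i = a i) :
    ∑ a, (if A a then W a * 2 ^ (π a \ J a).card else 0) ≤ ∑ a, W a := by
  classical
  let fl : (Σ _ : ι → Bool, Finset ι) → (ι → Bool) := fun x i => xor (x.1 i) (decide (i ∈ x.2))
  let D : Finset (Σ _ : ι → Bool, Finset ι) :=
    (univ.filter A).sigma (fun a => (π a \ J a).powerset)
  have hD : ∀ x ∈ D, A x.1 ∧ x.2 ⊆ π x.1 \ J x.1 := by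
    intro x hx
    simp only [D, Finset.mem_sigma, Finset.mem_filter, Finset.mem_univ, true_and,
      Finset.mem_powerset] at hx
    exact hx
  have hfl : ∀ x ∈ D, ∀ i, i ∉ π x.1 \ J x.1 → fl x i = x.1 i := by
    intro x hx i hi
    have : i ∉ x.2 := fun hh => hi ((hD x hx).2 hh)
    simp [fl, this]
  have hflJ : ∀ x ∈ D, ∀ i ∈ J x.1, fl x i = x.1 i := fun x hx i hi =>
    hfl x hx i (fun hh => (Finset.mem_sdiff.1 hh).2 hi)
  have h1 : ∑ a, (if A a then W a * 2 ^ (π a \ J a).card else 0) = ∑ x ∈ D, W (fl x) := by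
    rw [← Finset.sum_filter, Finset.sum_congr rfl (fun x hx => hW x.1 (fl x) (hflJ x hx))]
    simp only [D]
    rw [Finset.sum_sigma]
    refine Finset.sum_congr rfl (fun a _ => ?_)
    simp [Finset.card_powerset, mul_comm]
  have hinj : Set.InjOn fl D := by
    intro x hx y hy hxy
    have hx' : x ∈ D := hx
    have hy' : y ∈ D := hy
    have e1 : J (fl x) = J x.1 := hJ _ _ (hflJ x hx')
    have e2 : J (fl y) = J y.1 := hJ _ _ (hflJ y hy')
    have e3 : J y.1 = J x.1 := by rw [← e1, ← e2, hxy]
    have e4 : ∀ i ∈ J x.1, y.1 i = x.1 i := by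
      intro i hi
      rw [← hflJ x hx' i hi, hxy, hflJ y hy' i (e3 ▸ hi)]
    obtain ⟨e5, e6⟩ := hπ x.1 y.1 (hD x hx').1 (hD y hy').1 e4
    have e7 : x.1 = y.1 := by
      funext i
      by_cases hi : i ∈ π x.1
      · exact (e6 i hi).symm
      · rw [← hfl x hx' i (fun hh => hi (Finset.mem_sdiff.1 hh).1), hxy,
          hfl y hy' i (fun hh => hi (e5 ▸ (Finset.mem_sdiff.1 hh).1))]
    obtain ⟨x1, x2⟩ := x
    obtain ⟨y1, y2⟩ := y
    simp only at e7
    subst e7
    have e8 : x2 = y2 := by
      ext i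
      have := congrFun hxy i
      simp only [fl] at this
      by_cases h1 : i ∈ x2 <;> by_cases h2 : i ∈ y2 <;> simp_all
    rw [e8]
  rw [h1, ← Finset.sum_image hinj]
  exact Finset.sum_le_sum_of_subset (Finset.subset_univ _)

theorem explore {T : Type} [DecidableEq T] (rk : T → ℤ) (hrk : Function.Injective rk)
    (own π : T → (ι → Bool) → Finset ι) (A : T → (ι → Bool) → Prop) [∀ t, DecidablePred (A t)]
    (h1 : ∀ t, Det (own t) (own t))
    (h2 : ∀ t, Det (fun a => own t a ∪ π t a) (π t))
    (h3 : ∀ t, Det (fun a => own t a ∪ π t a) (A t))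
    (h4 : ∀ t a a', A t a → A t a' → (∀ i ∈ own t a, a' i = a i) →
      π t a' = π t a ∧ ∀ i ∈ π t a, a' i = a i)
    (S : Finset T) :
    ∑ a, (if ∀ t ∈ S, A t a then
      2 ^ (∑ t ∈ S, (π t a \ (own t a ∪
        (S.filter (fun s => rk s < rk t)).biUnion (fun s => own s a ∪ π s a))).card) else 0)
      ≤ ∑ _a : ι → Bool, 1 := by
  classical
  induction S using Finset.induction_on_max_value rk with
  | empty => simp
  | insert t S ht hmax ih =>
    have hlt : ∀ s ∈ S, rk s < rk t := fun s hs =>
      lt_of_le_of_ne (hmax s hs) (fun hh => ht (hrk hh ▸ hs))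
    have f1 : (insert t S).filter (fun s => rk s < rk t) = S := by
      rw [Finset.filter_insert, if_neg (lt_irrefl _)]
      exact Finset.filter_true_of_mem hlt
    have f2 : ∀ s ∈ S, (insert t S).filter (fun s' => rk s' < rk s)
        = S.filter (fun s' => rk s' < rk s) := by
      intro s hs
      rw [Finset.filter_insert, if_neg (not_lt.2 (hmax s hs))]
    let J : (ι → Bool) → Finset ι := fun a => own t a ∪ S.biUnion (fun s => own s a ∪ π s a)
    let W : (ι → Bool) → ℕ := fun a => (if ∀ t ∈ S, A t a then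
      2 ^ (∑ t ∈ S, (π t a \ (own t a ∪
        (S.filter (fun s => rk s < rk t)).biUnion (fun s => own s a ∪ π s a))).card) else 0)
    have hS : ∀ a b : ι → Bool, (∀ i ∈ J a, b i = a i) → ∀ s ∈ S,
        own s b = own s a ∧ π s b = π s a ∧ A s b = A s a := by
      intro a b hab s hs
      have : ∀ i ∈ own s a ∪ π s a, b i = a i := fun i hi =>
        hab i (Finset.mem_union_right _ (Finset.mem_biUnion.2 ⟨s, hs, hi⟩))
      exact ⟨h1 s a b (fun i hi => this i (Finset.mem_union_left _ hi)), h2 s a b this,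
        h3 s a b this⟩
    have hJ : Det J J := by
      intro a b hab
      simp only [J]
      rw [h1 t a b (fun i hi => hab i (Finset.mem_union_left _ hi))]
      congr 1
      refine Finset.biUnion_congr rfl (fun s hs => ?_)
      rw [(hS a b hab s hs).1, (hS a b hab s hs).2.1]
    have hW : Det J W := by
      intro a b hab
      simp only [W]
      have e1 : (∀ t ∈ S, A t b) ↔ (∀ t ∈ S, A t a) :=
        forall₂_congr (fun s hs => by rw [(hS a b hab s hs).2.2])
      refine if_congr e1 ?_ rfl
      congr 1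
      refine Finset.sum_congr rfl (fun s hs => ?_)
      rw [(hS a b hab s hs).1, (hS a b hab s hs).2.1]
      congr 3
      refine Finset.biUnion_congr rfl (fun s' hs' => ?_)
      have hs'' := (Finset.mem_filter.1 hs').1
      rw [(hS a b hab s' hs'').1, (hS a b hab s' hs'').2.1]
    have := explore_step J (π t) W (A t) hJ hW (fun a a' ha ha' hab =>
      h4 t a a' ha ha' (fun i hi => hab i (Finset.mem_union_left _ hi)))
    refine le_trans (le_of_eq ?_) (this.trans ih)
    refine Finset.sum_congr rfl (fun a _ => ?_)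
    simp only [W, J]
    rw [Finset.sum_insert ht, f1, Finset.sum_congr rfl (fun s hs => by rw [f2 s hs])]
    simp only [Finset.forall_mem_insert]
    by_cases hA : A t a <;> by_cases hB : ∀ t ∈ S, A t a <;> simp [hA, hB, pow_add, mul_comm]

end Explore

end Crest.Agent.R155.Cyc
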