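import Mathlib

/-!
Definitions for the mixing-time proof of the Thorp shuffle (row 155).
One pass of the shuffle is the butterfly network `net` on the hypercube `Cube D`.
-/

open Finset Matrix

namespace Crest.Agent.R155

/-- The hypercube of dimension `h`; the first coordinate is the first one to be switched. -/
def Cube : ℕ → Type
  | 0 => Unit
  | h + 1 => Bool × Cube h

instance Cube.instFintype : (h : ℕ) → Fintype (Cube h)
  | 0 => inferInstanceAs (Fintype Unit)
  | h + 1 => @instFintypeProd Bool (Cube h) _ (Cube.instFintype h)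

instance Cube.instDecEq : (h : ℕ) → DecidableEq (Cube h)
  | 0 => inferInstanceAs (DecidableEq Unit)
  | h + 1 => @instDecidableEqProd Bool (Cube h) _ (Cube.instDecEq h)

/-- Index set of the switches of the butterfly network of depth `h`. -/
def SwIdx : ℕ → Type
  | 0 => Empty
  | h + 1 => Cube h ⊕ (Bool × SwIdx h)

instance SwIdx.instFintype : (h : ℕ) → Fintype (SwIdx h)
  | 0 => inferInstanceAs (Fintype Empty)
  | h + 1 => @instFintypeSum (Cube h) (Bool × SwIdx h) _
      (@instFintypeProd Bool (SwIdx h) _ (SwIdx.instFintype h))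

instance SwIdx.instDecEq : (h : ℕ) → DecidableEq (SwIdx h)
  | 0 => inferInstanceAs (DecidableEq Empty)
  | h + 1 => @instDecidableEqSum (Cube h) (Bool × SwIdx h) _
      (@instDecidableEqProd Bool (SwIdx h) _ (SwIdx.instDecEq h))

/-- Switch settings. -/
abbrev Sw (h : ℕ) : Type := SwIdx h → Bool

/-- The settings of the first round. -/
def hd {h : ℕ} (ω : Sw (h + 1)) : Cube h → Bool := fun p => ω (Sum.inl p)

/-- The settings of the sub-network on the half `b`. -/
def tl {h : ℕ} (ω : Sw (h + 1)) (b : Bool) : Sw h := fun i => ω (Sum.inr (b, i))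

/-- The round in which a switch is used (first round is `0`). -/
def depth : (h : ℕ) → SwIdx h → ℕ
  | 0, _ => 0
  | _ + 1, Sum.inl _ => 0
  | h + 1, Sum.inr (_, i) => depth h i + 1

section Step

variable {P : Type}

/-- One round: the pair `p` is exchanged when `s p = true`. -/
def sw (s : P → Bool) : Equiv.Perm (Bool × P) where
  toFun x := (xor x.1 (s x.2), x.2)
  invFun x := (xor x.1 (s x.2), x.2)
  left_inv x := by simp
  right_inv x := by simp

/-- Act by `g b` on the half `b`. -/
def both (g : Bool → Equiv.Perm P) : Equiv.Perm (Bool × P) := Equiv.prodCongrRight g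

/-- Act on the half `b` only. -/
def inc (b : Bool) : Equiv.Perm P →* Equiv.Perm (Bool × P) where
  toFun σ := both (fun c => if c = b then σ else 1)
  map_one' := by ext x <;> simp [both]
  map_mul' σ τ := by
    ext ⟨c, p⟩
    · simp [both]
    · by_cases h : c = b <;> simp [both, h]

/-- The part of `S` in the half `b`. -/
def half [Fintype P] [DecidableEq P] (b : Bool) (S : Finset (Bool × P)) : Finset P :=
  univ.filter (fun p => (b, p) ∈ S)

end Step

/-- The butterfly network (one pass of the shuffle). -/
def net : (h : ℕ) → Sw h → Equiv.Perm (Cube h)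
  | 0, _ => 1
  | h + 1, ω => both (fun b => net h (tl ω b)) * sw (hd ω)

/-- The first `r` rounds of the butterfly network. -/
def top : (r h : ℕ) → Sw h → Equiv.Perm (Cube h)
  | 0, _, _ => 1
  | _ + 1, 0, _ => 1
  | r + 1, h + 1, ω => both (fun b => top r h (tl ω b)) * sw (hd ω)

/-- Take the coordinates of depth `< r` from `a` and the others from `b`. -/
def mix {ι β : Type} (dp : ι → ℕ) (r : ℕ) (a b : ι → β) : ι → β :=
  fun i => if dp i < r then a i else b i

/-- The number of orbits of `g` that are contained in `E`. -/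
noncomputable def cyc {P : Type} (E : Finset P) (g : Equiv.Perm P) : ℕ :=
  Set.ncard {O : Set P | ∃ x ∈ E, O = {y | g.SameCycle x y} ∧ O ⊆ (E : Set P)}

/-- The Benes network: a butterfly followed by an inverse butterfly. -/
def ben (h : ℕ) (ω ω' : Sw h) : Equiv.Perm (Cube h) := (net h ω')⁻¹ * net h ω

/-- Number of closed loops (of the looping algorithm) made of tagged cards only, at the nodes of
height `j`; `S` is the set of tagged inputs. -/
noncomputable def lev (j : ℕ) : (h : ℕ) → Finset (Cube h) → Sw h → Sw h → ℕ
  | 0, _, _, _ => 0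
  | h + 1, S, ω, ω' =>
      (if j = h + 1 then
        cyc (half false (S.map (sw (hd ω)).toEmbedding) ∩ half true (S.map (sw (hd ω)).toEmbedding))
          ((ben h (tl ω true) (tl ω' true))⁻¹ * ben h (tl ω false) (tl ω' false))
       else 0) +
      ∑ b : Bool, lev j h (half b (S.map (sw (hd ω)).toEmbedding)) (tl ω b) (tl ω' b)

/-- Number of tagged sites lying in a maximal dense sub-cube. -/
noncomputable def bad (ρ : ℝ) : (h : ℕ) → Finset (Cube h) → ℕ
  | 0, _ => 0
  | h + 1, S =>
      if 2 ≤ S.card ∧ ρ * 2 ^ (h + 1) < (S.card : ℝ) then S.card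
      else ∑ b : Bool, bad ρ h (half b S)

/-- A configuration space: `Perm α` acts on `X`, a configuration occupies a set of sites, and
exchanging two empty sites does nothing. -/
structure Cfg (α X : Type) [DecidableEq α] where
  act : Equiv.Perm α →* Equiv.Perm X
  occ : X → Finset α
  occ_act : ∀ σ x, occ (act σ x) = (occ x).map σ.toEmbedding
  fix : ∀ u v x, u ∉ occ x → v ∉ occ x → act (Equiv.swap u v) x = x

/-- Average of matrices. -/
noncomputable def avgM {ι X : Type} [Fintype ι] (f : ι → Matrix X X ℝ) : Matrix X X ℝ :=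
  (Fintype.card ι : ℝ)⁻¹ • ∑ i, f i

section Ops

variable {α X : Type} [Fintype α] [DecidableEq α] [Fintype X] [DecidableEq X]

/-- The matrix of a permutation of sites acting on functions of configurations:
`(Lm act σ *ᵥ f) x = f (act σ⁻¹ x)`. -/
def Lm (act : Equiv.Perm α →* Equiv.Perm X) : Equiv.Perm α →* Matrix X X ℝ :=
  (Matrix.permMatrixHom).comp act

/-- The normalised Laplacian of the complete graph: `(2 n)⁻¹ ∑_{u,v} (1 - (u v))`. -/
noncomputable def kap (act : Equiv.Perm α →* Equiv.Perm X) : Matrix X X ℝ :=
  (2 * (Fintype.card α : ℝ))⁻¹ • ∑ u : α, ∑ v : α, (1 - Lm act (Equiv.swap u v))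

end Ops

/-- The transition matrix of one pass. -/
noncomputable def Tm {X : Type} [Fintype X] [DecidableEq X] (h : ℕ)
    (act : Equiv.Perm (Cube h) →* Equiv.Perm X) : Matrix X X ℝ :=
  avgM (fun ω : Sw h => Lm act (net h ω))

/-- The action of site permutations on injective tuples. -/
def tupAct (I α : Type) : Equiv.Perm α →* Equiv.Perm (I ↪ α) where
  toFun σ := Equiv.embeddingCongr (Equiv.refl I) σ
  map_one' := by ext x i; simp
  map_mul' σ τ := by ext x i; simp

/-- Injective tuples as a configuration space. -/
def tupCfg (I α : Type) [Fintype I] [DecidableEq α] : Cfg α (I ↪ α) where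
  act := tupAct I α
  occ x := univ.map x
  occ_act σ x := by ext a; simp [tupAct, Equiv.eq_symm_apply]
  fix u v x hu hv := by
    ext i
    have h1 : x i ≠ u := fun h => hu (by simp [← h])
    have h2 : x i ≠ v := fun h => hv (by simp [← h])
    simp [tupAct, Equiv.swap_apply_of_ne_of_ne h1 h2]

/-- Left multiplication. -/
def leftAct (α : Type) : Equiv.Perm α →* Equiv.Perm (Equiv.Perm α) :=
  MulAction.toPermHom (Equiv.Perm α) (Equiv.Perm α)

/-- Weighted Motzkin path numbers. -/
noncomputable def motz (ρ : ℝ) : ℕ → ℕ → ℝ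
  | 0, h => if h = 0 then 1 else 0
  | r + 1, h => motz ρ r (h + 1) + (4 * h + 2 * ρ) * motz ρ r h
      + ρ * (4 * h * (2 * h - 1)) * motz ρ r (h - 1)

/-- Lower bound for the Laplacian on level `k`. -/
noncomputable def kapLow (n k : ℕ) : ℝ := max ((k : ℝ) / 2) ((k : ℝ) * ((n : ℝ) - k + 1) / n)

end Crest.Agent.R155
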