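import Crest.Agent.R155.Basic

open Finset Matrix
open scoped BigOperators

namespace Crest.Agent.R155

namespace LD

/-- The Polya-urn product. -/
noncomputable def G (v : ℝ) (j : ℕ) : ℝ := ∏ i ∈ range j, (1 + v * (i : ℝ))

theorem G_succ (v : ℝ) (j : ℕ) : G v (j + 1) = G v j * (1 + v * (j : ℝ)) := by
  simp [G, Finset.prod_range_succ]

theorem one_le_G {v : ℝ} (hv : 0 ≤ v) (j : ℕ) : 1 ≤ G v j := by
  induction j with
  | zero => simp [G]
  | succ j ih =>
    rw [G_succ]
    have : (0 : ℝ) ≤ v * j := by positivity
    nlinarith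

theorem G_nonneg {v : ℝ} (hv : 0 ≤ v) (j : ℕ) : 0 ≤ G v j :=
  le_trans zero_le_one (one_le_G hv j)

theorem G_add (v : ℝ) (a j : ℕ) :
    G v (a + j) = G v a * ∏ i ∈ range j, (1 + v * ((a + i : ℕ) : ℝ)) := by
  simp [G, Finset.prod_range_add]

theorem G_sq_le {v : ℝ} (hv : 0 ≤ v) (e : ℕ) : G (2 * v) e * G (2 * v) e ≤ G v (e + e) := by
  induction e with
  | zero => simp [G]
  | succ e ih =>
    have h1 : e + 1 + (e + 1) = (e + e) + 1 + 1 := by ring
    rw [h1, G_succ, G_succ, G_succ]
    push_cast
    have h0 : (0 : ℝ) ≤ v * e := by positivity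
    have h2 : 0 ≤ G (2 * v) e := G_nonneg (by positivity) e
    have h3 : (1 + 2 * v * e) * (1 + 2 * v * e) ≤ (1 + v * (e + e)) * (1 + v * (e + e + 1)) := by
      nlinarith [mul_nonneg hv h0]
    calc G (2 * v) e * (1 + 2 * v * e) * (G (2 * v) e * (1 + 2 * v * e))
        = (G (2 * v) e * G (2 * v) e) * ((1 + 2 * v * e) * (1 + 2 * v * e)) := by ring
      _ ≤ G v (e + e) * ((1 + v * (e + e)) * (1 + v * (e + e + 1))) :=
          mul_le_mul ih h3 (by positivity) (G_nonneg hv _)
      _ = _ := by ring

variable {P : Type} [Fintype P] [DecidableEq P]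

/-- Flip the coin at `p`. -/
def flip (p : P) : (P → Bool) ≃ (P → Bool) where
  toFun s := Function.update s p (!s p)
  invFun s := Function.update s p (!s p)
  left_inv s := by
    funext q
    by_cases h : q = p
    · subst h; simp
    · simp [Function.update_of_ne h]
  right_inv s := by
    funext q
    by_cases h : q = p
    · subst h; simp
    · simp [Function.update_of_ne h]

omit [Fintype P] in
theorem flip_self (p : P) (s : P → Bool) : flip p s p = !s p := by simp [flip]

omit [Fintype P] in
theorem flip_ne (p q : P) (h : q ≠ p) (s : P → Bool) : flip p s q = s q := by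
  simp [flip, Function.update_of_ne h]

theorem urn (v : ℝ) (c : P → Bool) (a0 a1 : ℕ) (F : Finset P) :
    𝔼 s : P → Bool, G (2 * v) (a0 + (F.filter (fun q => s q = c q)).card)
        * G (2 * v) (a1 + (F.filter (fun q => ¬ s q = c q)).card)
      = G (2 * v) a0 * G (2 * v) a1 * ∏ i ∈ range F.card, (1 + v * ((a0 + a1 + i : ℕ) : ℝ)) := by
  induction F using Finset.induction_on with
  | empty => simp
  | insert p F hp ih =>
    rw [Finset.card_insert_of_notMem hp, Finset.prod_range_succ, ← mul_assoc, ← ih,
      Finset.expect_mul]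
    set T : (P → Bool) → ℝ := fun s =>
      G (2 * v) (a0 + ((insert p F).filter (fun q => s q = c q)).card)
        * G (2 * v) (a1 + ((insert p F).filter (fun q => ¬ s q = c q)).card) with hT
    have h1 : 𝔼 s, T s = 𝔼 s, T (flip p s) :=
      (Fintype.expect_equiv (flip p) _ _ (fun _ => rfl)).symm
    have h2 : 𝔼 s, T s = 𝔼 s, (T s + T (flip p s)) / 2 := by
      rw [← Finset.expect_div, Finset.expect_add_distrib, ← h1]; ring
    rw [h2]
    refine Finset.expect_congr rfl (fun s _ => ?_)
    have e0 : F.filter (fun q => flip p s q = c q) = F.filter (fun q => s q = c q) :=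
      Finset.filter_congr (fun q hq => by rw [flip_ne p q (fun h => hp (h ▸ hq))])
    have e1 : F.filter (fun q => ¬ flip p s q = c q) = F.filter (fun q => ¬ s q = c q) :=
      Finset.filter_congr (fun q hq => by rw [flip_ne p q (fun h => hp (h ▸ hq))])
    have hn0 : p ∉ F.filter (fun q => s q = c q) := fun h => hp (Finset.mem_filter.1 h).1
    have hn1 : p ∉ F.filter (fun q => ¬ s q = c q) := fun h => hp (Finset.mem_filter.1 h).1
    have hc : ((F.filter (fun q => s q = c q)).card : ℝ)
        + ((F.filter (fun q => ¬ s q = c q)).card : ℝ) = F.card := by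
      exact_mod_cast Finset.card_filter_add_card_filter_not (s := F) (fun q => s q = c q)
    simp only [hT, Finset.filter_insert, e0, e1, flip_self]
    by_cases hs : s p = c p
    · have hs' : ¬ (!s p) = c p := by rw [hs]; simp
      simp only [hs, hs', if_true, if_false, not_true, not_false_iff,
        Finset.card_insert_of_notMem hn0, Finset.card_insert_of_notMem hn1, ← add_assoc, G_succ,
        Bool.not_eq_self]
      push_cast
      rw [← hc]; ring
    · have hs' : (!s p) = c p := by
        cases h1 : s p <;> cases h2 : c p <;> simp_all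
      simp only [hs, hs', if_true, if_false, not_true, not_false_iff,
        Finset.card_insert_of_notMem hn0, Finset.card_insert_of_notMem hn1, ← add_assoc, G_succ]
      push_cast
      rw [← hc]; ring

theorem mem_half_map_sw (b : Bool) (S : Finset (Bool × P)) (s : P → Bool) (p : P) :
    p ∈ half b (S.map (sw s).toEmbedding) ↔ (xor b (s p), p) ∈ S := by
  rw [mem_half, Finset.mem_map_equiv]
  rfl

theorem split_le {v : ℝ} (hv : 0 ≤ v) (S : Finset (Bool × P)) :
    𝔼 s : P → Bool, G (2 * v) (half false (S.map (sw s).toEmbedding)).card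
        * G (2 * v) (half true (S.map (sw s).toEmbedding)).card ≤ G v S.card := by
  classical
  set D : Finset P := half false S ∩ half true S with hD
  set F : Finset P := (half false S ∪ half true S) \ D with hF
  set c : P → Bool := fun p => decide ((true, p) ∈ S) with hc
  have hdisj : Disjoint D F := Finset.disjoint_sdiff
  have h0 : ∀ s : P → Bool, (half false (S.map (sw s).toEmbedding)).card
      = D.card + (F.filter (fun q => s q = c q)).card := by
    intro s
    rw [← Finset.card_union_of_disjoint (hdisj.mono_right (Finset.filter_subset _ _))]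
    congr 1
    ext p
    rw [mem_half_map_sw]
    simp only [hD, hF, hc, Finset.mem_union, Finset.mem_inter, Finset.mem_filter,
      Finset.mem_sdiff, mem_half]
    cases s p <;> by_cases h1 : (true, p) ∈ S <;> by_cases h2 : (false, p) ∈ S <;> simp [h1, h2]
  have h1 : ∀ s : P → Bool, (half true (S.map (sw s).toEmbedding)).card
      = D.card + (F.filter (fun q => ¬ s q = c q)).card := by
    intro s
    rw [← Finset.card_union_of_disjoint (hdisj.mono_right (Finset.filter_subset _ _))]
    congr 1
    ext p
    rw [mem_half_map_sw]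
    simp only [hD, hF, hc, Finset.mem_union, Finset.mem_inter, Finset.mem_filter,
      Finset.mem_sdiff, mem_half]
    cases s p <;> by_cases h1 : (true, p) ∈ S <;> by_cases h2 : (false, p) ∈ S <;> simp [h1, h2]
  have hS : S.card = D.card + D.card + F.card := by
    have a1 := card_half_add S
    have a2 := Finset.card_union_add_card_inter (half false S) (half true S)
    have a3 : D ⊆ half false S ∪ half true S := Finset.inter_subset_union
    have a4 := Finset.card_sdiff_add_card_eq_card a3
    rw [← hF] at a4
    rw [← hD] at a2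
    omega
  simp only [h0, h1]
  rw [urn, hS, G_add]
  refine mul_le_mul_of_nonneg_right (G_sq_le hv _) ?_
  exact Finset.prod_nonneg (fun i _ => by positivity)

theorem dense_le {v w : ℝ} (hv : 0 ≤ v) (hw : 0 ≤ w) (j : ℕ) (hj : 2 ≤ j)
    (hwv : 2 * w ≤ v * j) : (1 + w) ^ ((j : ℝ) / 3) ≤ G v j := by
  have h1 : j = (j - j / 2) + j / 2 := by omega
  have h2 : (j : ℝ) / 3 ≤ ((j / 2 : ℕ) : ℝ) := by
    have : j ≤ 3 * (j / 2) := by omega
    have : (j : ℝ) ≤ 3 * ((j / 2 : ℕ) : ℝ) := by exact_mod_cast this
    linarith
  calc (1 + w) ^ ((j : ℝ) / 3) ≤ (1 + w) ^ (((j / 2 : ℕ) : ℝ)) :=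
        Real.rpow_le_rpow_of_exponent_le (by linarith) h2
    _ = ∏ _i ∈ range (j / 2), (1 + w) := by simp [Real.rpow_natCast]
    _ ≤ ∏ i ∈ range (j / 2), (1 + v * (((j - j / 2) + i : ℕ) : ℝ)) := by
        refine Finset.prod_le_prod (fun i _ => by linarith) (fun i _ => ?_)
        have : j ≤ 2 * ((j - j / 2) + i) := by omega
        have : (j : ℝ) ≤ 2 * (((j - j / 2) + i : ℕ) : ℝ) := by exact_mod_cast this
        nlinarith
    _ ≤ G v (j - j / 2) * ∏ i ∈ range (j / 2), (1 + v * (((j - j / 2) + i : ℕ) : ℝ)) :=
        le_mul_of_one_le_left (Finset.prod_nonneg (fun i _ => by positivity)) (one_le_G hv _)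
    _ = G v j := by rw [← G_add, ← h1]

end LD

open LD in
/-- Exponential moment of the number of tagged cards ending in dense sub-cubes. -/
theorem bad_exp_moment (ρ u : ℝ) (hρ : 0 < ρ) (hu : 0 ≤ u) (h : ℕ) (S : Finset (Cube h)) :
    𝔼 ω : Sw h, (1 + u * ρ / 2) ^ ((bad ρ h (S.map (net h ω).toEmbedding) : ℝ) / 3)
      ≤ ∏ i ∈ range S.card, (1 + u / 2 ^ h * (i : ℝ)) := by
  change _ ≤ G (u / 2 ^ h) S.card
  have hb : 0 < 1 + u * ρ / 2 := by positivity
  induction h with
  | zero =>
    have : ∀ T : Finset (Cube 0), bad ρ 0 T = 0 := fun _ => rfl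
    simp only [this, Nat.cast_zero, zero_div, Real.rpow_zero]
    rw [Finset.expect_const Finset.univ_nonempty]
    exact one_le_G (by positivity) _
  | succ h ih =>
    have hv : (0 : ℝ) ≤ u / 2 ^ (h + 1) := by positivity
    by_cases hd' : 2 ≤ S.card ∧ ρ * 2 ^ (h + 1) < (S.card : ℝ)
    · have : ∀ ω : Sw (h + 1), bad ρ (h + 1) (S.map (net (h + 1) ω).toEmbedding) = S.card := by
        intro ω
        rw [bad, Finset.card_map, if_pos hd']
      simp only [this]
      rw [Finset.expect_const Finset.univ_nonempty]
      refine dense_le hv (by positivity) _ hd'.1 ?_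
      have h2 : (0 : ℝ) < 2 ^ (h + 1) := by positivity
      rw [div_mul_eq_mul_div, le_div_iff₀ h2]
      nlinarith [mul_le_mul_of_nonneg_left hd'.2.le hu]
    · set A : (Cube h → Bool) → Bool → Finset (Cube h) :=
        fun s b => half b (Finset.map (sw s).toEmbedding (S : Finset (Bool × Cube h))) with hA
      have key : ∀ ω : Sw (h + 1), bad ρ (h + 1) (S.map (net (h + 1) ω).toEmbedding)
          = bad ρ h ((A (hd ω) false).map (net h (tl ω false)).toEmbedding)
            + bad ρ h ((A (hd ω) true).map (net h (tl ω true)).toEmbedding) := by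
        intro ω
        rw [bad, Finset.card_map, if_neg hd', Fintype.sum_bool, add_comm]
        have e : S.map (net (h + 1) ω).toEmbedding
            = Finset.map (both (fun b => net h (tl ω b))).toEmbedding
              (Finset.map (sw (hd ω)).toEmbedding (S : Finset (Bool × Cube h))) := by
          rw [Finset.map_map]; rfl
        rw [e, half_map_both, half_map_both]
      have h1 : 𝔼 ω : Sw (h + 1),
          (1 + u * ρ / 2) ^ ((bad ρ (h + 1) (S.map (net (h + 1) ω).toEmbedding) : ℝ) / 3)
          = 𝔼 s : Cube h → Bool, 𝔼 a : Sw h, 𝔼 b : Sw h,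
            (1 + u * ρ / 2) ^ ((bad ρ h ((A s false).map (net h a).toEmbedding) : ℝ) / 3)
            * (1 + u * ρ / 2) ^ ((bad ρ h ((A s true).map (net h b).toEmbedding) : ℝ) / 3) := by
        rw [← expect_sw_succ (fun s a b =>
          (1 + u * ρ / 2) ^ ((bad ρ h ((A s false).map (net h a).toEmbedding) : ℝ) / 3)
            * (1 + u * ρ / 2) ^ ((bad ρ h ((A s true).map (net h b).toEmbedding) : ℝ) / 3))]
        refine Finset.expect_congr rfl (fun ω _ => ?_)
        rw [key, Nat.cast_add, add_div, Real.rpow_add hb]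
      rw [h1]
      refine le_trans ?_ (split_le hv (S : Finset (Bool × Cube h)))
      refine Finset.expect_le_expect (fun s _ => ?_)
      have e2 : 2 * (u / 2 ^ (h + 1)) = u / 2 ^ h := by
        rw [pow_succ]; field_simp
      rw [e2]
      simp only [← Finset.mul_expect, ← Finset.expect_mul]
      refine mul_le_mul (ih _) (ih _) ?_ (G_nonneg (by positivity) _)
      exact Finset.expect_nonneg (fun b _ => by positivity)

end Crest.Agent.R155
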