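import Mathlib
import Crest.Prelude.Def_Shuffle

/-!
The shuffle as a random permutation: one step, several steps, and the law of the arrangement.
-/

open Finset
open scoped BigOperators
open Crest.ProbabilityR.Shuffle Crest.FinProb

namespace Crest.Agent.R155

theorem stepPos_injective (m : ℕ) (c : Fin m → Bool) : Function.Injective (stepPos m c) := by
  intro x y h
  have hx := x.isLt
  have hy := y.isLt
  have hm : 0 < m := by omega
  have h1 := congrArg Fin.val h
  simp only [stepPos] at h1
  have h2 : x.val % m = y.val % m := by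
    split_ifs at h1 <;> omega
  have h3 : (⟨x.val % m, Nat.mod_lt _ hm⟩ : Fin m) = ⟨y.val % m, Nat.mod_lt _ hm⟩ := Fin.ext h2
  rw [h3, h2] at h1
  have h4 : decide (m ≤ x.val) = decide (m ≤ y.val) := by
    generalize c ⟨y.val % m, Nat.mod_lt _ hm⟩ = b at h1
    generalize decide (m ≤ x.val) = a1 at h1
    generalize decide (m ≤ y.val) = a2 at h1
    cases a1 <;> cases a2 <;> cases b <;> simp_all
  have h5 : m ≤ x.val ↔ m ≤ y.val := by simpa using h4
  apply Fin.ext
  by_cases hxm : m ≤ x.val
  · have hym := h5.1 hxm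
    rw [Nat.mod_eq_sub_mod hxm, Nat.mod_eq_sub_mod hym, Nat.mod_eq_of_lt (by omega),
      Nat.mod_eq_of_lt (by omega)] at h2
    omega
  · have hym : ¬ m ≤ y.val := fun h => hxm (h5.2 h)
    rw [Nat.mod_eq_of_lt (by omega), Nat.mod_eq_of_lt (by omega)] at h2
    exact h2

/-- One shuffle as a permutation. -/
noncomputable def stepP (m : ℕ) (c : Fin m → Bool) : Equiv.Perm (Fin (2 * m)) :=
  Equiv.ofBijective (stepPos m c) (Finite.injective_iff_bijective.1 (stepPos_injective m c))

/-- Several shuffles as a permutation. -/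
noncomputable def iterP (m : ℕ) : (t : ℕ) → (Fin t → Fin m → Bool) → Equiv.Perm (Fin (2 * m))
  | 0, _ => 1
  | t + 1, cs => stepP m (cs (Fin.last t)) * iterP m t (fun i => cs i.castSucc)

theorem coe_iterP (m t : ℕ) (cs : Fin t → Fin m → Bool) : ⇑(iterP m t cs) = iterPos m t cs := by
  induction t with
  | zero => rfl
  | succ t ih =>
    funext x
    simp only [iterP, iterPos, Equiv.Perm.coe_mul, Function.comp_apply, ih]
    rfl

/-- The law of the arrangement after `t` shuffles. -/
noncomputable def law (m t : ℕ) (g : Equiv.Perm (Fin (2 * m))) : ℝ :=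
  𝔼 cs : Fin t → Fin m → Bool, if iterP m t cs = g then (1 : ℝ) else 0

theorem uniformProb_eq_law (m t : ℕ) (g : Equiv.Perm (Fin (2 * m))) :
    uniformProb {cs : Fin t → Fin m → Bool | iterPos m t cs = ⇑g} = law m t g := by
  classical
  unfold uniformProb law
  rw [Finset.expect_eq_sum_div_card, Finset.sum_boole, Finset.card_univ]
  congr 3
  ext cs
  simp only [Set.mem_ofPred_eq, ← coe_iterP, DFunLike.coe_fn_eq]

theorem tv_eq (m t : ℕ) : tvFromUniform m t
    = (1 / 2) * ∑ g : Equiv.Perm (Fin (2 * m)), |law m t g - 1 / ((2 * m).factorial : ℝ)| := by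
  simp only [tvFromUniform, uniformProb_eq_law]

theorem sum_law (m t : ℕ) : ∑ g, law m t g = 1 := by
  unfold law
  rw [← Finset.expect_sum_comm]
  simp

theorem law_eq_zero (m t : ℕ) (g : Equiv.Perm (Fin (2 * m)))
    (hg : g ∉ (univ : Finset (Fin t → Fin m → Bool)).image (iterP m t)) : law m t g = 0 := by
  unfold law
  refine Finset.expect_eq_zero (fun cs _ => ?_)
  rw [if_neg]
  intro h
  exact hg (Finset.mem_image.2 ⟨cs, Finset.mem_univ _, h⟩)

theorem tv_lower (m t : ℕ) :
    1 - (2 : ℝ) ^ (m * t) / ((2 * m).factorial : ℝ) ≤ tvFromUniform m t := by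
  classical
  rw [tv_eq]
  set A := (univ : Finset (Fin t → Fin m → Bool)).image (iterP m t) with hA
  set q : ℝ := 1 / ((2 * m).factorial : ℝ) with hq
  have hN : (0 : ℝ) < ((2 * m).factorial : ℝ) := by exact_mod_cast Nat.factorial_pos _
  have hq0 : 0 ≤ q := by positivity
  have hcard : (A.card : ℝ) ≤ (2 : ℝ) ^ (m * t) := by
    have : A.card ≤ 2 ^ (m * t) := by
      refine Finset.card_image_le.trans ?_
      simp [pow_mul]
    exact_mod_cast this
  have h1 : ∑ g ∈ A, law m t g = 1 := by
    rw [← sum_law m t]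
    exact Finset.sum_subset (Finset.subset_univ _) (fun g _ hg => law_eq_zero m t g hg)
  have h2 : ∑ g ∈ A, (law m t g - q) ≤ ∑ g ∈ A, |law m t g - q| :=
    Finset.sum_le_sum (fun g _ => le_abs_self _)
  have h3 : ∑ g ∈ Aᶜ, |law m t g - q| = (Aᶜ.card : ℝ) * q := by
    rw [Finset.sum_congr rfl (g := fun _ => q)]
    · simp
    · intro g hg
      rw [law_eq_zero m t g (Finset.mem_compl.1 hg), zero_sub, abs_neg, abs_of_nonneg hq0]
  have h4 : (A.card : ℝ) + (Aᶜ.card : ℝ) = ((2 * m).factorial : ℝ) := by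
    have := Finset.card_add_card_compl A
    rw [Fintype.card_perm, Fintype.card_fin] at this
    exact_mod_cast this
  have h5 : ((2 * m).factorial : ℝ) * q = 1 := by rw [hq]; field_simp
  rw [← Finset.sum_add_sum_compl A, h3]
  rw [Finset.sum_sub_distrib, h1, Finset.sum_const, nsmul_eq_mul] at h2
  have h6 : (2 : ℝ) ^ (m * t) / ((2 * m).factorial : ℝ) = (2 : ℝ) ^ (m * t) * q := by
    rw [hq]; ring
  rw [h6]
  have h7 := mul_le_mul_of_nonneg_right hcard hq0
  have h8 : (Aᶜ.card : ℝ) * q = 1 - A.card * q := by rw [← h5, ← h4]; ring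
  linarith

/-- The one-step averaging operator. -/
noncomputable def Sop (m : ℕ) (f : Equiv.Perm (Fin (2 * m)) → ℝ) : Equiv.Perm (Fin (2 * m)) → ℝ :=
  fun g => 𝔼 c : Fin m → Bool, f (stepP m c * g)

theorem expect_iterP (m t : ℕ) (f : Equiv.Perm (Fin (2 * m)) → ℝ) (g : Equiv.Perm (Fin (2 * m))) :
    𝔼 cs : Fin t → Fin m → Bool, f (iterP m t cs * g) = (Sop m)^[t] f g := by
  induction t generalizing f with
  | zero => simp [iterP]
  | succ t ih =>
    rw [Function.iterate_succ_apply, ← ih]
    rw [Fintype.expect_equiv (Fin.snocEquiv (fun _ => Fin m → Bool)).symm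
      (fun cs => f (iterP m (t + 1) cs * g))
      (fun p => f (stepP m p.1 * (iterP m t p.2 * g))) (fun cs => ?_)]
    · rw [← Finset.univ_product_univ, Finset.expect_product, Finset.expect_comm]
      rfl
    · simp only [iterP, mul_assoc]
      rfl

end Crest.Agent.R155
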