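import Crest.Agent.R155.Basic
import Crest.Agent.R155.ThorpAux
import Crest.Prelude.Def_Shuffle

open Finset Matrix
open scoped BigOperators
open Crest.ProbabilityR.Shuffle

namespace Crest.Agent.R155

namespace Thorp

/-- The number written by a point of the cube, first coordinate most significant. -/
def val : (h : ℕ) → Cube h → ℕ
  | 0, _ => 0
  | h + 1, x => x.1.toNat * 2 ^ h + val h x.2

theorem val_lt : ∀ (h : ℕ) (p : Cube h), val h p < 2 ^ h
  | 0, _ => by simp [val]
  | h + 1, x => by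
    have h1 := val_lt h x.2
    have h2 : x.1.toNat ≤ 1 := Bool.toNat_le _
    have h3 : x.1.toNat * 2 ^ h ≤ 1 * 2 ^ h := Nat.mul_le_mul_right _ h2
    simp only [val, pow_succ]
    omega

theorem val_inj : ∀ (h : ℕ) (p q : Cube h), val h p = val h q → p = q
  | 0, _, _ => fun _ => rfl
  | h + 1, (b, p), (c, q) => by
    intro e
    have h1 := val_lt h p
    have h2 := val_lt h q
    simp only [val] at e
    have : b = c ∧ val h p = val h q := by
      cases b <;> cases c <;> simp at e ⊢ <;> omega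
    rw [this.1, val_inj h p q this.2]

/-- The cube as the set of positions. -/
noncomputable def cubeEquiv (d : ℕ) : Cube (d + 1) ≃ Fin (2 * 2 ^ d) :=
  Equiv.ofBijective (fun p => ⟨val (d + 1) p, by
      have := val_lt (d + 1) p
      rw [pow_succ] at this; omega⟩)
    ((Fintype.bijective_iff_injective_and_card _).2
      ⟨fun p q h => val_inj _ p q (congrArg Fin.val h), by
        rw [card_cube, Fintype.card_fin, pow_succ]; ring⟩)

theorem cubeEquiv_val (d : ℕ) (p : Cube (d + 1)) : (cubeEquiv d p).val = val (d + 1) p := rfl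

/-- One step on natural numbers. -/
def stepN (m : ℕ) (c : ℕ → Bool) (x : ℕ) : ℕ :=
  2 * (x % m) + (xor (decide (m ≤ x)) (c (x % m))).toNat

/-- Several steps on natural numbers. -/
def iterN (m : ℕ) (cs : ℕ → ℕ → Bool) : ℕ → ℕ → ℕ
  | 0, x => x
  | t + 1, x => stepN m (cs t) (iterN m cs t x)

theorem iterN_succ' (m : ℕ) (cs : ℕ → ℕ → Bool) (t x : ℕ) :
    iterN m cs (t + 1) x = iterN m (fun k => cs (k + 1)) t (stepN m (cs 0) x) := by
  induction t with
  | zero => rfl
  | succ t ih => rw [iterN, ih]; rfl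

theorem iterPos_val (m t : ℕ) (cs : Fin t → Fin m → Bool) (cs' : ℕ → ℕ → Bool)
    (h : ∀ (k : Fin t) (u : Fin m), cs' k.val u.val = cs k u) (x : Fin (2 * m)) :
    (iterPos m t cs x).val = iterN m cs' t x.val := by
  induction t with
  | zero => rfl
  | succ t ih =>
    rw [iterPos, iterN, ← ih (fun i => cs i.castSucc) (fun k u => h k.castSucc u)]
    simp only [stepPos, stepN]
    have hb : ∀ b : Bool, (if b = true then 1 else 0) = b.toNat := by
      intro b; cases b <;> rfl
    rw [hb, ← h (Fin.last t)]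
    rfl

/-- The coin used by a switch. -/
def phi : (h i t : ℕ) → SwIdx h → ℕ × ℕ
  | 0, _, _, _ => (0, 0)
  | h + 1, i, t, Sum.inl p => (0, val h p * 2 ^ i + t)
  | h + 1, i, t, Sum.inr (b, idx) =>
      ((phi h (i + 1) (2 * t + b.toNat) idx).1 + 1, (phi h (i + 1) (2 * t + b.toNat) idx).2)

theorem two_mul_add_lt {i t : ℕ} (ht : t < 2 ^ i) (b : Bool) : 2 * t + b.toNat < 2 ^ (i + 1) := by
  have := Bool.toNat_le b
  rw [pow_succ]; omega

theorem mul_add_lt {h i v t : ℕ} (hv : v < 2 ^ h) (ht : t < 2 ^ i) :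
    v * 2 ^ i + t < 2 ^ (h + i) := by
  have : (v + 1) * 2 ^ i ≤ 2 ^ h * 2 ^ i := Nat.mul_le_mul_right _ hv
  rw [pow_add]
  rw [add_mul, one_mul] at this
  omega

theorem phi_lt (d : ℕ) : ∀ (h i t : ℕ), h + i = d + 1 → t < 2 ^ i → ∀ idx : SwIdx h,
    (phi h i t idx).1 < h ∧ (phi h i t idx).2 < 2 ^ d
  | 0, _, _, _, _, idx => Empty.elim idx
  | h + 1, i, t, hi, ht, Sum.inl p => by
    refine ⟨Nat.succ_pos _, ?_⟩
    have : d = h + i := by omega
    rw [this]
    exact mul_add_lt (val_lt h p) ht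
  | h + 1, i, t, hi, ht, Sum.inr (b, idx) => by
    have := phi_lt d h (i + 1) (2 * t + b.toNat) (by omega) (two_mul_add_lt ht b) idx
    exact ⟨Nat.succ_lt_succ this.1, this.2⟩

theorem phi_inj : ∀ (h i t t' : ℕ), t < 2 ^ i → t' < 2 ^ i → ∀ idx idx' : SwIdx h,
    phi h i t idx = phi h i t' idx' → t = t' ∧ idx = idx'
  | 0, _, _, _, _, _, idx, _, _ => Empty.elim idx
  | h + 1, i, t, t', ht, ht', Sum.inl p, Sum.inl p', e => by
    simp only [phi, Prod.mk.injEq, true_and] at e
    have hpos : 0 < 2 ^ i := by positivity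
    have e1 := congrArg (· % 2 ^ i) e
    simp only [Nat.mul_add_mod_self_right, Nat.mod_eq_of_lt ht, Nat.mod_eq_of_lt ht'] at e1
    subst e1
    have e2 : val h p = val h p' := Nat.eq_of_mul_eq_mul_right hpos (by omega)
    rw [val_inj h p p' e2]
    exact ⟨rfl, rfl⟩
  | h + 1, i, t, t', _, _, Sum.inl p, Sum.inr (b', idx'), e => by
    simp [phi] at e
  | h + 1, i, t, t', _, _, Sum.inr (b, idx), Sum.inl p', e => by
    simp [phi] at e
  | h + 1, i, t, t', ht, ht', Sum.inr (b, idx), Sum.inr (b', idx'), e => by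
    simp only [phi, Prod.mk.injEq, add_left_inj] at e
    have := phi_inj h (i + 1) _ _ (two_mul_add_lt ht b) (two_mul_add_lt ht' b') idx idx'
      (Prod.ext e.1 e.2)
    have h2 : t = t' ∧ b = b' := by
      have h3 := this.1
      cases b <;> cases b' <;> simp at h3 ⊢ <;> omega
    rw [h2.1, h2.2, this.2]
    exact ⟨rfl, rfl⟩

theorem iterN_eq_net (d : ℕ) : ∀ (h i t : ℕ), h + i = d + 1 → t < 2 ^ i →
    ∀ (cs : ℕ → ℕ → Bool) (p : Cube h),
    iterN (2 ^ d) cs h (val h p * 2 ^ i + t)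
      = t * 2 ^ h + val h (net h (fun idx => cs (phi h i t idx).1 (phi h i t idx).2) p)
  | 0, _, _, _, _, _, _ => by simp [iterN, val]
  | h + 1, i, t, hi, ht, cs, (b, p) => by
    have hd' : d = h + i := by omega
    have hlt := mul_add_lt (val_lt h p) ht
    rw [← hd'] at hlt
    set y := val h p * 2 ^ i + t with hy
    have hx : val (h + 1) (b, p) * 2 ^ i + t = b.toNat * 2 ^ d + y := by
      simp only [val, hy, hd', pow_add]; ring
    have hmod : (b.toNat * 2 ^ d + y) % 2 ^ d = y := by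
      rw [Nat.mul_add_mod_self_right, Nat.mod_eq_of_lt hlt]
    have hdec : decide (2 ^ d ≤ b.toNat * 2 ^ d + y) = b := by
      cases b
      · simp; omega
      · simp
    set b' := xor b (cs 0 y) with hb'
    have hstep : stepN (2 ^ d) (cs 0) (val (h + 1) (b, p) * 2 ^ i + t)
        = val h p * 2 ^ (i + 1) + (2 * t + b'.toNat) := by
      rw [hx, stepN, hmod, hdec, hy, pow_succ]; ring
    rw [iterN_succ', hstep,
      iterN_eq_net d h (i + 1) (2 * t + b'.toNat) (by omega) (two_mul_add_lt ht b')]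
    have hnet : net (h + 1) (fun idx => cs (phi (h + 1) i t idx).1 (phi (h + 1) i t idx).2) (b, p)
        = (b', net h (fun idx => cs ((phi h (i + 1) (2 * t + b'.toNat) idx).1 + 1)
            (phi h (i + 1) (2 * t + b'.toNat) idx).2) p) := rfl
    rw [hnet]
    simp only [val, pow_succ]
    ring

theorem expect_comp_inj {I J : Type} [Fintype I] [Fintype J] [DecidableEq I] [DecidableEq J]
    (Φ : I → J) (hΦ : Function.Injective Φ) (F : (I → Bool) → ℝ) :
    𝔼 c : J → Bool, F (fun i => c (Φ i)) = 𝔼 ω : I → Bool, F ω := by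
  classical
  let e : I ⊕ ((Set.range Φ)ᶜ : Set J) ≃ J :=
    (Equiv.sumCongr (Equiv.ofInjective Φ hΦ) (Equiv.refl _)).trans
      (Equiv.Set.sumCompl (Set.range Φ))
  let e2 : (J → Bool) ≃ (I → Bool) × (((Set.range Φ)ᶜ : Set J) → Bool) :=
    (Equiv.arrowCongr e.symm (Equiv.refl Bool)).trans (Equiv.sumArrowEquivProdArrow _ _ _)
  rw [Fintype.expect_equiv e2 _ (fun p => F p.1) (fun c => ?_)]
  · rw [← Finset.univ_product_univ, Finset.expect_product]
    simp
  · congr 1

/-- The coin used by a switch of the full network. -/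
def Phi (d : ℕ) (idx : SwIdx (d + 1)) : Fin (d + 1) × Fin (2 ^ d) :=
  (⟨(phi (d + 1) 0 0 idx).1, (phi_lt d (d + 1) 0 0 rfl (by simp) idx).1⟩,
   ⟨(phi (d + 1) 0 0 idx).2, (phi_lt d (d + 1) 0 0 rfl (by simp) idx).2⟩)

theorem Phi_inj (d : ℕ) : Function.Injective (Phi d) := by
  intro a b h
  simp only [Phi, Prod.mk.injEq, Fin.mk.injEq] at h
  exact (phi_inj (d + 1) 0 0 0 (by simp) (by simp) a b (Prod.ext h.1 h.2)).2

theorem iterP_eq (d : ℕ) (cs : Fin (d + 1) → Fin (2 ^ d) → Bool) :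
    iterP (2 ^ d) (d + 1) cs
      = (cubeEquiv d).permCongr (net (d + 1) (fun idx => cs (Phi d idx).1 (Phi d idx).2)) := by
  ext x
  obtain ⟨p, rfl⟩ := (cubeEquiv d).surjective x
  let cs' : ℕ → ℕ → Bool := fun k u =>
    if h : k < d + 1 ∧ u < 2 ^ d then cs ⟨k, h.1⟩ ⟨u, h.2⟩ else false
  have hcs : ∀ (k : Fin (d + 1)) (u : Fin (2 ^ d)), cs' k.val u.val = cs k u := by
    intro k u
    simp only [cs']
    rw [dif_pos ⟨k.isLt, u.isLt⟩]
  rw [coe_iterP, iterPos_val _ _ cs cs' hcs, Equiv.permCongr_apply, Equiv.symm_apply_apply,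
    cubeEquiv_val, cubeEquiv_val]
  have := iterN_eq_net d (d + 1) 0 0 rfl (by simp) cs' p
  simp only [pow_zero, mul_one, add_zero, zero_mul, zero_add] at this
  rw [this]
  congr 3
  funext idx
  exact hcs (Phi d idx).1 (Phi d idx).2

theorem pass_eq (d : ℕ) (f : Equiv.Perm (Fin (2 * 2 ^ d)) → ℝ) (g : Equiv.Perm (Fin (2 * 2 ^ d))) :
    (Sop (2 ^ d))^[d + 1] f g
      = 𝔼 ω : Sw (d + 1), f ((cubeEquiv d).permCongr (net (d + 1) ω) * g) := by
  rw [← expect_iterP, ← expect_comp_inj (Phi d) (Phi_inj d)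
    (fun ω => f ((cubeEquiv d).permCongr (net (d + 1) ω) * g))]
  refine Fintype.expect_equiv (Equiv.curry _ _ _).symm _ _ (fun cs => ?_)
  rw [iterP_eq]
  rfl

theorem Tm_transpose_mulVec (h : ℕ) (f : Equiv.Perm (Cube h) → ℝ) (y : Equiv.Perm (Cube h)) :
    ((Tm h (leftAct (Cube h)))ᵀ *ᵥ f) y = 𝔼 ω : Sw h, f (net h ω * y) := by
  unfold Tm
  rw [avgM_transpose, avgM_mulVec]
  simp only [Lm_transpose, Lm_mulVec, inv_inv]
  rfl

theorem passes_eq (d R : ℕ) (f : Equiv.Perm (Cube (d + 1)) → ℝ)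
    (y : Equiv.Perm (Cube (d + 1))) :
    (Sop (2 ^ d))^[R * (d + 1)] (fun g => f ((cubeEquiv d).permCongr.symm g))
        ((cubeEquiv d).permCongr y)
      = (((Tm (d + 1) (leftAct (Cube (d + 1))))ᵀ ^ R) *ᵥ f) y := by
  induction R generalizing y with
  | zero =>
    simp only [zero_mul, Function.iterate_zero, id, pow_zero, Matrix.one_mulVec,
      Equiv.symm_apply_apply]
  | succ R ih =>
    rw [show (R + 1) * (d + 1) = (d + 1) + R * (d + 1) by ring, Function.iterate_add_apply, pass_eq, pow_succ',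
      ← Matrix.mulVec_mulVec, Tm_transpose_mulVec]
    refine Finset.expect_congr rfl (fun ω _ => ?_)
    have e : (cubeEquiv d).permCongr (net (d + 1) ω) * (cubeEquiv d).permCongr y
        = (cubeEquiv d).permCongr (net (d + 1) ω * y) := by
      ext x
      simp
    rw [← ih, e]

theorem law_eq (d R : ℕ) (x : Equiv.Perm (Cube (d + 1))) :
    law (2 ^ d) (R * (d + 1)) ((cubeEquiv d).permCongr x)
      = ((Tm (d + 1) (leftAct (Cube (d + 1)))) ^ R) x 1 := by
  have h1 := passes_eq d R (fun z => if z = x then 1 else 0) 1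
  rw [← expect_iterP] at h1
  have h2 : (cubeEquiv d).permCongr 1 = 1 := by ext z; simp
  rw [h2, ← Matrix.transpose_pow] at h1
  simp only [mul_one, mulVec, dotProduct, Matrix.transpose_apply, mul_ite, mul_zero,
    Finset.sum_ite_eq', Finset.mem_univ, if_true, Equiv.symm_apply_eq] at h1
  exact h1

theorem Tm_pow_right (h R : ℕ) (x y z : Equiv.Perm (Cube h)) :
    ((Tm h (leftAct (Cube h))) ^ R) (x * z) (y * z) = ((Tm h (leftAct (Cube h))) ^ R) x y := by
  induction R generalizing x y with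
  | zero => simp [Matrix.one_apply]
  | succ R ih =>
    rw [pow_succ, Matrix.mul_apply, Matrix.mul_apply, ← Equiv.sum_comp (Equiv.mulRight z)]
    refine Finset.sum_congr rfl (fun w _ => ?_)
    simp only [Equiv.coe_mulRight, ih]
    congr 1
    unfold Tm
    simp only [avgM_apply, Lm_apply]
    refine Finset.expect_congr rfl (fun ω _ => ?_)
    have : (leftAct (Cube h) (net h ω)⁻¹ (w * z) = y * z)
        ↔ (leftAct (Cube h) (net h ω)⁻¹ w = y) := by
      change ((net h ω)⁻¹ * (w * z) = y * z) ↔ ((net h ω)⁻¹ * w = y)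
      rw [← mul_assoc, mul_left_inj]
    simp only [this]

theorem trace_eq (h R : ℕ) :
    (((Tm h (leftAct (Cube h)))ᵀ) ^ R * (Tm h (leftAct (Cube h))) ^ R).trace
      = (Fintype.card (Equiv.Perm (Cube h)) : ℝ)
        * ∑ x, ((Tm h (leftAct (Cube h))) ^ R) x 1 ^ 2 := by
  rw [← Matrix.transpose_pow]
  simp only [Matrix.trace, Matrix.diag, Matrix.mul_apply, Matrix.transpose_apply]
  rw [Finset.sum_congr rfl
    (g := fun _ => ∑ x, ((Tm h (leftAct (Cube h))) ^ R) x 1 ^ 2) (fun y _ => ?_)]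
  · simp
  · rw [← Equiv.sum_comp (Equiv.mulRight y)]
    refine Finset.sum_congr rfl (fun x _ => ?_)
    have := Tm_pow_right h R x 1 y
    rw [one_mul] at this
    simp only [Equiv.coe_mulRight, this, sq]

theorem l1_le_sqrt {X : Type} [Fintype X] [Nonempty X] (μ : X → ℝ) (hμ : ∑ x, μ x = 1) :
    ∑ x, |μ x - 1 / (Fintype.card X : ℝ)|
      ≤ Real.sqrt ((Fintype.card X : ℝ) * ∑ x, μ x ^ 2 - 1) := by
  have hN : (0 : ℝ) < Fintype.card X := by exact_mod_cast Fintype.card_pos
  apply Real.le_sqrt_of_sq_le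
  have h1 := sq_sum_le_card_mul_sum_sq (s := (univ : Finset X))
    (f := fun x => |μ x - 1 / (Fintype.card X : ℝ)|)
  refine h1.trans (le_of_eq ?_)
  simp only [sq_abs, Finset.card_univ, sub_sq, Finset.sum_add_distrib, Finset.sum_sub_distrib,
    ← Finset.sum_mul, ← Finset.mul_sum, hμ, Finset.sum_const, nsmul_eq_mul]
  field_simp
  ring

end Thorp

open Thorp in
/-- `R` passes of the Thorp shuffle are `R` independent butterfly networks; chi-square bound. -/
theorem tv_le_sqrt_trace (d R : ℕ) :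
    Crest.ProbabilityR.Shuffle.tvFromUniform (2 ^ d) (R * (d + 1))
      ≤ 1 / 2 * Real.sqrt ((((Tm (d + 1) (leftAct (Cube (d + 1))))ᵀ) ^ R
          * (Tm (d + 1) (leftAct (Cube (d + 1)))) ^ R).trace - 1) := by
  rw [tv_eq, trace_eq]
  refine mul_le_mul_of_nonneg_left ?_ (by norm_num)
  have hc : Fintype.card (Equiv.Perm (Cube (d + 1))) = (2 * 2 ^ d).factorial := by
    rw [Fintype.card_congr (cubeEquiv d).permCongr, Fintype.card_perm, Fintype.card_fin]
  rw [← Equiv.sum_comp (cubeEquiv d).permCongr, ← hc]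
  simp only [law_eq]
  refine l1_le_sqrt _ ?_
  simp only [← law_eq]
  rw [Equiv.sum_comp (cubeEquiv d).permCongr (law (2 ^ d) (R * (d + 1))), sum_law]

end Crest.Agent.R155
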