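import Crest.Agent.R155.MainB
import Crest.Agent.R155.Thorp

open Finset Matrix
open scoped BigOperators

namespace Crest.Agent.R155

theorem level_trace (D : ℕ) (A : Finset (Cube D)) (hA : 0 < A.card)
    (Q : Matrix (A ↪ Cube D) (A ↪ Cube D) ℝ) (hQ : Qᵀ = Q) (hQQ : Q * Q = Q)
    (hc : ∀ B, Commute B (kap (tupAct A (Cube D))) → Commute B Q)
    (he : ∀ a : ℝ, 0 ≤ a → ∀ v, Q *ᵥ v = v →
        (Em (tupAct A (Cube D)) (-(a / 2)) *ᵥ v) ⬝ᵥ (Em (tupAct A (Cube D)) (-(a / 2)) *ᵥ v)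
          ≤ Real.exp (-(a * kapLow (Fintype.card (Cube D)) A.card)) * (v ⬝ᵥ v)) :
    (Q * ((Tm D (tupAct A (Cube D)))ᵀ ^ 1600 * Tm D (tupAct A (Cube D)) ^ 1600) * Q).trace
      ≤ (2 ^ 1568 * Real.exp 30) / 2 ^ D * (A.card * (1 / 2) ^ A.card)
        / ((2 ^ D).choose A.card : ℝ) := by
  set k := A.card with hk
  have hk0 : (0 : ℝ) < k := by exact_mod_cast hA
  set x := Real.log (2 ^ D / k) with hxdef
  have hx : Real.exp x * k = 2 ^ D := by
    rw [hxdef, Real.exp_log (by positivity)]; field_simp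
  obtain ⟨w, hw0, hw1, hw2⟩ := level_contraction D A hA x hx
  have hT : Commute (Tm D (tupAct A (Cube D))) Q :=
    hc _ (commute_Tm D _ _ (fun σ => (commute_Lm_kap _ σ).symm)).symm
  have h1 := trace_QMQ_le _ Q hQ hQQ hT w hw0 (fun v hv => hw2 v (fun a ha => he a ha v hv)) 1568 32
  have h2 := (trace_pow_transpose_mul_le (Tm D (tupAct A (Cube D))) 5).trans (trace_benes_le D A)
  have hkn : k ≤ 2 ^ D := (Finset.card_le_univ _).trans (card_cube D).le
  have hch : (0 : ℝ) < ((2 ^ D).choose k : ℝ) := by exact_mod_cast Nat.choose_pos hkn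
  have h3 : (((2 ^ D).choose k : ℕ) : ℝ) ≤ Real.exp ((1 + x) * k) := by
    refine (Nat.choose_le_pow_div k (2 ^ D)).trans ?_
    have h4 := Real.pow_div_factorial_le_exp (k : ℝ) hk0.le k
    push_cast
    rw [← hx, mul_pow, mul_div_assoc, add_mul, one_mul, add_comm, Real.exp_add,
      ← Real.exp_nat_mul, mul_comm (k : ℝ) x]
    exact mul_le_mul_of_nonneg_left h4 (Real.exp_pos _).le
  have h5 : Real.exp (-(k : ℝ)) ≤ (1 / 2) ^ k := by
    rw [show (-(k : ℝ)) = k * (-1) by ring, Real.exp_nat_mul]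
    refine pow_le_pow_left₀ (Real.exp_pos _).le ?_ k
    rw [Real.exp_neg, one_div]
    exact inv_anti₀ (by norm_num) (by have := Real.add_one_le_exp 1; linarith)
  have hW0 : 0 ≤ w ^ 1568 := pow_nonneg hw0 _
  refine h1.trans ((mul_le_mul_of_nonneg_left h2 hW0).trans ?_)
  rw [le_div_iff₀ hch, Fintype.card_coe, ← hk]
  have h6 : Real.exp (-x) = k / 2 ^ D := by
    rw [← hx, Real.exp_neg]; field_simp
  calc w ^ 1568 * Real.exp (24 * k) * ((2 ^ D).choose k : ℝ)
      ≤ w ^ 1568 * Real.exp (24 * k) * Real.exp ((1 + x) * k) :=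
        mul_le_mul_of_nonneg_left h3 (mul_nonneg hW0 (Real.exp_pos _).le)
    _ = w ^ 1568 * Real.exp ((26 + x) * k) * Real.exp (-(k : ℝ)) := by
        rw [mul_assoc, mul_assoc, ← Real.exp_add, ← Real.exp_add]; congr 2; ring
    _ ≤ (2 ^ 1568 * Real.exp 30) * Real.exp (-x) * (1 / 2) ^ k :=
        mul_le_mul hw1 h5 (Real.exp_pos _).le (by positivity)
    _ = _ := by
        rw [h6]; generalize (2 ^ 1568 * Real.exp 30 : ℝ) = K; ring

theorem trace_le (D : ℕ) :
    ((Tm D (leftAct (Cube D)))ᵀ ^ 1600 * Tm D (leftAct (Cube D)) ^ 1600).trace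
      ≤ 1 + (2 ^ 1568 * Real.exp 30) / 2 ^ D * 2 := by
  haveI : Nonempty (Cube D) := by
    rw [← Fintype.card_pos_iff, card_cube]; positivity
  obtain ⟨K, hK⟩ : ∃ K : ℝ, K = (2 ^ 1568 * Real.exp 30) / 2 ^ D := ⟨_, rfl⟩
  have hK0 : 0 ≤ K := by rw [hK]; positivity
  set f : ℕ → ℝ := fun k => if k = 0 then 1 else K * (k * (1 / 2) ^ k) / ((2 ^ D).choose k : ℝ)
    with hf
  refine (trace_le_sum_levels (fun ω : Sw D => net D ω) 1600 (fun A => f A.card) ?_).trans ?_
  · intro A Q hQ hQQ hc he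
    by_cases hA : A.card = 0
    · have hT : Commute (Tm D (tupAct A (Cube D))) Q :=
        hc _ (commute_Tm D _ _ (fun σ => (commute_Lm_kap _ σ).symm)).symm
      have h1 := trace_QMQ_le _ Q hQ hQQ hT 1 zero_le_one
        (fun v _ => by rw [one_mul]; exact avg_Lm_nsq_le _ _ _) 1600 0
      refine h1.trans (le_of_eq ?_)
      simp [hf, hA]
    · simp only [hf, if_neg hA, hK]
      exact level_trace D A (Nat.pos_of_ne_zero hA) Q hQ hQQ hc he
  · rw [← Finset.powerset_univ, Finset.sum_powerset_apply_card, Finset.card_univ, card_cube,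
      Finset.sum_range_succ', ← hK, add_comm]
    refine add_le_add (by simp [hf]) ?_
    have h1 := hasSum_coe_mul_geometric_of_norm_lt_one (r := (1 / 2 : ℝ)) (by norm_num)
    have h2 := sum_le_hasSum (range (2 ^ D + 1)) (fun k _ => by positivity) h1
    rw [Finset.sum_range_succ'] at h2
    calc _ = ∑ k ∈ range (2 ^ D), K * (((k + 1 : ℕ) : ℝ) * (1 / 2) ^ (k + 1)) := by
          refine Finset.sum_congr rfl fun k hk => ?_
          have : (0 : ℝ) < ((2 ^ D).choose (k + 1) : ℝ) := by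
            exact_mod_cast Nat.choose_pos (Finset.mem_range.1 hk)
          simp only [hf, Nat.succ_ne_zero, if_false, nsmul_eq_mul]
          field_simp
      _ ≤ K * 2 := by
          rw [← Finset.mul_sum]
          refine mul_le_mul_of_nonneg_left ?_ hK0
          norm_num at h2 ⊢
          exact h2

theorem tv_tendsto :
    Filter.Tendsto (fun d : ℕ => Crest.ProbabilityR.Shuffle.tvFromUniform (2 ^ d) (1600 * (d + 1)))
      Filter.atTop (nhds 0) := by
  obtain ⟨K, hK⟩ : ∃ K : ℝ, K = 2 ^ 1568 * Real.exp 30 := ⟨_, rfl⟩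
  have h1 : Filter.Tendsto (fun d : ℕ => 1 / 2 * Real.sqrt (K * (1 / 2) ^ d)) Filter.atTop
      (nhds (1 / 2 * Real.sqrt (K * 0))) :=
    (((tendsto_pow_atTop_nhds_zero_of_lt_one (by norm_num) (by norm_num)).const_mul K).sqrt).const_mul _
  rw [mul_zero, Real.sqrt_zero, mul_zero] at h1
  refine squeeze_zero (fun d => ?_) (fun d => ?_) h1
  · unfold Crest.ProbabilityR.Shuffle.tvFromUniform
    positivity
  · refine (tv_le_sqrt_trace d 1600).trans (mul_le_mul_of_nonneg_left (Real.sqrt_le_sqrt ?_)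
      (by norm_num))
    have := trace_le (d + 1)
    rw [← hK] at this
    have h2 : K / 2 ^ (d + 1) * 2 = K * (1 / 2) ^ d := by
      rw [pow_succ, one_div, inv_pow]; field_simp
    linarith

end Crest.Agent.R155
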