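import Crest.Agent.R155.Defs

open Finset Matrix
open scoped BigOperators

namespace Crest.Agent.R155

namespace Spectral

variable {Ω V : Type} [DecidableEq Ω] [AddCommGroup V] [Module ℝ V]
  (ρ : Equiv.Perm Ω →* Module.End ℝ V)

/-- `σ` is supported in `C` -/
def Supp (C : Finset Ω) (σ : Equiv.Perm Ω) : Prop := ∀ a, a ∉ C → σ a = a

omit [DecidableEq Ω] in
theorem Supp.mem_iff {C : Finset Ω} {σ : Equiv.Perm Ω} (h : Supp C σ) (x : Ω) :
    x ∈ C ↔ σ x ∈ C := by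
  constructor
  · intro hx
    by_contra hc
    have := σ.injective (h _ hc)
    exact hc (this.symm ▸ hx)
  · intro hx
    by_contra hc
    exact hc (h x hc ▸ hx)

omit [DecidableEq Ω] in
theorem Supp.mono {B C : Finset Ω} {σ : Equiv.Perm Ω} (h : Supp B σ) (hBC : B ⊆ C) : Supp C σ :=
  fun a ha => h a fun hb => ha (hBC hb)

theorem supp_swap {C : Finset Ω} {x y : Ω} (hx : x ∈ C) (hy : y ∈ C) : Supp C (Equiv.swap x y) :=
  fun _ ha => Equiv.swap_apply_of_ne_of_ne (fun h => ha (h ▸ hx)) fun h => ha (h ▸ hy)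

/-- the sum of the transpositions of `C` -/
noncomputable def Y (C : Finset Ω) (v : V) : V := ∑ x ∈ C, ∑ y ∈ C, ρ (Equiv.swap x y) v

theorem Y_comm {C : Finset Ω} {σ : Equiv.Perm Ω} (h : Supp C σ) (v : V) :
    ρ σ (Y ρ C v) = Y ρ C (ρ σ v) := by
  simp only [Y, map_sum]
  refine sum_equiv σ (fun x => h.mem_iff x) fun x _ => ?_
  refine sum_equiv σ (fun x => h.mem_iff x) fun y _ => ?_
  rw [← Module.End.mul_apply, ← Module.End.mul_apply, ← map_mul, ← map_mul,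
    Equiv.mul_swap_eq_swap_mul]

/-- the eigenspace -/
def eig (W : Submodule ℝ V) (C : Finset Ω) (t : ℝ) (B : Finset Ω) : Submodule ℝ V where
  carrier := {v | v ∈ W ∧ Y ρ C v = t • v ∧ ∀ σ, Supp B σ → ρ σ v = v}
  zero_mem' := ⟨W.zero_mem, by simp [Y], fun _ _ => map_zero _⟩
  add_mem' := fun {a b} ha hb => ⟨W.add_mem ha.1 hb.1, by
    rw [smul_add, ← ha.2.1, ← hb.2.1]; simp [Y, sum_add_distrib],
    fun σ hσ => by rw [map_add, ha.2.2 σ hσ, hb.2.2 σ hσ]⟩
  smul_mem' := fun c a ha => ⟨W.smul_mem c ha.1, by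
    rw [smul_comm, ← ha.2.1]; simp [Y, smul_sum],
    fun σ hσ => by rw [map_smul, ha.2.2 σ hσ]⟩

theorem step (C : Finset Ω) (W : Submodule ℝ V) (hW : ∀ σ, Supp C σ → ∀ v ∈ W, ρ σ v ∈ W)
    (v : V) (hv : v ∈ W) (hv0 : v ≠ 0) (t : ℝ) (ht : Y ρ C v = t • v) :
    ∃ B ⊆ C, (C.Nonempty → B.Nonempty) ∧ ∃ u ∈ eig ρ W C t B, u ≠ 0 ∧
      (∀ B' ⊆ C, ∀ u' ∈ eig ρ W C t B', u' ≠ 0 → B'.card ≤ B.card) ∧
      Y ρ (C \ B) u = (t - (B.card : ℝ) ^ 2 + 2 * (C \ B).card) • u := by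
  classical
  obtain ⟨B, hB, hmax⟩ := exists_max_image
    (C.powerset.filter fun B => ∃ u ∈ eig ρ W C t B, u ≠ 0) card
    ⟨∅, mem_filter.2 ⟨by simp, v, ⟨hv, ht, fun σ hσ => by
      rw [show σ = 1 from Equiv.ext fun a => hσ a (by simp), map_one]; rfl⟩, hv0⟩⟩
  obtain ⟨hBC, u, hu, hu0⟩ := mem_filter.1 hB
  rw [mem_powerset] at hBC
  have hmax' : ∀ B' ⊆ C, ∀ u' ∈ eig ρ W C t B', u' ≠ 0 → B'.card ≤ B.card :=
    fun B' hB' u' hu' h0 => hmax B' (mem_filter.2 ⟨mem_powerset.2 hB', u', hu', h0⟩)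
  refine ⟨B, hBC, fun ⟨x, hx⟩ => ?_, u, hu, hu0, hmax', ?_⟩
  · have := hmax' {x} (by simpa using hx) v ⟨hv, ht, fun σ hσ => by
      have : σ = 1 := Equiv.ext fun a => by
        by_cases h : a = x
        · subst h
          simpa using (hσ.mem_iff a).1 (by simp)
        · exact hσ a (by simpa using h)
      rw [this, map_one]; rfl⟩ hv0
    rw [card_singleton] at this
    exact card_pos.1 this
  have key : ∀ y ∈ C \ B, ∑ z ∈ B, ρ (Equiv.swap y z) u = -u := by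
    intro y hy
    obtain ⟨hyC, hyB⟩ := mem_sdiff.1 hy
    have hsub : insert y B ⊆ C := insert_subset hyC hBC
    have h1 : ∑ z ∈ insert y B, ρ (Equiv.swap y z) u ∈ eig ρ W C t (insert y B) := by
      refine ⟨W.sum_mem fun z hz => hW _ (supp_swap hyC (hsub hz)) u hu.1, ?_, fun σ hσ => ?_⟩
      · have : Y ρ C (∑ z ∈ insert y B, ρ (Equiv.swap y z) u) =
            ∑ z ∈ insert y B, Y ρ C (ρ (Equiv.swap y z) u) := by
          simp only [Y, map_sum]
          rw [sum_comm (s := insert y B)]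
          exact sum_congr rfl fun x _ => sum_comm
        rw [this, smul_sum]
        refine sum_congr rfl fun z hz => ?_
        rw [← Y_comm ρ (supp_swap hyC (hsub hz)), hu.2.1, map_smul]
      · rw [map_sum]
        refine sum_equiv σ (fun x => hσ.mem_iff x) fun z hz => ?_
        have h2 : Supp B (Equiv.swap y (σ z) * σ * Equiv.swap y z) := by
          intro a ha
          by_cases hay : a = y
          · subst hay; simp
          · have ha' : a ∉ insert y B := by simp [hay, ha]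
            simp only [Equiv.Perm.mul_apply]
            rw [supp_swap (mem_insert_self y B) hz a ha', hσ a ha',
              supp_swap (mem_insert_self y B) ((hσ.mem_iff z).1 hz) a ha']
        conv_rhs => rw [← hu.2.2 _ h2]
        rw [← Module.End.mul_apply, ← Module.End.mul_apply, ← map_mul, ← map_mul, ← mul_assoc,
          ← mul_assoc, Equiv.swap_mul_self, one_mul]
    have h2 : ∑ z ∈ insert y B, ρ (Equiv.swap y z) u = 0 := by
      by_contra h0
      have := hmax' _ hsub _ h1 h0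
      rw [card_insert_of_notMem hyB] at this
      omega
    rw [sum_insert hyB, Equiv.swap_self] at h2
    have h3 : ρ (Equiv.refl Ω) u = u := by
      change ρ 1 u = u
      rw [map_one]; rfl
    rw [h3] at h2
    exact eq_neg_of_add_eq_zero_right h2
  have e1 : Y ρ C u = Y ρ (C \ B) u + (∑ y ∈ C \ B, ∑ z ∈ B, ρ (Equiv.swap y z) u) +
      (∑ z ∈ B, ∑ y ∈ C \ B, ρ (Equiv.swap z y) u) + ∑ x ∈ B, ∑ z ∈ B, ρ (Equiv.swap x z) u := by
    simp only [Y]
    rw [← sum_sdiff hBC, add_assoc, ← sum_add_distrib, ← sum_add_distrib]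
    congr 1
    · exact sum_congr rfl fun x _ => (sum_sdiff hBC).symm
    · exact sum_congr rfl fun x _ => (sum_sdiff hBC).symm
  have e2 : ∑ z ∈ B, ∑ y ∈ C \ B, ρ (Equiv.swap z y) u =
      ∑ y ∈ C \ B, ∑ z ∈ B, ρ (Equiv.swap y z) u := by
    rw [sum_comm]
    simp only [Equiv.swap_comm]
  have e3 : ∑ x ∈ B, ∑ z ∈ B, ρ (Equiv.swap x z) u = ((B.card : ℝ) ^ 2) • u := by
    rw [sum_congr rfl fun x hx => sum_congr rfl fun z hz => hu.2.2 _ (supp_swap hx hz)]
    simp only [sum_const, ← Nat.cast_smul_eq_nsmul ℝ, smul_smul, pow_two]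
  rw [e2, e3, sum_congr rfl key, hu.2.1, sum_const, ← Nat.cast_smul_eq_nsmul ℝ] at e1
  linear_combination (norm := module) -e1

theorem eig_inv {C B : Finset Ω} {W : Submodule ℝ V} (hW : ∀ σ, Supp C σ → ∀ v ∈ W, ρ σ v ∈ W)
    (t : ℝ) : ∀ σ, Supp (C \ B) σ → ∀ v ∈ eig ρ W C t B, ρ σ v ∈ eig ρ W C t B := by
  intro σ hσ v hv
  have hC : Supp C σ := hσ.mono sdiff_subset
  refine ⟨hW σ hC v hv.1, by rw [← Y_comm ρ hC, hv.2.1, map_smul], fun τ hτ => ?_⟩
  have : Commute τ σ := Equiv.Perm.Disjoint.commute fun a => by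
    by_cases h : a ∈ B
    · exact Or.inr (hσ a (by simp [h]))
    · exact Or.inl (hτ a h)
  rw [← Module.End.mul_apply, ← map_mul, this.eq, map_mul, Module.End.mul_apply, hv.2.2 τ hτ]

theorem claim (C : Finset Ω) : ∀ (l : ℕ) (W : Submodule ℝ V),
    (∀ σ, Supp C σ → ∀ v ∈ W, ρ σ v ∈ W) →
    (∀ B ⊆ C, ∀ u ∈ W, u ≠ 0 → (∀ σ, Supp B σ → ρ σ u = u) → B.card ≤ l) →
    ∀ v ∈ W, v ≠ 0 → ∀ t : ℝ, Y ρ C v = t • v → t ≤ C.card * l := by
  induction C using Finset.strongInduction with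
  | H C ih =>
  intro l W hW hl v hv hv0 t ht
  rcases C.eq_empty_or_nonempty with rfl | hC
  · simp only [Y, sum_empty] at ht
    rcases smul_eq_zero.1 ht.symm with h | h
    · simp [h]
    · exact absurd h hv0
  obtain ⟨B, hBC, hne, u, hu, hu0, hmax, hY⟩ := step ρ C W hW v hv hv0 t ht
  have h1 := ih (C \ B) (sdiff_ssubset hBC (hne hC)) B.card (eig ρ W C t B) (eig_inv ρ hW t)
    (fun B' hB' u' hu' h0 hf => hmax B' (hB'.trans sdiff_subset) u' ⟨hu'.1, hu'.2.1, hf⟩ h0)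
    u hu hu0 _ hY
  have h2 : (B.card : ℝ) ≤ l := by exact_mod_cast hl B hBC u hu.1 hu0 hu.2.2
  have h3 : (C.card : ℝ) = (C \ B).card + B.card := by
    exact_mod_cast (card_sdiff_add_card_eq_card hBC).symm
  have h4 : (0 : ℝ) ≤ (C \ B).card := Nat.cast_nonneg _
  have h5 : (0 : ℝ) ≤ B.card := Nat.cast_nonneg _
  rw [h3]
  nlinarith

end Spectral

open Spectral in
/-- In every invariant space of eigenvectors of the sum of all transpositions there is a non-zero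
vector fixed by the pointwise stabiliser of a set `A`, and the eigenvalue is bounded in terms of
the size of `A`. -/
theorem exists_invariant_eigen {Ω V : Type} [Fintype Ω] [DecidableEq Ω] [AddCommGroup V]
    [Module ℝ V] (ρ : Equiv.Perm Ω →* Module.End ℝ V) (W : Submodule ℝ V)
    (hW : ∀ σ, ∀ v ∈ W, ρ σ v ∈ W) (v : V) (hv : v ∈ W) (hv0 : v ≠ 0) (t : ℝ)
    (ht : ∑ x, ∑ y, ρ (Equiv.swap x y) v = t • v) :
    ∃ (A : Finset Ω) (u : V), u ∈ W ∧ u ≠ 0 ∧ (∑ x, ∑ y, ρ (Equiv.swap x y) u = t • u) ∧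
      (∀ σ : Equiv.Perm Ω, (∀ a ∈ A, σ a = a) → ρ σ u = u) ∧
      kapLow (Fintype.card Ω) A.card
        ≤ ((Fintype.card Ω : ℝ) ^ 2 - t) / (2 * (Fintype.card Ω : ℝ)) := by
  obtain ⟨B, hBC, -, u, hu, hu0, hmax, hY⟩ := step ρ univ W (fun σ _ => hW σ) v hv hv0 t ht
  refine ⟨univ \ B, u, hu.1, hu0, hu.2.1, fun σ hσ => hu.2.2 σ fun a ha => hσ a (by simp [ha]), ?_⟩
  have h1 := claim ρ (univ \ B) B.card (eig ρ W univ t B) (eig_inv ρ (fun σ _ => hW σ) t)
    (fun B' _ u' hu' h0 hf => hmax B' (subset_univ _) u' ⟨hu'.1, hu'.2.1, hf⟩ h0) u hu hu0 _ hY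
  have h2 := claim ρ (univ \ B) (univ \ B).card (eig ρ W univ t B) (eig_inv ρ (fun σ _ => hW σ) t)
    (fun B' hB' _ _ _ _ => card_le_card hB') u hu hu0 _ hY
  have h3 : (Fintype.card Ω : ℝ) = (univ \ B).card + B.card := by
    exact_mod_cast (card_sdiff_add_card_eq_card hBC).symm
  have h4 : (0 : ℝ) ≤ (univ \ B).card := Nat.cast_nonneg _
  have h5 : (0 : ℝ) ≤ B.card := Nat.cast_nonneg _
  unfold kapLow
  generalize ((univ \ B).card : ℝ) = k at *
  generalize (B.card : ℝ) = b at *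
  generalize (Fintype.card Ω : ℝ) = n at *
  rcases (add_nonneg h4 h5).eq_or_lt with h0 | h0
  · have hk : k = 0 := by linarith
    have hn : n = 0 := by linarith
    rw [hk, hn]
    simp
  rw [← h3] at h0
  refine max_le ?_ ?_
  · rw [div_le_div_iff₀ (by norm_num) (by positivity), h3]
    nlinarith
  · rw [div_le_div_iff₀ h0 (by positivity), mul_comm 2 n, mul_comm n 2, ← mul_assoc]
    refine mul_le_mul_of_nonneg_right ?_ h0.le
    rw [h3]
    nlinarith

end Crest.Agent.R155
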