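import Crest.Agent.R155.Casimir
import Crest.Agent.R155.Spectral

open Finset Matrix
open scoped BigOperators

set_option linter.unusedSectionVars false

namespace Crest.Agent.R155

variable {Ω : Type} [Fintype Ω] [DecidableEq Ω]

/-- The inclusion of `A`. -/
def incl (A : Finset Ω) : A ↪ Ω := Function.Embedding.subtype _

/-- The pull-back of functions of the positions of the cards in `A`. -/
def Pi' (A : Finset Ω) : Matrix (Equiv.Perm Ω) (A ↪ Ω) ℝ :=
  Matrix.of fun g x => if tupAct A Ω g (incl A) = x then 1 else 0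

theorem Pi'_mulVec (A : Finset Ω) (w : (A ↪ Ω) → ℝ) (g : Equiv.Perm Ω) :
    (Pi' A *ᵥ w) g = w (tupAct A Ω g (incl A)) := by
  simp [Pi', mulVec, dotProduct]

theorem tup_surj (A : Finset Ω) (x : A ↪ Ω) : ∃ g, tupAct A Ω g (incl A) = x := by
  obtain ⟨g, hg⟩ := Equiv.Perm.exists_extending_pair (incl A) x (incl A).injective x.injective
  exact ⟨g, by ext a; exact hg a⟩

theorem leftAct_apply (σ g : Equiv.Perm Ω) : leftAct Ω σ g = σ * g := rfl

theorem Lm_Pi' (A : Finset Ω) (σ : Equiv.Perm Ω) :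
    Lm (leftAct Ω) σ * Pi' A = Pi' A * Lm (tupAct A Ω) σ := by
  refine Matrix.ext_of_mulVec_single fun x => ?_
  funext g
  rw [← mulVec_mulVec, ← mulVec_mulVec, Lm_mulVec, Pi'_mulVec, Pi'_mulVec, Lm_mulVec,
    leftAct_apply, map_mul]
  rfl

theorem kap_Pi' (A : Finset Ω) : kap (leftAct Ω) * Pi' A = Pi' A * kap (tupAct A Ω) := by
  simp only [kap, Matrix.smul_mul, Matrix.mul_smul, Matrix.sum_mul, Matrix.mul_sum, Matrix.sub_mul,
    Matrix.mul_sub, Matrix.one_mul, Matrix.mul_one, Lm_Pi']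

theorem avg_Pi' {ι : Type} [Fintype ι] (φ : ι → Equiv.Perm Ω) (A : Finset Ω) :
    avgM (fun i => Lm (leftAct Ω) (φ i)) * Pi' A
      = Pi' A * avgM (fun i => Lm (tupAct A Ω) (φ i)) := by
  simp only [avgM, Matrix.smul_mul, Matrix.mul_smul, Matrix.sum_mul, Matrix.mul_sum, Lm_Pi']

theorem pow_intertwine {X Y : Type} [Fintype X] [DecidableEq X] [Fintype Y] [DecidableEq Y]
    (M : Matrix X X ℝ) (N : Matrix Y Y ℝ) (P : Matrix X Y ℝ) (h : M * P = P * N) (r : ℕ) :
    M ^ r * P = P * N ^ r := by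
  induction r with
  | zero => simp
  | succ r ih => rw [pow_succ, Matrix.mul_assoc, h, ← Matrix.mul_assoc, ih, Matrix.mul_assoc,
      ← pow_succ]

/-- Right translation. -/
def rightRep (Ω : Type) [Fintype Ω] [DecidableEq Ω] :
    Equiv.Perm Ω →* Module.End ℝ (Equiv.Perm Ω → ℝ) where
  toFun σ := LinearMap.funLeft ℝ ℝ (fun g => g * σ)
  map_one' := by ext F g; simp
  map_mul' σ τ := by ext F g; simp [mul_assoc]

theorem rightRep_apply (σ : Equiv.Perm Ω) (F : Equiv.Perm Ω → ℝ) (g : Equiv.Perm Ω) :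
    rightRep Ω σ F g = F (g * σ) := rfl

theorem kap_left_apply (F : Equiv.Perm Ω → ℝ) (g : Equiv.Perm Ω) :
    (kap (leftAct Ω) *ᵥ F) g = (2 * (Fintype.card Ω : ℝ))⁻¹ *
      ((Fintype.card Ω : ℝ) ^ 2 * F g - ∑ u, ∑ v, F (Equiv.swap u v * g)) := by
  simp only [kap, Matrix.smul_mulVec, Matrix.sum_mulVec, Matrix.sub_mulVec, one_mulVec,
    Pi.smul_apply, Finset.sum_apply, Pi.sub_apply, Lm_mulVec, Equiv.swap_inv, leftAct_apply,
    smul_eq_mul]
  simp only [Finset.sum_sub_distrib, Finset.sum_const, Finset.card_univ, nsmul_eq_mul]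
  ring

theorem sum_right_swap (F : Equiv.Perm Ω → ℝ) (g : Equiv.Perm Ω) :
    (∑ x, ∑ y, rightRep Ω (Equiv.swap x y) F) g = ∑ u, ∑ v, F (Equiv.swap u v * g) := by
  simp only [Finset.sum_apply, rightRep_apply, Equiv.mul_swap_eq_swap_mul]
  symm
  rw [← Equiv.sum_comp g]
  refine Finset.sum_congr rfl fun u _ => ?_
  rw [← Equiv.sum_comp g]

theorem kap_eigen_iff [Nonempty Ω] (F : Equiv.Perm Ω → ℝ) (t : ℝ) :
    kap (leftAct Ω) *ᵥ F = t • F ↔ ∑ x, ∑ y, rightRep Ω (Equiv.swap x y) F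
      = ((Fintype.card Ω : ℝ) ^ 2 - 2 * (Fintype.card Ω : ℝ) * t) • F := by
  have hn : (0 : ℝ) < Fintype.card Ω := by exact_mod_cast Fintype.card_pos
  simp only [funext_iff, kap_left_apply, sum_right_swap, Pi.smul_apply, smul_eq_mul]
  refine forall_congr' fun g => ?_
  rw [inv_mul_eq_iff_eq_mul₀ (by positivity)]
  constructor <;> intro h <;> linarith

/-- Eigenfunctions of level `A`. -/
def Good (F : Equiv.Perm Ω → ℝ) : Prop :=
  ∃ (A : Finset Ω) (t : ℝ), kap (leftAct Ω) *ᵥ F = t • F ∧ kapLow (Fintype.card Ω) A.card ≤ t ∧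
    ∀ σ : Equiv.Perm Ω, (∀ a ∈ A, σ a = a) → rightRep Ω σ F = F

theorem Good.right {F : Equiv.Perm Ω → ℝ} (h : Good F) (σ : Equiv.Perm Ω) :
    Good (rightRep Ω σ F) := by
  obtain ⟨A, t, h1, h2, h3⟩ := h
  refine ⟨A.map σ.toEmbedding, t, ?_, by rwa [Finset.card_map], fun τ hτ => ?_⟩
  · funext g
    have := congrFun h1 (g * σ)
    simp only [kap_left_apply, rightRep_apply, Pi.smul_apply, mul_assoc] at this ⊢
    exact this
  · have := h3 (σ⁻¹ * τ * σ) (fun a ha => by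
      have := hτ (σ a) (Finset.mem_map_of_mem _ ha)
      simp [this])
    conv_rhs => rw [← this]
    rw [← Module.End.mul_apply, ← Module.End.mul_apply, ← map_mul, ← map_mul]
    congr 2; group

theorem span_good [Nonempty Ω] : Submodule.span ℝ {F : Equiv.Perm Ω → ℝ | Good F} = ⊤ := by
  by_contra hne
  set S := Submodule.span ℝ {F : Equiv.Perm Ω → ℝ | Good F} with hS
  have hn : (0 : ℝ) < Fintype.card Ω := by exact_mod_cast Fintype.card_pos
  have hK : ∀ v ∈ S, kap (leftAct Ω) *ᵥ v ∈ S := by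
    intro v hv
    induction hv using Submodule.span_induction with
    | mem x hx =>
      obtain ⟨A, t, h1, -⟩ := id hx
      rw [h1]; exact S.smul_mem _ (Submodule.subset_span hx)
    | zero => simp
    | add x y _ _ hx hy => rw [mulVec_add]; exact S.add_mem hx hy
    | smul c x _ hx => rw [mulVec_smul]; exact S.smul_mem _ hx
  have hR : ∀ σ, ∀ v ∈ S, rightRep Ω σ v ∈ S := by
    intro σ v hv
    induction hv using Submodule.span_induction with
    | mem x hx => exact Submodule.subset_span (Good.right hx σ)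
    | zero => simp
    | add x y _ _ hx hy => rw [map_add]; exact S.add_mem hx hy
    | smul c x _ hx => rw [map_smul]; exact S.smul_mem _ hx
  obtain ⟨v, t, hv0, hv, ht⟩ := exists_eigen_orth _ (kap_transpose _) S hK hne
  let W : Submodule ℝ (Equiv.Perm Ω → ℝ) :=
    { carrier := {u | ∀ s ∈ S, s ⬝ᵥ u = 0}
      add_mem' := fun ha hb s hs => by rw [dotProduct_add, ha s hs, hb s hs, add_zero]
      zero_mem' := fun s _ => dotProduct_zero s
      smul_mem' := fun c u hu s hs => by rw [dotProduct_smul, hu s hs, smul_zero] }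
  have hW : ∀ σ, ∀ u ∈ W, rightRep Ω σ u ∈ W := by
    intro σ u hu s hs
    rw [← hu _ (hR σ⁻¹ s hs)]
    simp only [dotProduct, rightRep_apply]
    rw [← Equiv.sum_comp (Equiv.mulRight σ⁻¹)]
    simp
  obtain ⟨A, u, huW, hu0, hut, hinv, hlow⟩ := exists_invariant_eigen (rightRep Ω) W hW v hv hv0 _
    ((kap_eigen_iff v t).1 ht)
  have hg : Good u := ⟨A, t, (kap_eigen_iff u t).2 hut, hlow.trans (le_of_eq (by field_simp; ring)),
    hinv⟩
  exact hu0 (dotProduct_self_eq_zero.1 (huW u (Submodule.subset_span hg)))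

theorem trace_le_sum_levels [Nonempty Ω] {ι : Type} [Fintype ι] (φ : ι → Equiv.Perm Ω) (R : ℕ)
    (b : Finset Ω → ℝ)
    (hb : ∀ (A : Finset Ω) (Q : Matrix (A ↪ Ω) (A ↪ Ω) ℝ), Qᵀ = Q → Q * Q = Q →
      (∀ B, Commute B (kap (tupAct A Ω)) → Commute B Q) →
      (∀ a : ℝ, 0 ≤ a → ∀ v, Q *ᵥ v = v →
        (Em (tupAct A Ω) (-(a / 2)) *ᵥ v) ⬝ᵥ (Em (tupAct A Ω) (-(a / 2)) *ᵥ v)
          ≤ Real.exp (-(a * kapLow (Fintype.card Ω) A.card)) * (v ⬝ᵥ v)) →
      (Q * ((avgM (fun i => Lm (tupAct A Ω) (φ i)))ᵀ ^ R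
        * avgM (fun i => Lm (tupAct A Ω) (φ i)) ^ R) * Q).trace ≤ b A) :
    ((avgM (fun i => Lm (leftAct Ω) (φ i)))ᵀ ^ R * avgM (fun i => Lm (leftAct Ω) (φ i)) ^ R).trace
      ≤ ∑ A, b A := by
  choose Q hQt hQQ hQc hQe hQx using fun A : Finset Ω =>
    exists_spectral_proj (kap (tupAct A Ω)) (kap_transpose _) (kapLow (Fintype.card Ω) A.card)
  set M : (A : Finset Ω) → Matrix (A ↪ Ω) (A ↪ Ω) ℝ := fun A =>
    (avgM (fun i => Lm (tupAct A Ω) (φ i)))ᵀ ^ R * avgM (fun i => Lm (tupAct A Ω) (φ i)) ^ R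
    with hM
  have hMK : ∀ A, Commute (M A) (kap (tupAct A Ω)) := fun A => by
    simp only [hM, avgM_transpose, Lm_transpose]
    exact ((commute_avgM _ _ fun i => (commute_Lm_kap _ _).symm).symm.pow_left R).mul_left
      ((commute_avgM _ _ fun i => (commute_Lm_kap _ _).symm).symm.pow_left R)
  choose v l hev hl hsp hsum using fun A : Finset Ω => exists_eigen_family (M A) (Q A)
    (by simp only [hM, transpose_mul, transpose_pow, transpose_transpose]) (hQt A) (hQQ A)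
    (hQc A _ (hMK A)) (fun w => by
      simp only [hM]
      rw [← mulVec_mulVec, ← transpose_pow, dotProduct_mulVec, vecMul_transpose]
      exact Finset.sum_nonneg fun _ _ => mul_self_nonneg _)
  have hint : ∀ A : Finset Ω, ((avgM (fun i => Lm (leftAct Ω) (φ i)))ᵀ ^ R
      * avgM (fun i => Lm (leftAct Ω) (φ i)) ^ R) * Pi' A = Pi' A * M A := fun A => by
    simp only [hM, avgM_transpose, Lm_transpose]
    rw [Matrix.mul_assoc, pow_intertwine _ _ _ (avg_Pi' φ A), ← Matrix.mul_assoc,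
      pow_intertwine _ _ _ (avg_Pi' (fun i => (φ i)⁻¹) A), Matrix.mul_assoc]
  refine (trace_le_of_span (ι := (A : Finset Ω) × (A ↪ Ω)) _ (fun i => Pi' i.1 *ᵥ v i.1 i.2)
    (fun i => l i.1 i.2) ?_ (fun i => ?_) (fun i => hl _ _)).trans ?_
  · rw [eq_top_iff, ← span_good, Submodule.span_le]
    rintro F ⟨A, t, h1, h2, h3⟩
    choose γ hγ using tup_surj A
    have hF : Pi' A *ᵥ (fun x => F (γ x)) = F := by
      funext g
      rw [Pi'_mulVec]
      have := congrFun (h3 (g⁻¹ * γ (tupAct A Ω g (incl A))) (fun a ha => by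
        have := congrArg (fun x : A ↪ Ω => x ⟨a, ha⟩) (hγ (tupAct A Ω g (incl A)))
        rw [Equiv.Perm.mul_apply, Equiv.Perm.inv_eq_iff_eq]
        exact this)) g
      rwa [rightRep_apply, mul_inv_cancel_left] at this
    have hw : kap (tupAct A Ω) *ᵥ (fun x => F (γ x)) = t • (fun x => F (γ x)) := by
      funext x
      have := congrFun h1 (γ x)
      conv_lhs at this => rw [← hF, mulVec_mulVec, kap_Pi', ← mulVec_mulVec, Pi'_mulVec, hγ]
      exact this
    have hmem := hsp A _ (hQe A _ t hw h2)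
    rw [← hF]
    have := Submodule.mem_map_of_mem (f := Matrix.mulVecLin (Pi' A)) hmem
    rw [Submodule.map_span] at this
    refine Submodule.span_mono ?_ this
    rintro _ ⟨_, ⟨x, rfl⟩, rfl⟩
    exact ⟨⟨A, x⟩, rfl⟩
  · rw [mulVec_mulVec, hint, ← mulVec_mulVec, hev, mulVec_smul]
  · rw [Fintype.sum_sigma]
    refine Finset.sum_le_sum fun A _ => ?_
    rw [hsum]
    exact hb A (Q A) (hQt A) (hQQ A) (hQc A) (hQx A)

end Crest.Agent.R155
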