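import Crest.Agent.R155.MainA
import Crest.Agent.R155.LD
import Crest.Agent.R155.Benes

open Finset Matrix
open scoped BigOperators

set_option linter.unusedSectionVars false

namespace Crest.Agent.R155

section Gen

variable {X : Type} [Fintype X] [DecidableEq X]

theorem trace_transpose_mul_eq (B : Matrix X X ℝ) :
    (Bᵀ * B).trace = ∑ x, (B *ᵥ Pi.single x 1) ⬝ᵥ (B *ᵥ Pi.single x 1) := by
  simp [Matrix.trace, Matrix.mul_apply, dotProduct]

theorem proj_nsq_le (Q : Matrix X X ℝ) (hQ : Qᵀ = Q) (hQQ : Q * Q = Q) (u : X → ℝ) :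
    (Q *ᵥ u) ⬝ᵥ (Q *ᵥ u) ≤ u ⬝ᵥ u := by
  have h1 : (Q *ᵥ u) ⬝ᵥ (Q *ᵥ u) = u ⬝ᵥ (Q *ᵥ u) := by
    rw [dotProduct_mulVec, ← mulVec_transpose, hQ, mulVec_mulVec, hQQ, dotProduct_comm]
  have h2 : 0 ≤ (u - Q *ᵥ u) ⬝ᵥ (u - Q *ᵥ u) := Finset.sum_nonneg fun _ _ => mul_self_nonneg _
  rw [sub_dotProduct, dotProduct_sub, dotProduct_sub, h1, dotProduct_comm (Q *ᵥ u) u] at h2
  linarith

theorem trace_QMQ_le (T Q : Matrix X X ℝ) (hQ : Qᵀ = Q) (hQQ : Q * Q = Q) (hc : Commute T Q)
    (w : ℝ) (hw : 0 ≤ w) (h : ∀ v, Q *ᵥ v = v → (T *ᵥ v) ⬝ᵥ (T *ᵥ v) ≤ w * (v ⬝ᵥ v)) (m p : ℕ) :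
    (Q * (Tᵀ ^ (m + p) * T ^ (m + p)) * Q).trace ≤ w ^ m * (Tᵀ ^ p * T ^ p).trace := by
  have h1 : Q * (Tᵀ ^ (m + p) * T ^ (m + p)) * Q = (T ^ (m + p) * Q)ᵀ * (T ^ (m + p) * Q) := by
    simp only [transpose_mul, transpose_pow, hQ, Matrix.mul_assoc]
  have h2 : ∀ v, Q *ᵥ v = v → ∀ m, (T ^ m *ᵥ v) ⬝ᵥ (T ^ m *ᵥ v) ≤ w ^ m * (v ⬝ᵥ v) := by
    intro v hv m
    induction m with
    | zero => simp
    | succ m ih =>
      rw [pow_succ' T, ← mulVec_mulVec, pow_succ', mul_assoc]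
      refine (h _ ?_).trans (mul_le_mul_of_nonneg_left ih hw)
      rw [mulVec_mulVec, ← (hc.pow_left m).eq, ← mulVec_mulVec, hv]
  rw [h1, ← transpose_pow, trace_transpose_mul_eq, trace_transpose_mul_eq, Finset.mul_sum]
  refine Finset.sum_le_sum fun x _ => ?_
  have h3 : (T ^ (m + p) * Q) *ᵥ Pi.single x 1 = T ^ m *ᵥ (Q *ᵥ (T ^ p *ᵥ Pi.single x 1)) := by
    rw [pow_add, Matrix.mul_assoc, (hc.pow_left p).eq, mulVec_mulVec, mulVec_mulVec,
      Matrix.mul_assoc]
  rw [h3]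
  refine (h2 _ (by rw [mulVec_mulVec, hQQ]) m).trans ?_
  exact mul_le_mul_of_nonneg_left (proj_nsq_le Q hQ hQQ _) (by positivity)

/-- One pass contracts the functions of high level. -/
theorem contraction (a ρ : ℝ) (ha : 0 ≤ a) (hρ0 : 0 < ρ) (hρ1 : ρ ≤ 1)
    (hy : 8 * ρ / 5 * (Real.exp (5 * a) - 1) ≤ 1) (D : ℕ) (C : Cfg (Cube D) X) (k : ℕ)
    (hk : ∀ x, (C.occ x).card = k) (B p κ : ℝ)
    (hp : ∀ x, 𝔼 ω : Sw D, (if B < (bad ρ D ((C.occ x).map (net D ω).toEmbedding) : ℝ)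
      then (1 : ℝ) else 0) ≤ p) (v : X → ℝ)
    (hv : (Em C.act (-(a / 2)) *ᵥ v) ⬝ᵥ (Em C.act (-(a / 2)) *ᵥ v)
      ≤ Real.exp (-(a * κ)) * (v ⬝ᵥ v)) :
    (Tm D C.act *ᵥ v) ⬝ᵥ (Tm D C.act *ᵥ v)
      ≤ (Real.exp (2 * a * B + 2 * a ^ 2 * Real.exp (15 / 2 * a) * k * ρ - a * κ) + p)
        * (v ⬝ᵥ v) := by
  obtain ⟨β, hβ⟩ : ∃ β, β = 2 * a * B + 2 * a ^ 2 * Real.exp (15 / 2 * a) * k * ρ := ⟨_, rfl⟩
  rw [← hβ]
  have h1 := (casimir a ρ ha hρ0 hρ1 hy D C v).trans hv
  have h2 := weighted_Tm_le D C.act (fun y => if B < (bad ρ D (C.occ y) : ℝ) then (1 : ℝ) else 0)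
    (fun y => by split_ifs <;> norm_num) p (fun x => by simpa only [C.occ_act] using hp x) v
  have h3 : (Tm D C.act *ᵥ v) ⬝ᵥ (Tm D C.act *ᵥ v) ≤ Real.exp β *
      ((Wm a ρ D C *ᵥ (Tm D C.act *ᵥ v)) ⬝ᵥ (Wm a ρ D C *ᵥ (Tm D C.act *ᵥ v)))
      + ∑ y, (if B < (bad ρ D (C.occ y) : ℝ) then (1 : ℝ) else 0) * (Tm D C.act *ᵥ v) y ^ 2 := by
    simp only [dotProduct, Wm, mulVec_diagonal, Finset.mul_sum, ← Finset.sum_add_distrib]
    refine Finset.sum_le_sum fun y _ => ?_
    generalize (Tm D C.act *ᵥ v) y = z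
    have e1 : Real.exp β * (Real.exp (-beta a ρ D (C.occ y) / 2) * z
        * (Real.exp (-beta a ρ D (C.occ y) / 2) * z))
        = Real.exp (β - beta a ρ D (C.occ y)) * (z * z) := by
      rw [show β - beta a ρ D (C.occ y)
        = β + (-beta a ρ D (C.occ y) / 2 + -beta a ρ D (C.occ y) / 2) by ring,
        Real.exp_add, Real.exp_add]; ring
    rw [e1]
    have hz := mul_self_nonneg z
    split_ifs with hb
    · have := mul_nonneg (Real.exp_pos (β - beta a ρ D (C.occ y))).le hz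
      nlinarith
    · have : 1 ≤ Real.exp (β - beta a ρ D (C.occ y)) := by
        refine Real.one_le_exp (sub_nonneg.2 ?_)
        rw [hβ, beta, hk]
        refine add_le_add (mul_le_mul_of_nonneg_left (not_lt.1 hb) (by positivity))
          (mul_le_mul_of_nonneg_left (max_le hρ0.le (sub_le_self _ (by positivity)))
            (by positivity))
      nlinarith
  refine h3.trans ?_
  rw [add_mul, sub_eq_add_neg, Real.exp_add, mul_assoc]
  exact add_le_add (mul_le_mul_of_nonneg_left h1 (Real.exp_pos _).le) h2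

end Gen

theorem bad_one : ∀ (h : ℕ) (S : Finset (Cube h)), bad 1 h S = 0
  | 0, _ => rfl
  | h + 1, S => by
    rw [bad_succ, if_neg]
    · simp [bad_one h]
    · rintro ⟨-, h2⟩
      have h3 : S.card ≤ 2 ^ (h + 1) := (Finset.card_le_univ _).trans (card_cube (h + 1)).le
      have h4 : ((S.card : ℕ) : ℝ) ≤ 2 ^ (h + 1) := by exact_mod_cast h3
      rw [one_mul] at h2
      exact absurd h2 (not_lt.2 h4)

theorem prob_bad_le (D : ℕ) (S : Finset (Cube D)) (k : ℕ) (hk : S.card = k) (hk0 : 0 < k) (x : ℝ)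
    (hx : Real.exp x * k = 2 ^ D) (hx30 : 30 ≤ x) :
    𝔼 ω : Sw D, (if (k : ℝ) / 4 < (bad (Real.exp (-x / 2)) D (S.map (net D ω).toEmbedding) : ℝ)
      then (1 : ℝ) else 0) ≤ Real.exp (-(x * k / 512)) := by
  have hk' : (0 : ℝ) < k := by exact_mod_cast hk0
  have h1 := bad_exp_moment (Real.exp (-x / 2)) (Real.exp x) (Real.exp_pos _) (Real.exp_pos _).le
    D S
  set z := 1 + Real.exp x * Real.exp (-x / 2) / 2 with hz
  have hz1 : Real.exp (x / 2 - 1) ≤ z := by
    rw [hz, ← Real.exp_add, show x + -x / 2 = (x / 2 - 1) + 1 by ring, Real.exp_add]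
    have := Real.add_one_le_exp 1
    have := Real.exp_pos (x / 2 - 1)
    nlinarith
  have hz0 : 1 ≤ Real.exp (x / 2 - 1) := Real.one_le_exp (by linarith)
  have h2 : ∏ i ∈ range S.card, (1 + Real.exp x / 2 ^ D * (i : ℝ)) ≤ Real.exp k := by
    rw [hk]
    calc _ ≤ ∏ i ∈ range k, Real.exp 1 := by
          refine Finset.prod_le_prod (fun i _ => by positivity) fun i hi => ?_
          refine le_trans ?_ (Real.add_one_le_exp 1)
          have : (i : ℝ) ≤ k := by exact_mod_cast (Finset.mem_range.1 hi).le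
          rw [← hx, add_comm, add_le_add_iff_right, div_mul_eq_mul_div, div_le_one (by positivity)]
          exact mul_le_mul_of_nonneg_left this (Real.exp_pos _).le
      _ = _ := by rw [Finset.prod_const, Finset.card_range, ← Real.exp_nat_mul, mul_one]
  have h3 : ∀ b : ℝ, (if (k : ℝ) / 4 < b then (1 : ℝ) else 0)
      ≤ Real.exp (-((x / 2 - 1) * (k / 12))) * z ^ (b / 3) := by
    intro b
    split_ifs with hb
    · calc (1 : ℝ) = Real.exp (-((x / 2 - 1) * (k / 12))) * Real.exp (x / 2 - 1) ^ ((k : ℝ) / 12) := by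
            rw [← Real.exp_mul, ← Real.exp_add]; simp
        _ ≤ _ := by
            refine mul_le_mul_of_nonneg_left ?_ (Real.exp_pos _).le
            exact (Real.rpow_le_rpow (Real.exp_pos _).le hz1 (by positivity)).trans
              (Real.rpow_le_rpow_of_exponent_le (hz0.trans hz1) (by linarith))
    · have : 0 < z := by positivity
      positivity
  refine (Finset.expect_le_expect fun ω _ => h3 _).trans ?_
  rw [← Finset.mul_expect]
  refine (mul_le_mul_of_nonneg_left (h1.trans h2) (Real.exp_pos _).le).trans ?_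
  rw [← Real.exp_add, Real.exp_le_exp]
  nlinarith

theorem card_occ_tup {Ω : Type} [DecidableEq Ω] (A : Finset Ω) (x : A ↪ Ω) :
    ((tupCfg A Ω).occ x).card = A.card := by simp [tupCfg]

theorem kapLow_ge (n k : ℕ) (hn : 0 < n) (h : 8 * (k : ℝ) ≤ n) : 7 / 8 * (k : ℝ) ≤ kapLow n k := by
  refine le_trans ?_ (le_max_right _ _)
  have : (0 : ℝ) < n := by exact_mod_cast hn
  rw [le_div_iff₀ this]
  have : (0 : ℝ) ≤ k := by positivity
  nlinarith

/-- The contraction on level `A`. -/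
theorem level_contraction (D : ℕ) (A : Finset (Cube D)) (hA : 0 < A.card) (x : ℝ)
    (hx : Real.exp x * A.card = 2 ^ D) :
    ∃ w : ℝ, 0 ≤ w ∧
      w ^ 1568 * Real.exp ((26 + x) * A.card) ≤ (2 ^ 1568 * Real.exp 30) * Real.exp (-x) ∧
      ∀ v : (A ↪ Cube D) → ℝ, (∀ a : ℝ, 0 ≤ a →
        (Em (tupAct A (Cube D)) (-(a / 2)) *ᵥ v) ⬝ᵥ (Em (tupAct A (Cube D)) (-(a / 2)) *ᵥ v)
          ≤ Real.exp (-(a * kapLow (Fintype.card (Cube D)) A.card)) * (v ⬝ᵥ v)) →
        (Tm D (tupAct A (Cube D)) *ᵥ v) ⬝ᵥ (Tm D (tupAct A (Cube D)) *ᵥ v) ≤ w * (v ⬝ᵥ v) := by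
  set k := A.card with hk
  have hk1 : (1 : ℝ) ≤ k := by exact_mod_cast hA
  have hn : ((Fintype.card (Cube D) : ℕ) : ℝ) = Real.exp x * k := by
    rw [card_cube, hx]; push_cast; rfl
  have hn0 : 0 < Fintype.card (Cube D) := by rw [card_cube]; positivity
  set κ := kapLow (Fintype.card (Cube D)) k with hκ
  by_cases h30 : 30 ≤ x
  · refine ⟨2 * Real.exp (-(x * k / 512)), by positivity, ?_, fun v hv => ?_⟩
    · rw [mul_pow, ← Real.exp_nat_mul, mul_assoc, mul_assoc, ← Real.exp_add, ← Real.exp_add]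
      refine mul_le_mul_of_nonneg_left (Real.exp_le_exp.2 ?_) (by positivity)
      push_cast
      nlinarith
    · have hκ' : 7 / 8 * (k : ℝ) ≤ κ := kapLow_ge _ _ hn0 (by
        rw [hn]; have := Real.add_one_le_exp x; nlinarith)
      have hc := contraction (x / 128) (Real.exp (-x / 2)) (by linarith) (Real.exp_pos _)
        (Real.exp_le_one_iff.2 (by linarith)) ?_ D (tupCfg A (Cube D)) k (card_occ_tup A)
        (k / 4) _ κ (fun y => prob_bad_le D _ k (card_occ_tup A y) hA x hx h30) v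
        (hv _ (by linarith))
      · refine hc.trans (mul_le_mul_of_nonneg_right ?_
          (Finset.sum_nonneg fun _ _ => mul_self_nonneg _))
        rw [two_mul (Real.exp _), add_le_add_iff_right, Real.exp_le_exp]
        have h1 : Real.exp (15 / 2 * (x / 128)) * Real.exp (-x / 2) * (x / 8) ≤ 1 := by
          rw [← Real.exp_add]
          have h2 := Real.add_one_le_exp (-(15 / 2 * (x / 128) + -x / 2))
          have h3 : Real.exp (15 / 2 * (x / 128) + -x / 2)
              * Real.exp (-(15 / 2 * (x / 128) + -x / 2)) = 1 := by rw [← Real.exp_add]; simp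
          rw [← h3]
          exact mul_le_mul_of_nonneg_left (by linarith) (Real.exp_pos _).le
        have h4 : 2 * (x / 128) ^ 2 * Real.exp (15 / 2 * (x / 128)) * k * Real.exp (-x / 2)
            ≤ x / 128 / 8 * k := by
          have := mul_le_mul_of_nonneg_left h1 (show 0 ≤ x / 128 / 8 * k by positivity)
          refine le_trans (le_of_eq ?_) (this.trans (le_of_eq (mul_one _)))
          ring
        have h5 := mul_le_mul_of_nonneg_left hκ' (show 0 ≤ x / 128 by positivity)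
        linarith
      · have h2 := Real.add_one_le_exp (x / 2 - 5 * (x / 128))
        have h3 : Real.exp (-x / 2) * Real.exp (5 * (x / 128))
            * Real.exp (x / 2 - 5 * (x / 128)) = 1 := by
          rw [← Real.exp_add, ← Real.exp_add]; ring_nf; simp
        have h4 := Real.exp_pos (-x / 2)
        have h5 := mul_pos h4 (Real.exp_pos (5 * (x / 128)))
        nlinarith
  · have he : Real.exp (15 / 2 * (1 / 16)) ≤ 1.65 := by
      refine (Real.exp_le_exp.2 (show (15 / 2 * (1 / 16) : ℝ) ≤ 1 / 2 by norm_num)).trans ?_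
      rw [← pow_le_pow_iff_left₀ (n := 2) (Real.exp_pos _).le (by norm_num) (by norm_num),
        ← Real.exp_nat_mul]
      have := Real.exp_one_lt_d9
      norm_num at this ⊢
      linarith
    have he2 : Real.exp (5 * (1 / 16)) ≤ 1.625 := by
      have h2 := Real.add_one_le_exp (-(5 * (1 / 16)))
      have h3 : Real.exp (5 * (1 / 16)) * Real.exp (-(5 * (1 / 16))) = 1 := by
        rw [← Real.exp_add]; simp
      have := Real.exp_pos (5 * (1 / 16))
      nlinarith
    refine ⟨Real.exp (1.65 / 128 * k - κ / 16), by positivity, ?_, fun v hv => ?_⟩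
    · rw [← Real.exp_nat_mul, ← Real.exp_add, mul_assoc, ← Real.exp_add]
      refine le_trans ?_ (le_mul_of_one_le_left (Real.exp_pos _).le (one_le_pow₀ (by norm_num)))
      rw [Real.exp_le_exp]
      push_cast
      by_cases h8 : 8 ≤ Real.exp x
      · have hκ' : 7 / 8 * (k : ℝ) ≤ κ := kapLow_ge _ _ hn0 (by rw [hn]; nlinarith)
        nlinarith
      · have hκ' : (k : ℝ) / 2 ≤ κ := le_max_left _ _
        have hx8 : x ≤ 2.08 := by
          have h1 : x ≤ Real.log 8 := by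
            rw [Real.le_log_iff_exp_le (by norm_num)]; linarith
          rw [show (8 : ℝ) = 2 ^ 3 by norm_num, Real.log_pow] at h1
          have := Real.log_two_lt_d9
          push_cast at h1
          linarith
        nlinarith
    · have hc := contraction (1 / 16) 1 (by norm_num) one_pos le_rfl (by linarith) D
        (tupCfg A (Cube D)) k (card_occ_tup A) 0 0 κ (fun y => by simp [bad_one]) v
        (hv _ (by norm_num))
      refine hc.trans (mul_le_mul_of_nonneg_right ?_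
        (Finset.sum_nonneg fun _ _ => mul_self_nonneg _))
      rw [add_zero, Real.exp_le_exp]
      nlinarith

end Crest.Agent.R155
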